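import Vale.Agent.P290.H867.Cut
import Vale.Agent.P290.Bdl.B3

/-! The twisted K3 surface `X_b` and the Tate-Shafarevich twist from `X` to `X_b`. -/

open Set Filter Metric
open scoped Manifold ContDiff Topology

namespace Vale.Agent.P290.H867

open Vale.Agent.P290

section

variable {X Y C : Type} [TopologicalSpace X] [ChartedSpace C2 X] [TopologicalSpace Y]
  [ChartedSpace C2 Y] [TopologicalSpace C] [ChartedSpace ℂ C]

theorem hol_of_md {f : X → Y} {x : X} (h : MDifferentiableAt 𝓘(ℂ, C2) 𝓘(ℂ, C2) f x) :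
    All.Hol f x := by
  obtain ⟨h1, h2⟩ := (mdifferentiableAt_iff f x).1 h
  simp only [writtenInExtChartAt, extChartAt, OpenPartialHomeomorph.extend,
    modelWithCornersSelf_partialEquiv, PartialEquiv.trans_refl,
    OpenPartialHomeomorph.toFun_eq_coe, OpenPartialHomeomorph.coe_toPartialEquiv_symm,
    modelWithCornersSelf_coe, range_id] at h2
  exact ⟨h1, differentiableWithinAt_univ.1 h2⟩

theorem holC_of_md {f : X → C} {x : X} (h : MDifferentiableAt 𝓘(ℂ, C2) 𝓘(ℂ) f x) :
    All.HolC f x := by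
  obtain ⟨h1, h2⟩ := (mdifferentiableAt_iff f x).1 h
  simp only [writtenInExtChartAt, extChartAt, OpenPartialHomeomorph.extend,
    modelWithCornersSelf_partialEquiv, PartialEquiv.trans_refl,
    OpenPartialHomeomorph.toFun_eq_coe, OpenPartialHomeomorph.coe_toPartialEquiv_symm,
    modelWithCornersSelf_coe, range_id] at h2
  exact ⟨h1, differentiableWithinAt_univ.1 h2⟩

end

/-- the twisted K3 surface -/
@[reducible] noncomputable def TwData.k3 {X : All.K3} {C : Type} [TopologicalSpace C] {π : X.X → C}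
    (D : TwData X.volForm π) (hπ : Continuous π) : All.K3 :=
  haveI : IsManifold 𝓘(ℂ, C2) ω X.X := X.manifold
  haveI : IsManifold 𝓘(ℂ, C2) 1 X.X := IsManifold.of_le (n := ω) le_top
  letI : ChartedSpace C2 D.Tw := D.charted hπ
  { X := D.Tw
    top := inferInstance
    charts := D.charted hπ
    manifold := D.isManifold hπ
    t2 := X.t2
    compact := X.compact
    sc := X.sc
    vol := (D.volForm hπ).coef
    holo := fun e he => ⟨(D.volForm hπ).holo e he, fun y hy =>
      ⟨(D.volForm hπ).ne_zero e he y hy, fun t ht hyt => (D.volForm hπ).compat e he t ht y hy hyt⟩⟩ }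

namespace TwData

section

variable {X C : Type} [TopologicalSpace X] [ChartedSpace C2 X] [IsManifold 𝓘(ℂ, C2) 1 X]
  [TopologicalSpace C] [ChartedSpace ℂ C] [IsManifold 𝓘(ℂ) 1 C] {vol : VolForm X} {π : X → C} (D : TwData vol π)

theorem hol_to (hπ : Continuous π) {a : D.A} {x : X} (ha : π x ∈ D.O a) :
    @All.Hol X D.Tw _ _ _ (D.charted hπ) (D.Ψ' a) x := by
  let _ := D.charted hπ
  refine ⟨D.cont' a x ha, ?_⟩
  set i := D.idx (π (D.Ψ' a x)) with hi
  have hb : π x ∈ D.O i := by
    have := D.idx_mem (π (D.Ψ' a x))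
    rw [D.base' a x ha] at this
    rw [hi, D.base' a x ha]
    exact this
  have h1 := D.hol a i x ha hb
  have h2 : MDifferentiableAt 𝓘(ℂ, C2) 𝓘(ℂ, C2) (chartAt C2 (D.Ψ i (D.Ψ' a x)))
      (D.Ψ i (D.Ψ' a x)) := mdifferentiableAt_atlas (chart_mem_atlas C2 _) (mem_chart_source C2 _)
  have h3 := mdifferentiableAt_atlas_symm (I := 𝓘(ℂ, C2)) (chart_mem_atlas C2 x)
    (mem_chart_target C2 x)
  have hs : (chartAt C2 x).symm (chartAt C2 x x) = x := (chartAt C2 x).left_inv
    (mem_chart_source C2 x)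
  have h1' : MDifferentiableAt 𝓘(ℂ, C2) 𝓘(ℂ, C2) (fun x => D.Ψ i (D.Ψ' a x))
      ((chartAt C2 x).symm (chartAt C2 x x)) := by rw [hs]; exact h1
  have h2' : MDifferentiableAt 𝓘(ℂ, C2) 𝓘(ℂ, C2) (chartAt C2 (D.Ψ i (D.Ψ' a x)))
      (D.Ψ i (D.Ψ' a ((chartAt C2 x).symm (chartAt C2 x x)))) := by rw [hs]; exact h2
  have h4 : MDifferentiableAt 𝓘(ℂ, C2) 𝓘(ℂ, C2)
      (fun z => D.Ψ i (D.Ψ' a ((chartAt C2 x).symm z))) (chartAt C2 x x) :=
    MDifferentiableAt.comp (g := fun x => D.Ψ i (D.Ψ' a x)) (f := (chartAt C2 x).symm) _ h1' h3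
  exact (MDifferentiableAt.comp (g := chartAt C2 (D.Ψ i (D.Ψ' a x)))
    (f := fun z => D.Ψ i (D.Ψ' a ((chartAt C2 x).symm z))) _ h2' h4).differentiableAt

theorem hol_from (hπ : Continuous π) {a : D.A} {y : D.Tw} (ha : π y ∈ D.O a) :
    @All.Hol D.Tw X _ (D.charted hπ) _ _ (D.Ψ a) y := by
  let _ := D.charted hπ
  refine ⟨D.cont a y ha, ?_⟩
  set i := D.idx (π y) with hi
  have hb : π y ∈ D.O i := D.idx_mem (π y)
  set x : X := D.Ψ i y with hx
  have hpx : π x = π y := D.base i y hb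
  have h1 := D.hol i a x (by rw [hpx]; exact hb) (by rw [hpx]; exact ha)
  have hinv : D.Ψ' i x = y := D.left_inv i y hb
  have h2 : MDifferentiableAt 𝓘(ℂ, C2) 𝓘(ℂ, C2) (chartAt C2 (D.Ψ a y))
      (D.Ψ a y) := mdifferentiableAt_atlas (chart_mem_atlas C2 _) (mem_chart_source C2 _)
  have h3 := mdifferentiableAt_atlas_symm (I := 𝓘(ℂ, C2)) (chart_mem_atlas C2 x)
    (mem_chart_target C2 x)
  have hs : (chartAt C2 x).symm (chartAt C2 x x) = x := (chartAt C2 x).left_inv
    (mem_chart_source C2 x)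
  have h1' : MDifferentiableAt 𝓘(ℂ, C2) 𝓘(ℂ, C2) (fun x => D.Ψ a (D.Ψ' i x))
      ((chartAt C2 x).symm (chartAt C2 x x)) := by rw [hs]; exact h1
  have h2' : MDifferentiableAt 𝓘(ℂ, C2) 𝓘(ℂ, C2) (chartAt C2 (D.Ψ a y))
      (D.Ψ a (D.Ψ' i ((chartAt C2 x).symm (chartAt C2 x x)))) := by rw [hs, hinv]; exact h2
  have h4 : MDifferentiableAt 𝓘(ℂ, C2) 𝓘(ℂ, C2)
      (fun z => D.Ψ a (D.Ψ' i ((chartAt C2 x).symm z))) (chartAt C2 x x) :=
    MDifferentiableAt.comp (g := fun x => D.Ψ a (D.Ψ' i x)) (f := (chartAt C2 x).symm) _ h1' h3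
  exact (MDifferentiableAt.comp (g := chartAt C2 (D.Ψ a y))
    (f := fun z => D.Ψ a (D.Ψ' i ((chartAt C2 x).symm z))) _ h2' h4).differentiableAt

theorem holC_pr (hπ : MDifferentiable 𝓘(ℂ, C2) 𝓘(ℂ) π) (y : D.Tw) :
    @All.HolC D.Tw C _ (D.charted hπ.continuous) _ _ π y := by
  let _ := D.charted hπ.continuous
  refine ⟨hπ.continuous.continuousAt, ?_⟩
  set i := D.idx (π y) with hi
  have hb : π y ∈ D.O i := D.idx_mem (π y)
  set x : X := D.Ψ i y with hx
  have hpx : π x = π y := D.base i y hb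
  have hinv : D.Ψ' i x = y := D.left_inv i y hb
  have h3 := mdifferentiableAt_atlas_symm (I := 𝓘(ℂ, C2)) (chart_mem_atlas C2 x)
    (mem_chart_target C2 x)
  have hs : (chartAt C2 x).symm (chartAt C2 x x) = x := (chartAt C2 x).left_inv
    (mem_chart_source C2 x)
  have h4 : DifferentiableAt ℂ (fun z => chartAt ℂ (π y) (π ((chartAt C2 x).symm z)))
      (chartAt C2 x x) := by
    have h5 : MDifferentiableAt 𝓘(ℂ, C2) 𝓘(ℂ) (fun z => π ((chartAt C2 x).symm z))
        (chartAt C2 x x) :=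
      MDifferentiableAt.comp (g := π) (f := (chartAt C2 x).symm) _ (hπ _) h3
    have h6 : MDifferentiableAt 𝓘(ℂ) 𝓘(ℂ) (chartAt ℂ (π y))
        (π ((chartAt C2 x).symm (chartAt C2 x x))) := by
      rw [hs, hpx]
      exact mdifferentiableAt_atlas (chart_mem_atlas ℂ _) (mem_chart_source ℂ _)
    exact (MDifferentiableAt.comp (g := chartAt ℂ (π y))
      (f := fun z => π ((chartAt C2 x).symm z)) _ h6 h5).differentiableAt
  refine h4.congr_of_eventuallyEq ?_
  have h6 : ∀ᶠ z in 𝓝 (chartAt C2 x x), π ((chartAt C2 x).symm z) ∈ D.O i := by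
    have h7 : ContinuousAt (fun z => π ((chartAt C2 x).symm z)) (chartAt C2 x x) :=
      ContinuousAt.comp (f := (chartAt C2 x).symm) (g := π) hπ.continuous.continuousAt
        ((chartAt C2 x).continuousAt_symm (mem_chart_target C2 x))
    refine h7.eventually ((D.isOpen i).mem_nhds ?_)
    simp only [hs, hpx]
    exact hb
  filter_upwards [h6] with z hz
  have h8 : π (D.Ψ' i ((chartAt C2 x).symm z)) = π ((chartAt C2 x).symm z) := D.base' i _ hz
  exact congrArg _ h8

end

end TwData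

section ham

variable (X : All.K3) {C : Type} [TopologicalSpace C] [ChartedSpace ℂ C]
  [IsManifold 𝓘(ℂ) 1 C] {π : X.X → C} {t : OpenPartialHomeomorph C ℂ} {U₁ : Set X.X}
  {φ : X.X → ℂ → X.X}

/-- flow lines are Hamiltonian curves -/
theorem isHamCurve_flow (hπ : MDifferentiable 𝓘(ℂ, C2) 𝓘(ℂ) π) (ht : t ∈ atlas ℂ C)
    (hφ : GlobF (π ⁻¹' t.source) (ham X.volForm π t) U₁ φ) {x : X.X} (hx : x ∈ U₁) {S : C → ℂ}
    {w : ℂ} (hS : HasDerivAt (fun s => S (t.symm s)) w (t (π x))) :
    All.IsHamCurve X (fun x => S (π x)) (fun s => φ x (s * w)) := by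
  have hm : IsManifold 𝓘(ℂ, C2) ω X.X := X.manifold
  have hm1 : IsManifold 𝓘(ℂ, C2) 1 X.X := IsManifold.of_le (n := ω) le_top
  intro s
  obtain ⟨i1, i2, i3⟩ := hφ.ic x hx (s * w)
  refine ⟨ContinuousAt.comp (f := fun s : ℂ => s * w) (g := φ x) i1 (by fun_prop), ?_⟩
  intro e he hs y hy
  have hyt : y ∈ e.target := by rw [hy]; exact e.map_source hs
  have hsy : e.symm y = φ x (s * w) := by rw [hy]; exact e.left_inv hs
  have hpi : π (φ x (s * w)) = π x := hφ.pi_eq X.volForm hπ ht hx _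
  have h1 : HasDerivAt (fun s : ℂ => s * w) w s := by
    simpa using (hasDerivAt_id s).mul_const w
  have h2 := (i3 e he hs).scomp s h1
  have hne : X.vol e y ≠ 0 := X.volForm.ne_zero e he y hyt
  have hh := hloc_diff hπ ht he hyt (by rw [hsy, hpi]; exact (by
    have := (hφ.ic x hx 0).2.1
    rw [hφ.zero x hx] at this
    exact this))
  have hxt : π x ∈ t.source := by
    have := (hφ.ic x hx 0).2.1
    rw [hφ.zero x hx] at this
    exact this
  have h0 : hloc π t e y = t (π x) := by simp only [hloc, hsy, hpi]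
  have h3 : HasFDerivAt (fun z => S (π (e.symm z))) (w • fderiv ℂ (hloc π t e) y) y := by
    have h4 : HasDerivAt (fun s => S (t.symm s)) w (hloc π t e y) := by rw [h0]; exact hS
    refine (h4.comp_hasFDerivAt y hh.hasFDerivAt).congr_of_eventuallyEq ?_
    have h5 : ContinuousAt (fun z => π (e.symm z)) y :=
      ContinuousAt.comp (f := e.symm) (g := π) hπ.continuous.continuousAt
        (e.continuousAt_symm hyt)
    have h6 : (fun z => π (e.symm z)) y ∈ t.source := by
      show π (e.symm y) ∈ t.source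
      rw [hsy, hpi]; exact hxt
    filter_upwards [h5.eventually (t.open_source.mem_nhds h6)] with z hz
    simp only [hloc, Function.comp_apply, t.left_inv hz]
  have h3' : HasFDerivAt (fun z => S (π (e.symm z))) (w • fderiv ℂ (hloc π t e) y)
    (y.1, y.2) := h3
  have a1 : deriv (fun s => S (π (e.symm (y.1, s)))) y.2 = w * fderiv ℂ (hloc π t e) y E2 := by
    have j1 : HasDerivAt (fun s : ℂ => ((y.1, s) : C2)) (0, 1) y.2 :=
      (hasDerivAt_const _ _).prodMk (hasDerivAt_id _)
    exact (h3'.comp_hasDerivAt y.2 j1).deriv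
  have a2 : deriv (fun s => S (π (e.symm (s, y.2)))) y.1 = w * fderiv ℂ (hloc π t e) y E1 := by
    have j1 : HasDerivAt (fun s : ℂ => ((s, y.2) : C2)) (1, 0) y.1 :=
      (hasDerivAt_id _).prodMk (hasDerivAt_const _ _)
    exact (h3'.comp_hasDerivAt y.1 j1).deriv
  refine ⟨w • ham X.volForm π t e y, ?_, ?_, ?_⟩
  · rw [hy]; exact h2
  · rw [a1]
    have : (ham X.volForm π t e y).1 = (X.vol e y)⁻¹ * fderiv ℂ (hloc π t e) y E2 := by
      simp [ham, E1, E2, All.K3.volForm]
    rw [Prod.smul_fst, this, smul_eq_mul]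
    field_simp
  · rw [a2]
    have : (ham X.volForm π t e y).2 = -((X.vol e y)⁻¹ * fderiv ℂ (hloc π t e) y E1) := by
      simp [ham, E1, E2, All.K3.volForm]
    rw [Prod.smul_snd, this, smul_eq_mul]
    field_simp

/-- constant curves are Hamiltonian curves of the function zero -/
theorem isHamCurve_const (x : X.X) : All.IsHamCurve X (fun _ => (0 : ℂ)) (fun _ => x) := by
  intro s
  refine ⟨continuousAt_const, fun e he hs y hy => ⟨0, hasDerivAt_const _ _, ?_, ?_⟩⟩
  · simp
  · simp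

end ham

namespace CutData

variable {X C : Type} [TopologicalSpace X] [ChartedSpace C2 X]
    [TopologicalSpace C] [ChartedSpace ℂ C] {vol : VolForm X} {π : X → C} (D : CutData vol π)

/-- sign -/
def sg (σ : Bool) : ℂ := cond σ 1 (-1)

/-- a closed slit neighbourhood of the core -/
def slit (σ : Bool) : Set C :=
  D.t.symm '' (closedBall D.c₀ (2 * D.r) ∩
    {s | ‖s - D.c₀‖ ≤ D.r ∨ sg σ * (s - D.c₀) ∉ Complex.slitPlane})

theorem isClosed_slit [T2Space C] (σ : Bool) : IsClosed (D.slit σ) := by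
  have h1 : IsClosed {s : ℂ | ‖s - D.c₀‖ ≤ D.r ∨ sg σ * (s - D.c₀) ∉ Complex.slitPlane} := by
    refine IsClosed.union ?_ ?_
    · exact isClosed_le (f := fun s : ℂ => ‖s - D.c₀‖) (by fun_prop) continuous_const
    · exact (Complex.isOpen_slitPlane.preimage (f := fun s : ℂ => sg σ * (s - D.c₀))
        (by fun_prop)).isClosed_compl
  exact (((isCompact_closedBall D.c₀ (2 * D.r)).inter_right h1).image_of_continuousOn
    (D.t.continuousOn_symm.mono (inter_subset_left.trans D.hb))).isClosed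

theorem mem_slit_iff {σ : Bool} {p : C} (hp : p ∈ D.disc) : p ∈ D.slit σ ↔
    ‖D.t p - D.c₀‖ ≤ D.r ∨ sg σ * (D.t p - D.c₀) ∉ Complex.slitPlane := by
  constructor
  · rintro ⟨s, hs, rfl⟩
    rw [D.t.right_inv (D.hb hs.1)]
    exact hs.2
  · intro h
    exact ⟨D.t p, ⟨ball_subset_closedBall hp.2, h⟩, D.t.left_inv hp.1⟩

theorem core_sub_slit (σ : Bool) : D.core ⊆ D.slit σ := by
  intro p hp
  rw [D.mem_slit_iff (D.core_sub_disc hp)]
  left
  rw [← dist_eq_norm]
  exact (D.mem_core_iff (D.core_sub_disc hp).1).1 hp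

/-- the three open sets -/
def O3 (a : Option Bool) : Set C := a.elim D.disc fun σ => (D.slit σ)ᶜ

theorem cover3 (p : C) : ∃ a, p ∈ D.O3 a := by
  by_cases h : p ∈ D.disc
  · exact ⟨none, h⟩
  by_cases h1 : p ∈ D.slit true
  · refine ⟨some false, fun h2 => h ?_⟩
    obtain ⟨s, ⟨hs1, hs2⟩, rfl⟩ := h1
    obtain ⟨s', ⟨hs1', hs2'⟩, hss⟩ := h2
    have e1 : s' = s := D.t.symm.injOn (D.hb hs1') (D.hb hs1) hss
    subst e1
    have h3 : ‖s' - D.c₀‖ ≤ D.r := by
      rcases hs2 with h | h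
      · exact h
      rcases hs2' with h' | h'
      · exact h'
      simp only [sg, cond_true, cond_false, one_mul, neg_mul, Complex.mem_slitPlane_iff, not_or,
        not_lt, not_not, Complex.neg_re, Complex.neg_im, neg_eq_zero, Left.neg_nonpos_iff] at h h'
      have h5 : s' - D.c₀ = 0 := Complex.ext (le_antisymm h.1 h'.1) h.2
      rw [h5, norm_zero]
      exact D.hr.le
    refine ⟨D.t.map_target (D.hb hs1), ?_⟩
    rw [mem_preimage, D.t.right_inv (D.hb hs1), mem_ball, dist_eq_norm]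
    linarith [D.hr]
  · exact ⟨some true, h1⟩

/-- a branch of the logarithm of `t - c₀` -/
noncomputable def lg (σ : Bool) (p : C) : ℂ := Complex.log (sg σ * (D.t p - D.c₀))

theorem sg_ne (σ : Bool) : sg σ ≠ 0 := by cases σ <;> simp [sg]

theorem lg_hasDerivAt {σ : Bool} {p : C} (hp : p ∈ D.disc) (hp' : p ∉ D.slit σ) :
    HasDerivAt (fun s => D.lg σ (D.t.symm s)) (D.t p - D.c₀)⁻¹ (D.t p) := by
  have h1 : sg σ * (D.t p - D.c₀) ∈ Complex.slitPlane := by
    by_contra h
    exact hp' ((D.mem_slit_iff hp).2 (Or.inr h))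
  have h2 : HasDerivAt (fun s : ℂ => sg σ * (s - D.c₀)) (sg σ) (D.t p) := by
    simpa using ((hasDerivAt_id (D.t p)).sub_const D.c₀).const_mul (sg σ)
  have h3 := h2.clog h1
  have h4 : sg σ / (sg σ * (D.t p - D.c₀)) = (D.t p - D.c₀)⁻¹ := by
    have := sg_ne σ
    rw [div_mul_eq_div_div, div_self this, one_div]
  rw [h4] at h3
  refine h3.congr_of_eventuallyEq ?_
  filter_upwards [D.t.open_target.mem_nhds (D.t.map_source hp.1)] with s hs
  simp only [lg, D.t.right_inv hs]

end CutData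

section twist

variable (X : All.K3) (R : All.RS) {π : X.X → R.C}

theorem t2RS : T2Space R.C := R.t2

theorem manifoldRS : IsManifold 𝓘(ℂ) 1 R.C :=
  haveI := R.manifold
  IsManifold.of_le (n := ω) le_top

theorem manifoldK3 : IsManifold 𝓘(ℂ, C2) 1 X.X :=
  haveI := X.manifold
  IsManifold.of_le (n := ω) le_top

attribute [local instance] t2RS manifoldRS manifoldK3

variable (D : CutData X.volForm π) (hπ : MDifferentiable 𝓘(ℂ, C2) 𝓘(ℂ) π) (b : ℂ)

variable {X R}

/-- the surface `X_b` -/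
@[reducible] noncomputable def xb : All.K3 := (D.tw hπ b).k3 hπ.continuous

/-- the generating functions -/
noncomputable def S3 : Option Bool → Option Bool → R.C → ℂ
  | none, some σ, p => b * D.lg σ p
  | some σ, none, p => -b * D.lg σ p
  | _, _, _ => 0

/-- the derivatives of the generating functions in the coordinate `t` -/
noncomputable def S3' : Option Bool → Option Bool → R.C → ℂ
  | none, some _, p => b * (D.t p - D.c₀)⁻¹
  | some _, none, p => -b * (D.t p - D.c₀)⁻¹
  | _, _, _ => 0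

theorem S3_hasDerivAt (a a' : Option Bool) {p : R.C} (ha : p ∈ D.O3 a) (ha' : p ∈ D.O3 a')
    (hp : p ∈ D.t.source) :
    HasDerivAt (fun s => S3 D b a a' (D.t.symm s)) (S3' D b a a' p) (D.t p) := by
  rcases a with _ | σ <;> rcases a' with _ | σ'
  · exact hasDerivAt_const _ _
  · exact (D.lg_hasDerivAt ha ha').const_mul b
  · exact (D.lg_hasDerivAt ha' ha).const_mul (-b)
  · exact hasDerivAt_const _ _

theorem S3_hasD (a a' : Option Bool) {p : R.C} (ha : p ∈ D.O3 a) (ha' : p ∈ D.O3 a')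
    (hp : p ∈ D.t.source) :
    All.HasD (S3 D b a a') p (S3' D b a a' p *
      deriv (fun s => D.t ((chartAt ℂ p).symm s)) (chartAt ℂ p p)) := by
  have h1 := S3_hasDerivAt D b a a' ha ha' hp
  have hs : (chartAt ℂ p).symm (chartAt ℂ p p) = p :=
    (chartAt ℂ p).left_inv (mem_chart_source ℂ p)
  have h2 : HasDerivAt (fun s => D.t ((chartAt ℂ p).symm s))
      (deriv (fun s => D.t ((chartAt ℂ p).symm s)) (chartAt ℂ p p)) (chartAt ℂ p p) :=
    (differentiableAt_transition (chart_mem_atlas ℂ p) D.ht (mem_chart_target ℂ p)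
      (by rw [hs]; exact hp)).hasDerivAt
  have h1' : HasDerivAt (fun s => S3 D b a a' (D.t.symm s)) (S3' D b a a' p)
      (D.t ((chartAt ℂ p).symm (chartAt ℂ p p))) := by rw [hs]; exact h1
  have h3 := h1'.comp (chartAt ℂ p p) h2
  refine h3.congr_of_eventuallyEq ?_
  have h4 : ∀ᶠ s in 𝓝 (chartAt ℂ p p), (chartAt ℂ p).symm s ∈ D.t.source :=
    ((chartAt ℂ p).continuousAt_symm (mem_chart_target ℂ p)).eventually
      (D.t.open_source.mem_nhds (by rw [hs]; exact hp))
  filter_upwards [h4] with s hs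
  simp only [Function.comp_apply, D.t.left_inv hs]

theorem S3_zero_hasD (a a' : Option Bool) (h : S3 D b a a' = fun _ => 0) {p : R.C} :
    All.HasD (S3 D b a a') p 0 := by
  rw [h]
  exact hasDerivAt_const _ _

/-- the Tate-Shafarevich twist from `X` to `X_b` -/
noncomputable def xbTwist : All.Twist X (xb D hπ b) where
  C := R
  π := π
  ρ := π
  A := Option Bool
  O := D.O3
  h := fun a => a.elim (D.Psi (-b) true) fun _ => D.Psi (-b) false
  g := fun a => a.elim (D.Psi b true) fun _ => D.Psi b false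
  S := S3 D b
  π_hol := fun x => holC_of_md (hπ x)
  ρ_hol := fun y => (D.tw hπ b).holC_pr hπ y
  isOpen := by
    rintro (_ | σ)
    · exact D.isOpen_disc
    · exact (D.isClosed_slit σ).isOpen_compl
  cover := D.cover3
  h_hol := by
    rintro (_ | σ) x hx
    · exact ⟨(D.tw hπ b).hol_to hπ.continuous (a := true) hx,
        (D.tw hπ b).base' true x hx, (D.tw hπ b).right_inv true x hx⟩
    · have hx' : π x ∈ D.coreᶜ := fun h => hx (D.core_sub_slit σ h)
      exact ⟨(D.tw hπ b).hol_to hπ.continuous (a := false) hx', rfl, rfl⟩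
  g_hol := by
    rintro (_ | σ) y hy
    · exact ⟨(D.tw hπ b).hol_from hπ.continuous (a := true) hy,
        (D.tw hπ b).base true y hy, (D.tw hπ b).left_inv true y hy⟩
    · have hy' : π y ∈ D.coreᶜ := fun h => hy (D.core_sub_slit σ h)
      exact ⟨(D.tw hπ b).hol_from hπ.continuous (a := false) hy', rfl, rfl⟩
  S_coc := by
    intro a a' a'' p ha ha' ha''
    by_cases hp : p ∈ D.t.source
    · refine ⟨_, _, S3_hasD D b a a' ha ha' hp, S3_hasD D b a' a'' ha' ha'' hp, ?_⟩
      have h1 := S3_hasD D b a a'' ha ha'' hp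
      have h2 : S3' D b a a'' p = S3' D b a a' p + S3' D b a' a'' p := by
        rcases a with _ | σ <;> rcases a' with _ | σ' <;> rcases a'' with _ | σ'' <;>
          simp [S3']
      rw [h2, add_mul] at h1
      exact h1
    · have hn : ∀ c : Option Bool, p ∈ D.O3 c → c ≠ none := by
        rintro c hc rfl
        exact hp hc.1
      have hz : ∀ c c' : Option Bool, c ≠ none → c' ≠ none → S3 D b c c' = fun _ => 0 := by
        rintro (_ | σ) (_ | σ') h h'
        · exact absurd rfl h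
        · exact absurd rfl h
        · exact absurd rfl h'
        · rfl
      refine ⟨0, 0, S3_zero_hasD D b _ _ (hz _ _ (hn _ ha) (hn _ ha')),
        S3_zero_hasD D b _ _ (hz _ _ (hn _ ha') (hn _ ha'')), ?_⟩
      rw [add_zero]
      exact S3_zero_hasD D b _ _ (hz _ _ (hn _ ha) (hn _ ha''))
  trans := by
    rintro (_ | σ) (_ | σ') x hx hx'
    · exact ⟨fun _ => x, isHamCurve_const X x, rfl, rfl⟩
    · have hU := D.disc_U hx
      refine ⟨fun s => D.φ x (s * S3' D b none (some σ') (π x)), ?_, ?_, ?_⟩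
      · exact isHamCurve_flow X hπ D.ht D.hφ hU
          (S3_hasDerivAt D b none (some σ') (p := π x) hx hx' hx.1)
      · simp only [zero_mul]
        exact D.hφ.zero x hU
      · have h1 : D.gt (-b) (π x) = b * (D.t (π x) - D.c₀)⁻¹ := by
          have h2 : D.r ≤ dist (D.t (π x)) D.c₀ := by
            by_contra h
            push Not at h
            exact hx' (D.core_sub_slit σ' ((D.mem_core_iff hx.1).2 h.le))
          rw [CutData.gt, timeFn_far D.hr (-b) h2, neg_neg]
        show D.φ x (1 * (b * (D.t (π x) - D.c₀)⁻¹)) = D.φ x (D.gt (-b) (π x))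
        rw [one_mul, h1]
    · have hU := D.disc_U hx'
      refine ⟨fun s => D.φ x (s * S3' D b (some σ) none (π x)), ?_, ?_, ?_⟩
      · exact isHamCurve_flow X hπ D.ht D.hφ hU
          (S3_hasDerivAt D b (some σ) none (p := π x) hx hx' hx'.1)
      · simp only [zero_mul]
        exact D.hφ.zero x hU
      · have h1 : D.gt b (π x) = -b * (D.t (π x) - D.c₀)⁻¹ := by
          have h2 : D.r ≤ dist (D.t (π x)) D.c₀ := by
            by_contra h
            push Not at h
            exact hx (D.core_sub_slit σ ((D.mem_core_iff hx'.1).2 h.le))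
          rw [CutData.gt, timeFn_far D.hr b h2]
        have h3 : (1 : ℂ) * (-b * (D.t (π x) - D.c₀)⁻¹) = D.gt b (π x) := by rw [one_mul, h1]
        show D.Psi (-b) true (D.φ x (1 * (-b * (D.t (π x) - D.c₀)⁻¹))) = x
        rw [h3]
        exact D.psi_true_inv hπ b (-b) (add_neg_cancel b) hx'
    · exact ⟨fun _ => x, isHamCurve_const X x, rfl, rfl⟩

end twist

end Vale.Agent.P290.H867
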