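import Vale.Agent.P290.H867.OmB
import Vale.Agent.P290.H362.Fibr

/-!
# P290: the class of the norm function of a fibre
-/

set_option linter.unusedVariables false
set_option linter.unusedSectionVars false

open scoped Manifold ContDiff ComplexConjugate Topology
open Set Filter Metric

noncomputable section

namespace Vale.Agent.P290.H867

open Vale.Agent.P267 Vale.Agent.P267.H757 Vale.Agent.P290.H342 Vale.Agent.P290.H445
open Vale.Agent.P290.H362
open Vale.Agent.P290.K (P1)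

/-- gluing of a quotient of two norm functions -/
theorem exists_psi {X : Type*} [TopologicalSpace X] [ChartedSpace FL.C2 X]
    [IsManifold 𝓘(ℂ, FL.C2) ω X] {N N' : X → ℝ} (hN : IsNormFn FL.C2 N)
    (h : ∀ p, ∃ (U : Set X) (F : X → ℝ), IsOpen U ∧ p ∈ U ∧
      ContMDiffOn 𝓘(ℝ, FL.C2) 𝓘(ℝ) ∞ F U ∧ ∀ x ∈ U, N' x = Real.exp (F x) * N x) :
    ∃ ψ : X → ℝ, ContMDiff 𝓘(ℝ, FL.C2) 𝓘(ℝ) ∞ ψ ∧ ∀ x, N' x = Real.exp (ψ x) * N x := by
  choose U F hU hp hF hE using h
  have hagree : ∀ p q, ∀ x ∈ U p, x ∈ U q → F p x = F q x := by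
    intro p q x hx hx'
    by_contra hne
    have hVo : IsOpen (U p ∩ U q) := (hU p).inter (hU q)
    have hc : ContinuousOn (fun y => F p y - F q y) (U p ∩ U q) :=
      ((hF p).continuousOn.mono inter_subset_left).sub
        ((hF q).continuousOn.mono inter_subset_right)
    have h1 : IsOpen ((U p ∩ U q) ∩ (fun y => F p y - F q y) ⁻¹' {0}ᶜ) :=
      hc.isOpen_inter_preimage hVo isOpen_compl_singleton
    have h2 := hN.interior_zero
    have h3 : (U p ∩ U q) ∩ (fun y => F p y - F q y) ⁻¹' {0}ᶜ ⊆ interior {x | N x = 0} := by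
      refine interior_maximal ?_ h1
      rintro y ⟨⟨hy, hy'⟩, hy2⟩
      have e1 := hE p y hy
      have e2 := hE q y hy'
      rw [e1] at e2
      show N y = 0
      by_contra h0
      have h4 : Real.exp (F p y) = Real.exp (F q y) := mul_right_cancel₀ h0 e2
      exact hy2 (sub_eq_zero.2 (Real.exp_injective h4))
    rw [h2] at h3
    exact h3 ⟨⟨hx, hx'⟩, sub_ne_zero.2 hne⟩
  refine ⟨fun x => F x x, fun x => ?_, fun x => hE x x (hp x)⟩
  have h1 : (fun y => F y y) =ᶠ[𝓝 x] F x := by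
    filter_upwards [(hU x).mem_nhds (hp x)] with y hy
    exact hagree y x y (hp y) hy
  exact ((hF x).contMDiffAt ((hU x).mem_nhds (hp x))).congr_of_eventuallyEq h1

variable {X : All.K3} {T : DivTh FL.C2 X.X} {v : T.H}

theorem frequently_rho (P : Pen T v) (hb : P.Bpf) (c : P1) (y : X.X) :
    ∃ᶠ z in 𝓝 y, rho P hb z ≠ c := by
  intro h
  have h1 : ∀ᶠ z in 𝓝 y, rho P hb z = c := h.mono fun z hz => not_not.1 hz
  have h2 : y ∈ interior {x | fibN P c x = 0} := by
    rw [mem_interior_iff_mem_nhds]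
    filter_upwards [h1] with z hz
    exact (fibN_eq_zero P hb c z).2 hz
  rw [(fibN_nf P c).interior_zero] at h2
  exact h2

theorem ch0_eq {p : P1} (hp : p ∈ P1.ch0.source) : ∃ z, p = P1.co z ∧ P1.ch0 p = z := by
  rw [P1.ch0_source] at hp
  obtain ⟨z, rfl⟩ := hp
  exact ⟨z, rfl, P1.ch0_co z⟩

theorem ch1_eq {p : P1} (hp : p ∈ P1.ch1.source) : ∃ z, p = P1.mk 1 z ∧ P1.ch1 p = z := by
  rw [P1.ch1_source] at hp
  obtain ⟨z, hz⟩ := hp
  refine ⟨z, ?_, ?_⟩
  · rw [← P1.iv_co, hz, P1.iv_iv]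
  · rw [P1.ch1_apply, ← hz, P1.ch0_co]

/-- the coordinate difference in terms of the sections, on the sphere -/
theorem chart_diff {t : OpenPartialHomeomorph P1 ℂ} (ht : t ∈ atlas ℂ P1) {c₀ a b : ℂ}
    (hab : a ≠ 0 ∨ b ≠ 0) (hs : t.symm c₀ = P1.mk a b) (hc : c₀ ∈ t.target) :
    (b ≠ 0 ∧ ∀ z w : ℂ, z ≠ 0 ∨ w ≠ 0 → P1.mk z w ∈ t.source →
      w ≠ 0 ∧ (t (P1.mk z w) - c₀) * (b * w) = b * z + -a * w) ∨
    (a ≠ 0 ∧ ∀ z w : ℂ, z ≠ 0 ∨ w ≠ 0 → P1.mk z w ∈ t.source →
      z ≠ 0 ∧ (t (P1.mk z w) - c₀) * (-a * z) = b * z + -a * w) := by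
  rcases ht with rfl | ht
  · left
    rw [P1.ch0_symm] at hs
    have hb : b ≠ 0 := by
      rintro rfl
      rw [P1.mk_zero] at hs
      exact P1.co_ne_inf _ hs
    have hc0 : c₀ = a / b := by
      rw [P1.mk_of_ne hb] at hs
      exact P1.co_injective hs
    refine ⟨hb, fun z w hzw hp => ?_⟩
    obtain ⟨u, hu, hu'⟩ := ch0_eq hp
    have hw : w ≠ 0 := by
      rintro rfl
      rw [P1.mk_zero] at hu
      exact P1.co_ne_inf _ hu.symm
    have h1 : z / w = u := by
      rw [P1.mk_of_ne hw] at hu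
      exact P1.co_injective hu
    refine ⟨hw, ?_⟩
    rw [hu', hc0, ← h1]
    field_simp
    ring
  · right
    have ht' : t = P1.ch1 := ht
    subst ht'
    rw [P1.ch1_symm, P1.mk_eq_iff (Or.inl one_ne_zero) hab] at hs
    have ha : a ≠ 0 := by
      rintro rfl
      rcases hab with h | h
      · exact h rfl
      · apply h
        linear_combination hs
    refine ⟨ha, fun z w hzw hp => ?_⟩
    obtain ⟨u, hu, hu'⟩ := ch1_eq hp
    rw [P1.mk_eq_iff hzw (Or.inl one_ne_zero)] at hu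
    have hz : z ≠ 0 := by
      rintro rfl
      rcases hzw with h | h
      · exact h rfl
      · apply h
        linear_combination -hu
    refine ⟨hz, ?_⟩
    rw [hu']
    linear_combination (-a) * hu - z * hs

/-- a smooth function `-log |g|² + φ` -/
theorem smooth_log_add {U : Set X.X} (hU : IsOpen U) {g : X.X → ℂ} {φ : X.X → ℝ}
    (hg : MDifferentiableOn 𝓘(ℂ, FL.C2) 𝓘(ℂ) g U) (h0 : ∀ x ∈ U, g x ≠ 0)
    (hφ : ContMDiffOn 𝓘(ℝ, FL.C2) 𝓘(ℝ) ∞ φ U) :
    ContMDiffOn 𝓘(ℝ, FL.C2) 𝓘(ℝ) ∞ (fun x => φ x - Real.log (‖g x‖ ^ 2)) U :=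
  hφ.sub (smoothOn_log_normSq hU hg h0)

/-- **the class of the norm function of a fibre** -/
theorem cl_nD (P : Pen T v) (hb : P.Bpf) [IsManifold 𝓘(ℂ) 1 P1]
    (D : CutData X.volForm (rho P hb)) (hπ : MDifferentiable 𝓘(ℂ, C2) 𝓘(ℂ) (rho P hb)) :
    T.cl (nD D) = v := by
  have hDF := discFn D hπ (frequently_rho P hb)
  set s : P1 := D.t.symm D.c₀ with hs
  have hc₀ : D.c₀ ∈ D.t.target := D.closedBall_sub (mem_closedBall_self D.hr.le)
  obtain ⟨ψ, hψ, hE⟩ := exists_psi (N := fibN P s) (N' := nD D) (fibN_nf P s) (fun p => by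
    by_cases hp : p ∈ WD D ∧ dist (hD D p) D.c₀ < D.r / 2
    · obtain ⟨U, g0, g1, φ, hpU, hl⟩ := P.loc p
      set V : Set X.X := U ∩ (WD D ∩ {x | dist (hD D x) D.c₀ < D.r / 2}) with hV
      have hVo : IsOpen V := hl.isOpen.inter (hDF.locRep_near D.hr).isOpen
      have hVU : V ⊆ U := inter_subset_left
      have hn : ∀ x ∈ V, nD D x = ‖hD D x - D.c₀‖ ^ 2 := by
        intro x hx
        have := (hDF.locRep_near D.hr).eq x hx.2
        rw [nD, this]
        simp
      have hf : ∀ x ∈ V, fibN P s x = ‖(hom s).2 * g0 x + -(hom s).1 * g1 x‖ ^ 2 *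
          Real.exp (-φ x) := fun x hx => hl.eq _ _ x (hVU hx)
      have hr : ∀ x ∈ V, rho P hb x = P1.mk (g0 x) (g1 x) := fun x hx => rho_eq P hb hl (hVU hx)
      rcases chart_diff D.ht (hom_ne s) (by rw [mk_hom]) hc₀ with ⟨hne, h⟩ | ⟨hne, h⟩
      · have h1 : ∀ x ∈ V, g1 x ≠ 0 ∧ (hD D x - D.c₀) * ((hom s).2 * g1 x) =
            (hom s).2 * g0 x + -(hom s).1 * g1 x := by
          intro x hx
          have := h (g0 x) (g1 x) (hb.ne hl (hVU hx)) (by rw [← hr x hx]; exact hx.2.1.1)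
          rw [← hr x hx] at this
          exact this
        refine ⟨V, fun x => φ x - Real.log (‖(hom s).2 * g1 x‖ ^ 2), hVo, ⟨hpU, hp⟩,
          smooth_log_add hVo ((hl.hol1.mono hVU).const_smul _)
            (fun x hx => mul_ne_zero hne (h1 x hx).1) (hl.smooth.mono hVU), fun x hx => ?_⟩
        have h4 : ‖(hom s).2 * g1 x‖ ≠ 0 := norm_ne_zero_iff.2 (mul_ne_zero hne (h1 x hx).1)
        have h2 : ‖(hom s).2 * g1 x‖ ^ 2 ≠ 0 := pow_ne_zero _ h4
        rw [hn x hx, hf x hx, ← (h1 x hx).2, norm_mul, Real.exp_sub,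
          Real.exp_log (lt_of_le_of_ne (by positivity) h2.symm), Real.exp_neg]
        have h3 := Real.exp_ne_zero (φ x)
        generalize ‖hD D x - D.c₀‖ = m
        revert h4
        generalize ‖(hom s).2 * g1 x‖ = n
        intro h4
        field_simp
      · have h1 : ∀ x ∈ V, g0 x ≠ 0 ∧ (hD D x - D.c₀) * (-(hom s).1 * g0 x) =
            (hom s).2 * g0 x + -(hom s).1 * g1 x := by
          intro x hx
          have := h (g0 x) (g1 x) (hb.ne hl (hVU hx)) (by rw [← hr x hx]; exact hx.2.1.1)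
          rw [← hr x hx] at this
          exact this
        have hne' : -(hom s).1 ≠ 0 := neg_ne_zero.2 hne
        refine ⟨V, fun x => φ x - Real.log (‖-(hom s).1 * g0 x‖ ^ 2), hVo, ⟨hpU, hp⟩,
          smooth_log_add hVo ((hl.hol0.mono hVU).const_smul _)
            (fun x hx => mul_ne_zero hne' (h1 x hx).1) (hl.smooth.mono hVU), fun x hx => ?_⟩
        have h4 : ‖-(hom s).1 * g0 x‖ ≠ 0 := norm_ne_zero_iff.2 (mul_ne_zero hne' (h1 x hx).1)
        have h2 : ‖-(hom s).1 * g0 x‖ ^ 2 ≠ 0 := pow_ne_zero _ h4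
        rw [hn x hx, hf x hx, ← (h1 x hx).2, norm_mul, Real.exp_sub,
          Real.exp_log (lt_of_le_of_ne (by positivity) h2.symm), Real.exp_neg]
        have h3 := Real.exp_ne_zero (φ x)
        generalize ‖hD D x - D.c₀‖ = m
        revert h4
        generalize ‖-(hom s).1 * g0 x‖ = n
        intro h4
        field_simp
    · -- both positive
      have hN := isNormFn_nD D hπ (frequently_rho P hb)
      have hpn : p ∈ {x | x ∈ WD D → hD D x ≠ D.c₀} := by
        intro hpW h0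
        apply hp
        refine ⟨hpW, ?_⟩
        rw [h0, dist_self]
        have := D.hr
        positivity
      have h1 : nD D p ≠ 0 := by
        have := (hDF.locRep_far D.hr).eq p hpn
        rw [nD, this]
        simp [Real.exp_ne_zero]
      have h2 : fibN P s p ≠ 0 := by
        rw [Ne, fibN_eq_zero P hb s p]
        intro h3
        have hpW : p ∈ WD D := by
          show rho P hb p ∈ D.disc
          rw [h3]
          refine ⟨D.t.map_target hc₀, ?_⟩
          rw [mem_preimage, D.t.right_inv hc₀]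
          exact mem_ball_self (by linarith [D.hr])
        refine hpn hpW ?_
        show D.t (rho P hb p) = D.c₀
        rw [h3, D.t.right_inv hc₀]
      set V : Set X.X := {x | 0 < nD D x} ∩ {x | 0 < fibN P s x} with hV
      have hVo : IsOpen V := (isOpen_lt continuous_const hN.continuous).inter
        (isOpen_lt continuous_const (fibN_nf P s).continuous)
      have hlog : ∀ {F : X.X → ℝ}, IsNormFn FL.C2 F → (∀ x ∈ V, 0 < F x) →
          ContMDiffOn 𝓘(ℝ, FL.C2) 𝓘(ℝ) ∞ (fun x => Real.log (F x)) V := by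
        intro F hF hpos
        have h3 : ContMDiffOn 𝓘(ℝ) 𝓘(ℝ) ∞ Real.log {x : ℝ | x ≠ 0} :=
          ContDiffOn.contMDiffOn fun x hx => (Real.contDiffAt_log.2 hx).contDiffWithinAt
        exact h3.comp hF.smooth.contMDiffOn fun x hx => (hpos x hx).ne'
      refine ⟨V, fun x => Real.log (nD D x) - Real.log (fibN P s x), hVo,
        ⟨lt_of_le_of_ne (hN.nonneg p) h1.symm, lt_of_le_of_ne ((fibN_nf P s).nonneg p) h2.symm⟩,
        (hlog hN fun x hx => hx.1).sub (hlog (fibN_nf P s) fun x hx => hx.2), fun x hx => ?_⟩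
      have h3 : (0 : ℝ) < nD D x := hx.1
      have h4 : (0 : ℝ) < fibN P s x := hx.2
      rw [Real.exp_sub, Real.exp_log h3, Real.exp_log h4]
      field_simp)
  have h1 : nD D = fun x => Real.exp (ψ x) * fibN P s x := funext hE
  rw [h1, T.cl_exp_mul (fibN_nf P s) hψ, fibN_cl]

end Vale.Agent.P290.H867
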