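import Vale.Agent.P290.H867.Tw

/-! The twist supported over a small disc of the base. -/

open Set Filter Metric
open scoped Manifold ContDiff Topology

namespace Vale.Agent.P290.H867

open Vale.Agent.P290

/-- a disc `{‖t - c₀‖ < 2 r}` of the base with the Hamiltonian flow of `t ∘ π` over it -/
structure CutData {X C : Type} [TopologicalSpace X] [ChartedSpace C2 X]
    [TopologicalSpace C] [ChartedSpace ℂ C] (vol : VolForm X) (π : X → C) where
  t : OpenPartialHomeomorph C ℂ
  ht : t ∈ atlas ℂ C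
  c₀ : ℂ
  r : ℝ
  hr : 0 < r
  hb : closedBall c₀ (2 * r) ⊆ t.target
  U₁ : Set X
  hU₁ : IsOpen U₁
  φ : X → ℂ → X
  hφ : GlobF (π ⁻¹' t.source) (ham vol π t) U₁ φ
  hD : ∀ x, π x ∈ t.source → t (π x) ∈ ball c₀ (2 * r) → x ∈ U₁

/-- the time function in the coordinate `s = t`: `b (χ - 1) / (s - c₀)` with a cut-off function `χ`
which is `1` near `c₀` and vanishes for `‖s - c₀‖ ≥ r` -/
noncomputable def timeFn (c₀ : ℂ) (r : ℝ) (hr : 0 < r) (b : ℂ) (s : ℂ) : ℂ :=
  b * (((⟨r / 2, r, half_pos hr, half_lt_self hr⟩ : ContDiffBump c₀) s : ℝ) - 1) * (s - c₀)⁻¹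

theorem timeFn_near {c₀ : ℂ} {r : ℝ} (hr : 0 < r) (b : ℂ) {s : ℂ} (hs : dist s c₀ ≤ r / 2) :
    timeFn c₀ r hr b s = 0 := by
  have h1 : (⟨r / 2, r, half_pos hr, half_lt_self hr⟩ : ContDiffBump c₀) s = 1 :=
    ContDiffBump.one_of_mem_closedBall _ (mem_closedBall.2 hs)
  rw [timeFn, h1]
  simp

theorem timeFn_far {c₀ : ℂ} {r : ℝ} (hr : 0 < r) (b : ℂ) {s : ℂ} (hs : r ≤ dist s c₀) :
    timeFn c₀ r hr b s = -b * (s - c₀)⁻¹ := by
  have h1 : (⟨r / 2, r, half_pos hr, half_lt_self hr⟩ : ContDiffBump c₀) s = 0 :=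
    ContDiffBump.zero_of_le_dist _ hs
  rw [timeFn, h1]
  simp

theorem timeFn_contDiff {c₀ : ℂ} {r : ℝ} (hr : 0 < r) (b : ℂ) :
    ContDiff ℝ ∞ (timeFn c₀ r hr b) := by
  rw [contDiff_iff_contDiffAt]
  intro s
  by_cases hs : dist s c₀ < r / 2
  · have h1 : timeFn c₀ r hr b =ᶠ[𝓝 s] fun _ => 0 := by
      filter_upwards [isOpen_ball.mem_nhds (mem_ball.2 hs)] with s' hs'
      exact timeFn_near hr b (mem_ball.1 hs').le
    exact contDiffAt_const.congr_of_eventuallyEq h1
  · have hne : s - c₀ ≠ 0 := by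
      intro h0
      apply hs
      rw [sub_eq_zero.1 h0, dist_self]
      positivity
    have h1 : ContDiffAt ℝ ∞ (fun s : ℂ => b *
        (((⟨r / 2, r, half_pos hr, half_lt_self hr⟩ : ContDiffBump c₀) s : ℝ) - 1 : ℂ)) s := by
      refine contDiffAt_const.mul (ContDiffAt.sub ?_ contDiffAt_const)
      exact Complex.ofRealCLM.contDiff.contDiffAt.comp s (ContDiffBump.contDiffAt _)
    have h2 : ContDiffAt ℝ ∞ (fun s : ℂ => s - c₀) s := contDiffAt_id.sub contDiffAt_const
    have h3 : ContDiffAt ℝ ∞ (fun s : ℂ => (s - c₀)⁻¹) s := by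
      have := (contDiffAt_inv ℂ (n := ∞) hne).restrict_scalars ℝ
      exact this.comp s h2
    exact h1.mul h3


/-- existence of cut data around any point of the base -/
theorem exists_cutData {X C : Type} [TopologicalSpace X] [ChartedSpace C2 X] [T2Space X]
    [CompactSpace X] [IsManifold 𝓘(ℂ, C2) 1 X] [TopologicalSpace C] [ChartedSpace ℂ C]
    [T2Space C] [IsManifold 𝓘(ℂ) 1 C] (vol : VolForm X) {π : X → C}
    (hπ : MDifferentiable 𝓘(ℂ, C2) 𝓘(ℂ) π) {t : OpenPartialHomeomorph C ℂ} (ht : t ∈ atlas ℂ C)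
    {c₀ : ℂ} {r : ℝ} (hr : 0 < r) (hb : closedBall c₀ (2 * r) ⊆ t.target) :
    ∃ D : CutData vol π, D.t = t ∧ D.c₀ = c₀ ∧ D.r = r := by
  have hK : IsCompact (t.symm '' closedBall c₀ (2 * r)) :=
    (isCompact_closedBall c₀ (2 * r)).image_of_continuousOn (t.continuousOn_symm.mono hb)
  have hKt : t.symm '' closedBall c₀ (2 * r) ⊆ t.source := by
    rintro _ ⟨s, hs, rfl⟩
    exact t.map_target (hb hs)
  obtain ⟨φ, hφ⟩ := exists_ham_globF vol hπ ht hK hKt
  refine ⟨⟨t, ht, c₀, r, hr, hb, _, isOpen_interior.preimage hπ.continuous, φ, hφ, ?_⟩,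
    rfl, rfl, rfl⟩
  intro x hx hx'
  have hO : IsOpen (t.source ∩ t ⁻¹' ball c₀ (2 * r)) := t.isOpen_inter_preimage isOpen_ball
  refine interior_maximal ?_ hO ⟨hx, hx'⟩
  rintro p ⟨hp, hp'⟩
  exact ⟨t p, ball_subset_closedBall hp', t.left_inv hp⟩

namespace CutData

variable {X C : Type} [TopologicalSpace X] [ChartedSpace C2 X]
    [TopologicalSpace C] [ChartedSpace ℂ C] {vol : VolForm X} {π : X → C} (D : CutData vol π)

/-- the disc in the base -/
def disc : Set C := D.t.source ∩ D.t ⁻¹' ball D.c₀ (2 * D.r)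

/-- the closed smaller disc in the base -/
def core : Set C := D.t.symm '' closedBall D.c₀ D.r

theorem isOpen_disc : IsOpen D.disc := D.t.isOpen_inter_preimage isOpen_ball

theorem closedBall_sub : closedBall D.c₀ D.r ⊆ D.t.target :=
  (closedBall_subset_closedBall (by linarith [D.hr])).trans D.hb

theorem isClosed_core [T2Space C] : IsClosed D.core :=
  ((isCompact_closedBall D.c₀ D.r).image_of_continuousOn
    (D.t.continuousOn_symm.mono D.closedBall_sub)).isClosed

theorem mem_core_iff {p : C} (hp : p ∈ D.t.source) : p ∈ D.core ↔ dist (D.t p) D.c₀ ≤ D.r := by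
  constructor
  · rintro ⟨s, hs, rfl⟩
    rw [D.t.right_inv (D.closedBall_sub hs)]
    exact hs
  · intro h
    exact ⟨D.t p, h, D.t.left_inv hp⟩

theorem core_sub_disc : D.core ⊆ D.disc := by
  rintro _ ⟨s, hs, rfl⟩
  refine ⟨D.t.map_target (D.closedBall_sub hs), ?_⟩
  rw [mem_preimage, D.t.right_inv (D.closedBall_sub hs)]
  exact (closedBall_subset_ball (by linarith [D.hr])) hs

theorem disc_U {x : X} (hx : π x ∈ D.disc) : x ∈ D.U₁ := D.hD x hx.1 hx.2

/-- the time function on the base -/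
noncomputable def gt (b : ℂ) (p : C) : ℂ := timeFn D.c₀ D.r D.hr b (D.t p)

theorem gt_contDiffAt (b : ℂ) {p : C} (hp : p ∈ D.t.source) :
    ContDiffAt ℝ ∞ (fun s => D.gt b (D.t.symm s)) (D.t p) := by
  refine (timeFn_contDiff (c₀ := D.c₀) D.hr b).contDiffAt.congr_of_eventuallyEq
    (f₁ := fun s => D.gt b (D.t.symm s)) ?_
  filter_upwards [D.t.open_target.mem_nhds (D.t.map_source hp)] with s hs
  simp only [gt, D.t.right_inv hs]

theorem gt_mdiff [IsManifold 𝓘(ℂ) 1 C] (b : ℂ) {p : C} (hp : p ∈ D.disc) (hp' : p ∉ D.core) :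
    MDifferentiableAt 𝓘(ℂ) 𝓘(ℂ) (D.gt b) p := by
  have h0 : ∀ᶠ s in 𝓝 (D.t p), timeFn D.c₀ D.r D.hr b s = -b * (s - D.c₀)⁻¹ := by
    have h1 : D.t p ∈ (closedBall D.c₀ D.r)ᶜ := fun h => hp' ((D.mem_core_iff hp.1).2 h)
    filter_upwards [isClosed_closedBall.isOpen_compl.mem_nhds h1] with s hs
    refine timeFn_far D.hr b ?_
    rw [mem_compl_iff, mem_closedBall, not_le] at hs
    exact hs.le
  have hne : D.t p - D.c₀ ≠ 0 := by
    intro h0
    apply hp'
    rw [D.mem_core_iff hp.1, sub_eq_zero.1 h0, dist_self]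
    exact D.hr.le
  have h2 : DifferentiableAt ℂ (timeFn D.c₀ D.r D.hr b) (D.t p) := by
    have h3 : DifferentiableAt ℂ (fun s : ℂ => -b * (s - D.c₀)⁻¹) (D.t p) := by
      have h4 : DifferentiableAt ℂ (fun s : ℂ => s - D.c₀) (D.t p) :=
        differentiableAt_id.sub (differentiableAt_const _)
      exact (h4.inv hne).const_mul _
    exact h3.congr_of_eventuallyEq h0
  exact h2.mdifferentiableAt.comp p (mdifferentiableAt_atlas D.ht hp.1)

/-- the maps: `true` is the twist over the disc, `false` the identity off the core -/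
noncomputable def Psi (b : ℂ) (a : Bool) (x : X) : X := cond a (sh π D.φ (D.gt b) x) x

def Ob (a : Bool) : Set C := cond a D.disc D.coreᶜ

theorem gt_neg (b : ℂ) (p : C) : D.gt (-b) p = - D.gt b p := by
  simp only [gt, timeFn]; ring


variable [IsManifold 𝓘(ℂ, C2) 1 X] [IsManifold 𝓘(ℂ) 1 C]

theorem gt_continuousAt (b : ℂ) {p : C} (hp : p ∈ D.t.source) : ContinuousAt (D.gt b) p :=
  ContinuousAt.comp (f := D.t) (g := timeFn D.c₀ D.r D.hr b)
    (timeFn_contDiff D.hr b).continuous.continuousAt (D.t.continuousAt hp)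

theorem psi_true_inv (hπ : MDifferentiable 𝓘(ℂ, C2) 𝓘(ℂ) π) (b b' : ℂ) (hb : b + b' = 0) {x : X}
    (hx : π x ∈ D.disc) : sh π D.φ (D.gt b') (sh π D.φ (D.gt b) x) = x := by
  rw [sh_sh vol hπ D.ht D.hφ (D.disc_U hx)]
  have h1 : D.gt b (π x) + D.gt b' (π x) = 0 := by
    have : b' = -b := by linear_combination hb
    rw [this, D.gt_neg, add_neg_cancel]
  rw [h1, D.hφ.zero _ (D.disc_U hx)]

/-- the twisting data -/
noncomputable def tw [T2Space C] (hπ : MDifferentiable 𝓘(ℂ, C2) 𝓘(ℂ) π) (b : ℂ) :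
    TwData vol π where
  A := Bool
  O := D.Ob
  Ψ := D.Psi b
  Ψ' := D.Psi (-b)
  isOpen := by
    rintro (_ | _)
    · exact D.isClosed_core.isOpen_compl
    · exact D.isOpen_disc
  cover := fun p => by
    by_cases h : p ∈ D.core
    · exact ⟨true, D.core_sub_disc h⟩
    · exact ⟨false, h⟩
  base := by
    rintro (_ | _) x hx
    · rfl
    · exact sh_pi vol hπ D.ht D.hφ (D.disc_U hx)
  base' := by
    rintro (_ | _) x hx
    · rfl
    · exact sh_pi vol hπ D.ht D.hφ (D.disc_U hx)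
  left_inv := by
    rintro (_ | _) x hx
    · rfl
    · exact D.psi_true_inv hπ b (-b) (add_neg_cancel b) hx
  right_inv := by
    rintro (_ | _) x hx
    · rfl
    · exact D.psi_true_inv hπ (-b) b (neg_add_cancel b) hx
  cont := by
    rintro (_ | _) x hx
    · exact continuousAt_id
    · exact sh_continuousAt vol hπ D.hφ (D.disc_U hx) (D.gt_continuousAt b hx.1)
  cont' := by
    rintro (_ | _) x hx
    · exact continuousAt_id
    · exact sh_continuousAt vol hπ D.hφ (D.disc_U hx) (D.gt_continuousAt (-b) hx.1)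
  hol := by
    rintro (_ | _) (_ | _) x hx hx'
    · exact mdifferentiableAt_id
    · exact sh_mdiff vol hπ D.hφ (D.disc_U hx') (D.gt_mdiff b hx' hx)
    · exact sh_mdiff vol hπ D.hφ (D.disc_U hx) (D.gt_mdiff (-b) hx hx')
    · refine mdifferentiableAt_id.congr_of_eventuallyEq ?_
      filter_upwards [hπ.continuous.continuousAt.eventually (D.isOpen_disc.mem_nhds hx)] with y hy
      exact D.psi_true_inv hπ (-b) b (neg_add_cancel b) hy
  vol_pres := by
    rintro (_ | _) (_ | _) x hx hx' e he e' he' hxe hxe'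
    · have h1 := vol.compat e he e' he' (e x) (e.map_source hxe)
        (by rw [e.left_inv hxe]; exact hxe')
      rw [e.left_inv hxe] at h1
      exact h1
    · exact sh_vol vol hπ D.ht D.hU₁ D.hφ (D.disc_U hx') (D.gt_mdiff b hx' hx) he he' hxe hxe'
    · exact sh_vol vol hπ D.ht D.hU₁ D.hφ (D.disc_U hx) (D.gt_mdiff (-b) hx hx') he he' hxe hxe'
    · have h0 : ∀ y, π y ∈ D.disc → D.Psi b true (D.Psi (-b) true y) = y := fun y hy =>
        D.psi_true_inv hπ (-b) b (neg_add_cancel b) hy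
      have hxe'' : x ∈ e'.source := by rw [h0 x hx] at hxe'; exact hxe'
      have h1 := vol.compat e he e' he' (e x) (e.map_source hxe)
        (by rw [e.left_inv hxe]; exact hxe'')
      rw [e.left_inv hxe] at h1
      have h2 : (fun z => e' (D.Psi b true (D.Psi (-b) true (e.symm z)))) =ᶠ[𝓝 (e x)]
          fun z => e' (e.symm z) := by
        have h3 : ContinuousAt (fun z => π (e.symm z)) (e x) :=
          ContinuousAt.comp (f := e.symm) (g := π) hπ.continuous.continuousAt
            (e.continuousAt_symm (e.map_source hxe))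
        have h4 : (fun z => π (e.symm z)) (e x) ∈ D.disc := by
          show π (e.symm (e x)) ∈ D.disc
          rw [e.left_inv hxe]; exact hx
        filter_upwards [h3.eventually (D.isOpen_disc.mem_nhds h4)] with z hz
        rw [h0 _ hz]
      rw [h2.fderiv_eq, h0 x hx]
      exact h1
  smooth := by
    rintro (_ | _) x hx e he e' he' hxe hxe'
    · exact trans_contDiffAt he he' hxe hxe'
    · exact sh_contDiffAt vol hπ D.hU₁ D.ht D.hφ (D.disc_U hx) (D.gt_contDiffAt b hx.1) he he'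
        hxe hxe'
  smooth' := by
    rintro (_ | _) x hx e he e' he' hxe hxe'
    · exact trans_contDiffAt he he' hxe hxe'
    · exact sh_contDiffAt vol hπ D.hU₁ D.ht D.hφ (D.disc_U hx) (D.gt_contDiffAt (-b) hx.1) he he'
        hxe hxe'
  jac := by
    rintro (_ | _) x hx e he e' he' hxe hxe'
    · exact trans_jac vol he he' hxe hxe'
    · exact sh_jac vol hπ D.ht D.hU₁ D.hφ (D.disc_U hx)
        ((D.gt_contDiffAt b hx.1).differentiableAt (by simp)).hasFDerivAt he he' hxe hxe'

end CutData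

end Vale.Agent.P290.H867
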