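import Vale.Agent.P290.H867.Vert
import Vale.Agent.P290.H867.Cut
import Vale.Agent.P267.H332.Pair.Curv

/-!
# P290: the norm function of a fibre, and the cohomology class of the twisting form

`N = |h - c₀|²` near the fibre, `N = 1` away from it; `cF N = -h^*(∂g/∂s̄ ds∧ds̄) + d (h^*(k ds))`,
`g` the time function of the twist.
-/

set_option linter.unusedVariables false
set_option linter.unusedSectionVars false

open scoped Manifold ContDiff ComplexConjugate Topology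
open Set Filter Metric

noncomputable section

namespace Vale.Agent.P290.H867

open Vale.Agent.P267

variable {c₀ : ℂ} {r : ℝ}

/-- the cut-off function -/
def chi (c₀ : ℂ) (r : ℝ) (hr : 0 < r) : ContDiffBump c₀ := ⟨r / 2, r, half_pos hr, half_lt_self hr⟩

theorem chi_one (hr : 0 < r) {s : ℂ} (hs : dist s c₀ ≤ r / 2) : chi c₀ r hr s = 1 :=
  ContDiffBump.one_of_mem_closedBall _ (mem_closedBall.2 hs)

theorem chi_zero (hr : 0 < r) {s : ℂ} (hs : r ≤ dist s c₀) : chi c₀ r hr s = 0 :=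
  ContDiffBump.zero_of_le_dist _ hs

theorem chi_smooth (hr : 0 < r) : ContDiff ℝ ∞ (fun s => ((chi c₀ r hr s : ℝ) : ℂ)) :=
  Complex.ofRealCLM.contDiff.comp (ContDiffBump.contDiff _)

/-- `log |s - c₀|²` -/
def lg2 (c₀ : ℂ) (s : ℂ) : ℝ := Real.log (‖s - c₀‖ ^ 2)

theorem lg2_smooth {s : ℂ} (hs : s ≠ c₀) : ContDiffAt ℝ ∞ (lg2 c₀) s := by
  have h1 : ContDiffAt ℝ ∞ (fun s : ℂ => ‖s - c₀‖ ^ 2) s :=
    ((contDiff_norm_sq ℝ).comp (contDiff_id.sub contDiff_const)).contDiffAt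
  have h2 : ‖s - c₀‖ ^ 2 ≠ 0 := by
    have := norm_ne_zero_iff.2 (sub_ne_zero.2 hs)
    positivity
  exact (Real.contDiffAt_log.2 h2).comp s h1

theorem ds_lg2 {s : ℂ} (hs : s ≠ c₀) : ds (fun s => (lg2 c₀ s : ℂ)) s = (s - c₀)⁻¹ := by
  have hne : s - c₀ ≠ 0 := sub_ne_zero.2 hs
  -- `|s - c₀|² = (s - c₀) conj (s - c₀)`
  set q : ℂ → ℝ := fun s => ‖s - c₀‖ ^ 2 with hq
  have hq0 : q s ≠ 0 := by
    have := norm_ne_zero_iff.2 hne
    simp only [hq]; positivity
  have hqd : HasFDerivAt q (2 • (innerSL ℝ (s - c₀))) s := by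
    have h1 : HasFDerivAt (fun s : ℂ => s - c₀) (ContinuousLinearMap.id ℝ ℂ) s :=
      (hasFDerivAt_id s).sub_const c₀
    have h2 := h1.norm_sq
    rwa [ContinuousLinearMap.comp_id] at h2
  have hL : HasFDerivAt (lg2 c₀) ((q s)⁻¹ • (2 • (innerSL ℝ (s - c₀)))) s := hqd.log hq0
  have hLc : HasFDerivAt (fun s => (lg2 c₀ s : ℂ))
      (Complex.ofRealCLM.comp ((q s)⁻¹ • (2 • (innerSL ℝ (s - c₀))))) s :=
    Complex.ofRealCLM.hasFDerivAt.comp s hL
  have e1 : (Complex.ofRealCLM.comp ((q s)⁻¹ • (2 • (innerSL ℝ (s - c₀))))) 1 =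
      (q s : ℂ)⁻¹ * (2 * (s - c₀).re) := by
    simp [Complex.inner]
  have e2 : (Complex.ofRealCLM.comp ((q s)⁻¹ • (2 • (innerSL ℝ (s - c₀))))) Complex.I =
      (q s : ℂ)⁻¹ * (2 * (s - c₀).im) := by
    simp [Complex.inner]
  rw [ds, hLc.fderiv, e1, e2]
  have h5 : (q s : ℂ) = (s - c₀) * conj (s - c₀) := by
    rw [Complex.mul_conj, Complex.normSq_eq_norm_sq]
  have h6 : conj (s - c₀) = (s - c₀).re - Complex.I * (s - c₀).im := by
    apply Complex.ext
    · simp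
    · simp
      ring
  have h7 : conj (s - c₀) ≠ 0 := (map_ne_zero _).2 hne
  rw [h5]
  field_simp
  rw [h6]

/-- the primitive `k = ∂χ/∂s · log |s - c₀|²` -/
def kf (c₀ : ℂ) (r : ℝ) (hr : 0 < r) (s : ℂ) : ℂ :=
  ds (fun s => ((chi c₀ r hr s : ℝ) : ℂ)) s * (lg2 c₀ s : ℂ)

theorem ds_chi_near (hr : 0 < r) {s : ℂ} (hs : dist s c₀ < r / 2) :
    ds (fun s => ((chi c₀ r hr s : ℝ) : ℂ)) s = 0 := by
  have h1 : (fun s => ((chi c₀ r hr s : ℝ) : ℂ)) =ᶠ[𝓝 s] fun _ => 1 := by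
    filter_upwards [isOpen_ball.mem_nhds (mem_ball.2 hs)] with s' hs'
    rw [chi_one hr (mem_ball.1 hs').le]
    simp
  rw [ds_congr h1, ds]
  simp

theorem ds_chi_far (hr : 0 < r) {s : ℂ} (hs : r < dist s c₀) :
    ds (fun s => ((chi c₀ r hr s : ℝ) : ℂ)) s = 0 := by
  have h1 : (fun s => ((chi c₀ r hr s : ℝ) : ℂ)) =ᶠ[𝓝 s] fun _ => 0 := by
    filter_upwards [(isClosed_closedBall (x := c₀) (ε := r)).isOpen_compl.mem_nhds
      (show s ∈ (closedBall c₀ r)ᶜ from fun h => absurd (mem_closedBall.1 h) (not_le.2 hs))]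
      with s' hs'
    rw [mem_compl_iff, mem_closedBall, not_le] at hs'
    rw [chi_zero hr hs'.le]
    simp
  rw [ds_congr h1, ds]
  simp

theorem kf_smooth (hr : 0 < r) : ContDiff ℝ ∞ (kf c₀ r hr) := by
  rw [contDiff_iff_contDiffAt]
  intro s
  by_cases hs : dist s c₀ < r / 2
  · have h1 : kf c₀ r hr =ᶠ[𝓝 s] fun _ => 0 := by
      filter_upwards [isOpen_ball.mem_nhds (mem_ball.2 hs)] with s' hs'
      rw [kf, ds_chi_near hr (mem_ball.1 hs'), zero_mul]
    exact contDiffAt_const.congr_of_eventuallyEq h1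
  · have hne : s ≠ c₀ := by
      rintro rfl
      apply hs
      rw [dist_self]
      positivity
    exact (ds_contDiff (chi_smooth hr).contDiffAt).mul
      (Complex.ofRealCLM.contDiff.contDiffAt.comp s (lg2_smooth hne))

theorem kf_far (hr : 0 < r) {s : ℂ} (hs : r < dist s c₀) : kf c₀ r hr s = 0 := by
  rw [kf, ds_chi_far hr hs, zero_mul]

/-- `χ log |s - c₀|²` -/
def Lf (c₀ : ℂ) (r : ℝ) (hr : 0 < r) (s : ℂ) : ℝ := chi c₀ r hr s * lg2 c₀ s

theorem Lf_smooth (hr : 0 < r) {s : ℂ} (hs : s ≠ c₀) : ContDiffAt ℝ ∞ (Lf c₀ r hr) s :=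
  (ContDiffBump.contDiffAt _).mul (lg2_smooth hs)

theorem ds_Lf (hr : 0 < r) {s : ℂ} (hs : s ≠ c₀) : ds (fun s => (Lf c₀ r hr s : ℂ)) s =
    kf c₀ r hr s + timeFn c₀ r hr 1 s + (s - c₀)⁻¹ := by
  have h0 : (fun s => (Lf c₀ r hr s : ℂ)) =
      fun s => ((chi c₀ r hr s : ℝ) : ℂ) * (lg2 c₀ s : ℂ) := by
    funext s
    simp [Lf]
  have h1 : DifferentiableAt ℝ (fun s => ((chi c₀ r hr s : ℝ) : ℂ)) s :=
    (chi_smooth hr).contDiffAt.differentiableAt (by simp)
  have h2 : DifferentiableAt ℝ (fun s => (lg2 c₀ s : ℂ)) s :=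
    (Complex.ofRealCLM.contDiff.contDiffAt.comp s (lg2_smooth hs)).differentiableAt (n := ∞)
      (by simp)
  rw [h0, ds_mul h1 h2, ds_lg2 hs, kf, timeFn]
  have : (⟨r / 2, r, half_pos hr, half_lt_self hr⟩ : ContDiffBump c₀) = chi c₀ r hr := rfl
  rw [this]
  ring

/-! ### the norm function -/

section nrm

variable {X : Type*} [TopologicalSpace X] [ChartedSpace FL.C2 X]

/-- a function on an open set whose values near the boundary leave the disc of radius `r` -/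
structure DiscFn (W : Set X) (h : X → ℂ) (c₀ : ℂ) (r : ℝ) : Prop where
  isOpen : IsOpen W
  hol : MDifferentiableOn 𝓘(ℂ, FL.C2) 𝓘(ℂ) h W
  far : ∀ x, x ∉ W → ∀ᶠ y in 𝓝 x, y ∉ W ∨ r < dist (h y) c₀
  nz : ∀ V : Set X, IsOpen V → V ⊆ W → V.Nonempty → ∃ x ∈ V, h x ≠ c₀

open Classical in
/-- the norm function of the fibre `h = c₀` -/
def nrm (W : Set X) (h : X → ℂ) (c₀ : ℂ) (r : ℝ) (hr : 0 < r) (x : X) : ℝ :=
  if x ∈ W then (‖h x - c₀‖ ^ 2) ^ (chi c₀ r hr (h x) : ℝ) else 1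

open Classical in
/-- the weight of the norm function outside of the fibre -/
def wt (W : Set X) (h : X → ℂ) (c₀ : ℂ) (r : ℝ) (hr : 0 < r) (x : X) : ℝ :=
  if x ∈ W then -Lf c₀ r hr (h x) else 0

variable [IsManifold 𝓘(ℂ, FL.C2) ω X] {W : Set X} {h : X → ℂ}

theorem DiscFn.holW (D : DiscFn W h c₀ r) : HolW W h := by
  intro e he z hz hzW
  have h1 := H332.differentiableOn_chart he D.hol
  exact (h1 z ⟨hz, hzW⟩).differentiableAt
    ((e.isOpen_inter_preimage_symm D.isOpen).mem_nhds ⟨hz, hzW⟩)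

theorem DiscFn.supp (D : DiscFn W h c₀ r) {F : ℂ → ℂ} (hF : ∀ s, r < dist s c₀ → F s = 0) :
    Supp W h F := fun x hx => (D.far x hx).mono fun y hy => hy.imp_right (hF _)

theorem DiscFn.cont (D : DiscFn W h c₀ r) {x : X} (hx : x ∈ W) : ContinuousAt h x :=
  (D.hol.continuousOn).continuousAt (D.isOpen.mem_nhds hx)

theorem DiscFn.isOpen_far (D : DiscFn W h c₀ r) (hr : 0 < r) :
    IsOpen {x | x ∈ W → h x ≠ c₀} := by
  rw [isOpen_iff_mem_nhds]
  intro x hx
  by_cases hxW : x ∈ W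
  · have h1 : ∀ᶠ y in 𝓝 x, h y ≠ c₀ :=
      (D.cont hxW).eventually (isOpen_ne.mem_nhds (hx hxW))
    filter_upwards [h1] with y hy _
    exact hy
  · filter_upwards [D.far x hxW] with y hy hyW
    rcases hy with hy | hy
    · exact absurd hyW hy
    · rintro h0
      rw [h0, dist_self] at hy
      exact absurd hy (not_lt.2 hr.le)

theorem DiscFn.wt_smooth (D : DiscFn W h c₀ r) (hr : 0 < r) :
    ContMDiffOn 𝓘(ℝ, FL.C2) 𝓘(ℝ) ∞ (wt W h c₀ r hr) {x | x ∈ W → h x ≠ c₀} := by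
  intro x hx
  refine ContMDiffAt.contMDiffWithinAt ?_
  by_cases hxW : x ∈ W
  · have h1 : wt W h c₀ r hr =ᶠ[𝓝 x] fun y => -Lf c₀ r hr (h y) := by
      filter_upwards [D.isOpen.mem_nhds hxW] with y hy
      rw [wt, if_pos hy]
    refine ContMDiffAt.congr_of_eventuallyEq ?_ h1
    have h2 : ContMDiffAt 𝓘(ℝ, FL.C2) 𝓘(ℝ, ℂ) ∞ h x :=
      (H757.smoothOn_of_mdifferentiableOn D.isOpen D.hol).contMDiffAt (D.isOpen.mem_nhds hxW)
    have h3 : ContMDiffAt 𝓘(ℝ, ℂ) 𝓘(ℝ) ∞ (fun s => -Lf c₀ r hr s) (h x) :=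
      ((Lf_smooth hr (hx hxW)).neg).contMDiffAt
    exact h3.comp x h2
  · have h1 : wt W h c₀ r hr =ᶠ[𝓝 x] fun y => 0 := by
      filter_upwards [D.far x hxW] with y hy
      rw [wt]
      split_ifs with hyW
      · rcases hy with hy | hy
        · exact absurd hyW hy
        · rw [Lf, chi_zero hr hy.le, zero_mul, neg_zero]
      · rfl
    exact contMDiffAt_const.congr_of_eventuallyEq h1

theorem DiscFn.locRep_far (D : DiscFn W h c₀ r) (hr : 0 < r) :
    H757.LocRep FL.C2 (nrm W h c₀ r hr) {x | x ∈ W → h x ≠ c₀} (fun _ => 1)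
      (wt W h c₀ r hr) := by
  refine ⟨D.isOpen_far hr, mdifferentiableOn_const,
    fun V _ _ hne => ⟨hne.some, hne.some_mem, one_ne_zero⟩, D.wt_smooth hr, ?_⟩
  intro x hx
  by_cases hxW : x ∈ W
  · have h1 : 0 < ‖h x - c₀‖ ^ 2 := by
      have := norm_ne_zero_iff.2 (sub_ne_zero.2 (hx hxW))
      positivity
    rw [nrm, wt, if_pos hxW, if_pos hxW, Real.rpow_def_of_pos h1, Lf, lg2, neg_neg]
    simp only [norm_one, one_pow, one_mul]
    rw [mul_comm]
  · rw [nrm, wt, if_neg hxW, if_neg hxW]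
    simp

theorem DiscFn.locRep_near (D : DiscFn W h c₀ r) (hr : 0 < r) :
    H757.LocRep FL.C2 (nrm W h c₀ r hr) (W ∩ {x | dist (h x) c₀ < r / 2})
      (fun x => h x - c₀) (fun _ => 0) := by
  have hO : IsOpen (W ∩ {x | dist (h x) c₀ < r / 2}) :=
    D.hol.continuousOn.isOpen_inter_preimage D.isOpen (isOpen_ball (x := c₀) (ε := r / 2))
  refine ⟨hO, (D.hol.mono inter_subset_left).sub mdifferentiableOn_const, ?_,
    contMDiffOn_const, ?_⟩
  · intro V hV hVU hne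
    obtain ⟨x, hx, hx'⟩ := D.nz V hV (hVU.trans inter_subset_left) hne
    exact ⟨x, hx, sub_ne_zero.2 hx'⟩
  · rintro x ⟨hxW, hx⟩
    rw [nrm, if_pos hxW, chi_one hr (le_of_lt hx)]
    simp

theorem DiscFn.isNormFn (D : DiscFn W h c₀ r) (hr : 0 < r) :
    H757.IsNormFn FL.C2 (nrm W h c₀ r hr) := by
  intro p
  by_cases hp : p ∈ W ∧ dist (h p) c₀ < r / 2
  · exact ⟨_, _, _, hp, D.locRep_near hr⟩
  · refine ⟨_, _, _, ?_, D.locRep_far hr⟩
    intro hpW h0
    apply hp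
    refine ⟨hpW, ?_⟩
    rw [h0, dist_self]
    positivity

theorem dsb_kf_near (hr : 0 < r) {s : ℂ} (hs : dist s c₀ < r / 2) : dsb (kf c₀ r hr) s = 0 := by
  have h1 : kf c₀ r hr =ᶠ[𝓝 s] fun _ => 0 := by
    filter_upwards [isOpen_ball.mem_nhds (mem_ball.2 hs)] with s' hs'
    rw [kf, ds_chi_near hr (mem_ball.1 hs'), zero_mul]
  rw [dsb_congr h1, dsb]
  simp

theorem dsb_timeFn_near (hr : 0 < r) (b : ℂ) {s : ℂ} (hs : dist s c₀ < r / 2) :
    dsb (timeFn c₀ r hr b) s = 0 := by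
  have h1 : timeFn c₀ r hr b =ᶠ[𝓝 s] fun _ => 0 := by
    filter_upwards [isOpen_ball.mem_nhds (mem_ball.2 hs)] with s' hs'
    exact timeFn_near hr b (mem_ball.1 hs').le
  rw [dsb_congr h1, dsb]
  simp

theorem dsb_timeFn_far (hr : 0 < r) (b : ℂ) {s : ℂ} (hs : r < dist s c₀) :
    dsb (timeFn c₀ r hr b) s = 0 := by
  have h1 : timeFn c₀ r hr b =ᶠ[𝓝 s] fun s => -b * (s - c₀)⁻¹ := by
    filter_upwards [(isClosed_closedBall (x := c₀) (ε := r)).isOpen_compl.mem_nhds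
      (show s ∈ (closedBall c₀ r)ᶜ from fun h => absurd (mem_closedBall.1 h) (not_le.2 hs))]
      with s' hs'
    rw [mem_compl_iff, mem_closedBall, not_le] at hs'
    exact timeFn_far hr b hs'.le
  have hne : s - c₀ ≠ 0 := by
    intro h0
    rw [sub_eq_zero.1 h0, dist_self] at hs
    exact absurd hs (not_lt.2 hr.le)
  rw [dsb_congr h1]
  refine dsb_of_hol ?_
  have h2 : DifferentiableAt ℂ (fun s : ℂ => s - c₀) s := differentiableAt_fun_id.sub_const c₀
  exact (h2.inv hne).const_mul _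

theorem dsb_kf_far (hr : 0 < r) {s : ℂ} (hs : r < dist s c₀) : dsb (kf c₀ r hr) s = 0 := by
  have h1 : kf c₀ r hr =ᶠ[𝓝 s] fun s => 0 := by
    filter_upwards [(isClosed_closedBall (x := c₀) (ε := r)).isOpen_compl.mem_nhds
      (show s ∈ (closedBall c₀ r)ᶜ from fun h => absurd (mem_closedBall.1 h) (not_le.2 hs))]
      with s' hs'
    rw [mem_compl_iff, mem_closedBall, not_le] at hs'
    exact kf_far hr hs'
  rw [dsb_congr h1, dsb]
  simp

/-- the curvature of the norm function of the fibre -/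
theorem DiscFn.curvN_nrm (D : DiscFn W h c₀ r) (hr : 0 < r) :
    H332.curvN (nrm W h c₀ r hr) =
      vt W h (fun s => -(dsb (kf c₀ r hr) s + dsb (timeFn c₀ r hr 1) s)) := by
  funext x
  set e := chartAt FL.C2 x with he'
  have he : e ∈ atlas FL.C2 X := chart_mem_atlas FL.C2 x
  have hxs : x ∈ e.source := mem_chart_source FL.C2 x
  have hz : e x ∈ e.target := e.map_source hxs
  have hex : e.symm (e x) = x := e.left_inv hxs
  by_cases hxW : x ∈ W
  swap
  · rw [H332.curvN_eq (D.locRep_far hr) (x := x) (fun h1 => absurd h1 hxW)]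
    have h1 : (fun y => ((wt W h c₀ r hr (e.symm y) : ℝ) : ℂ)) =ᶠ[𝓝 (e x)] fun _ => 0 := by
      have h2 := (e.continuousAt_symm hz).eventually (by rw [hex]; exact D.far x hxW)
      filter_upwards [h2] with y hy
      rw [wt]
      split_ifs with hyW
      · rcases hy with hy | hy
        · exact absurd hyW hy
        · rw [Lf, chi_zero hr hy.le, zero_mul, neg_zero, Complex.ofReal_zero]
      · rw [Complex.ofReal_zero]
    rw [H332.ddz_congr h1, H332.ddz_const]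
    ext i j
    simp [vt, hxW]
  by_cases hxn : h x = c₀
  · rw [H332.curvN_eq (D.locRep_near hr) (x := x)
      ⟨hxW, by show dist (h x) c₀ < r / 2; rw [hxn, dist_self]; positivity⟩]
    have h1 := H332.ddz_const (0 : ℂ) (e x)
    simp only [Complex.ofReal_zero]
    rw [h1]
    ext i j
    have h3 : dist (h x) c₀ < r / 2 := by rw [hxn, dist_self]; positivity
    simp only [Matrix.zero_apply, vt, Matrix.of_apply, if_pos hxW, dsb_kf_near hr h3,
      dsb_timeFn_near hr 1 h3]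
    simp
  · rw [H332.curvN_eq (D.locRep_far hr) (x := x) (fun _ => hxn)]
    ext i j
    have hzW : e.symm (e x) ∈ W := by rw [hex]; exact hxW
    have hhW := D.holW
    -- the weight in the chart
    have h1 : (fun y => ((wt W h c₀ r hr (e.symm y) : ℝ) : ℂ)) =ᶠ[𝓝 (e x)]
        fun y => -((fun s => (Lf c₀ r hr s : ℂ)) (h (e.symm y))) := by
      filter_upwards [symm_eventually hz D.isOpen hzW] with y hy
      rw [wt, if_pos hy.2]
      simp
    have hev : ∀ᶠ y in 𝓝 (e x), y ∈ e.target ∧ e.symm y ∈ W ∧ h (e.symm y) ≠ c₀ := by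
      have h2 : ∀ᶠ y in 𝓝 (e x), h (e.symm y) ≠ c₀ :=
        (h_contDiffAt hhW D.isOpen he hz hzW).continuousAt.eventually
          (isOpen_ne.mem_nhds (by show h (e.symm (e x)) ≠ c₀; rw [hex]; exact hxn))
      filter_upwards [symm_eventually hz D.isOpen hzW, h2] with y hy hy'
      exact ⟨hy.1, hy.2, hy'⟩
    have hLd : ∀ s, s ≠ c₀ → DifferentiableAt ℝ (fun s => (Lf c₀ r hr s : ℂ)) s := fun s hs =>
      (Complex.ofRealCLM.contDiff.contDiffAt.comp s (Lf_smooth hr hs)).differentiableAt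
        (n := ∞) (by simp)
    -- first derivative
    have h2 : FL.dz i (fun y => -((fun s => (Lf c₀ r hr s : ℂ)) (h (e.symm y)))) =ᶠ[𝓝 (e x)]
        fun y => -((fun s => kf c₀ r hr s + timeFn c₀ r hr 1 s + (s - c₀)⁻¹) (h (e.symm y)) *
          FL.dz i (fun y => h (e.symm y)) y) := by
      filter_upwards [hev] with y hy
      rw [FL.dz_neg, dz_chain (F := fun s => (Lf c₀ r hr s : ℂ)) (H := fun y => h (e.symm y))
        (hLd _ hy.2.2) (hhW e he y hy.1 hy.2.1), ds_Lf hr hy.2.2]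
    have hu : ContDiffAt ℝ 2 (fun y => -((fun s => (Lf c₀ r hr s : ℂ)) (h (e.symm y)))) (e x) := by
      refine ContDiffAt.neg ?_
      have h3 : ContDiffAt ℝ ∞ (fun s => (Lf c₀ r hr s : ℂ)) (h (e.symm (e x))) :=
        Complex.ofRealCLM.contDiff.contDiffAt.comp _ (Lf_smooth hr (by rw [hex]; exact hxn))
      exact (h3.comp (e x) (h_contDiffAt hhW D.isOpen he hz hzW)).of_le
        (WithTop.coe_le_coe.2 le_top)
    have hne : h (e.symm (e x)) ≠ c₀ := by rw [hex]; exact hxn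
    have hH := hhW e he _ hz hzW
    have hk1 : DifferentiableAt ℝ (kf c₀ r hr) (h (e.symm (e x))) :=
      (kf_smooth hr).contDiffAt.differentiableAt (by simp)
    have hk2 : DifferentiableAt ℝ (timeFn c₀ r hr 1) (h (e.symm (e x))) :=
      (timeFn_contDiff hr 1).contDiffAt.differentiableAt (by simp)
    have hk3' : DifferentiableAt ℂ (fun s : ℂ => (s - c₀)⁻¹) (h (e.symm (e x))) := by
      have h4 : DifferentiableAt ℂ (fun s : ℂ => s - c₀) (h (e.symm (e x))) :=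
        differentiableAt_fun_id.sub_const c₀
      exact h4.inv (sub_ne_zero.2 hne)
    have hk3 : DifferentiableAt ℝ (fun s : ℂ => (s - c₀)⁻¹) (h (e.symm (e x))) :=
      hk3'.restrictScalars ℝ
    have hk : DifferentiableAt ℝ (fun s => kf c₀ r hr s + timeFn c₀ r hr 1 s + (s - c₀)⁻¹)
        (h (e.symm (e x))) := (hk1.add hk2).add hk3
    have hkv : dsb (fun s => kf c₀ r hr s + timeFn c₀ r hr 1 s + (s - c₀)⁻¹) (h (e.symm (e x))) =
        dsb (kf c₀ r hr) (h (e.symm (e x))) + dsb (timeFn c₀ r hr 1) (h (e.symm (e x))) := by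
      have h4 : fderiv ℝ (fun s => kf c₀ r hr s + timeFn c₀ r hr 1 s + (s - c₀)⁻¹)
          (h (e.symm (e x))) = fderiv ℝ (kf c₀ r hr) (h (e.symm (e x))) +
            fderiv ℝ (timeFn c₀ r hr 1) (h (e.symm (e x))) +
            fderiv ℝ (fun s : ℂ => (s - c₀)⁻¹) (h (e.symm (e x))) :=
        ((hk1.hasFDerivAt.add hk2.hasFDerivAt).add hk3.hasFDerivAt).fderiv
      have h5 := dsb_of_hol hk3'
      rw [dsb] at h5 ⊢
      rw [h4, dsb, dsb]
      simp only [add_apply]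
      linear_combination h5
    have hdz := (dzh_analyticAt hhW D.isOpen he hz hzW i).differentiableAt
    have hkH : DifferentiableAt ℝ (fun y => (fun s => kf c₀ r hr s + timeFn c₀ r hr 1 s +
        (s - c₀)⁻¹) (h (e.symm y))) (e x) :=
      DifferentiableAt.comp (e x) hk (hH.restrictScalars ℝ)
    have h7 : ∀ i, FL.dz i (fun y => h (e.symm y)) (e x) = FL.del0 h x i := fun i => rfl
    rw [H332.ddz_congr h1, H332.ddz, Matrix.of_apply, FL.dz_dzb_comm hu i j, FL.dzb_congr h2,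
      FL.dzb_neg, FL.dzb_mul hkH (hdz.restrictScalars ℝ), FL.dzb_of_hol hdz,
      dzb_chain (F := fun s => kf c₀ r hr s + timeFn c₀ r hr 1 s + (s - c₀)⁻¹)
        (H := fun y => h (e.symm y)) hk hH, hkv, h7, h7, hex, vt, Matrix.of_apply, if_pos hxW]
    ring

/-- **the class of the twisting form**: `h^*(∂g/∂s̄ ds∧ds̄) = -cF N + d(h^*(k ds))` -/
theorem DiscFn.vtF_eq (D : DiscFn W h c₀ r) (hr : 0 < r) (x : X) :
    (vtF W h (dsb (timeFn c₀ r hr 1))).f20 x =
        -(H332.cF (nrm W h c₀ r hr)).f20 x + (voF W h (kf c₀ r hr)).d.f20 x ∧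
      (vtF W h (dsb (timeFn c₀ r hr 1))).f11 x =
        -(H332.cF (nrm W h c₀ r hr)).f11 x + (voF W h (kf c₀ r hr)).d.f11 x ∧
      (vtF W h (dsb (timeFn c₀ r hr 1))).f02 x =
        -(H332.cF (nrm W h c₀ r hr)).f02 x + (voF W h (kf c₀ r hr)).d.f02 x := by
  rw [voF_d D.holW D.isOpen (kf_smooth hr) (D.supp fun s hs => kf_far hr hs)]
  refine ⟨by simp [vtF, H332.cF], ?_, by simp [vtF, H332.cF]⟩
  simp only [vtF, H332.cF, D.curvN_nrm hr]
  ext i j
  simp only [vt, Matrix.add_apply, Matrix.neg_apply, Matrix.of_apply]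
  split_ifs
  · ring
  · simp

end nrm

end Vale.Agent.P290.H867
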