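import Vale.Agent.P290.H867.Fib
import Vale.Agent.P290.H867.XbK3
import Vale.Agent.P290.H445.Bridge
import Vale.Agent.P290.H686.Int
import Vale.Agent.P267.H857.Alg

/-!
# P290: the holomorphic two-form of the twisted surface on the original surface
-/

set_option linter.unusedVariables false
set_option linter.unusedSectionVars false

open scoped Manifold ContDiff ComplexConjugate Topology
open Set Filter Metric

noncomputable section

namespace Vale.Agent.P290.H867

open Vale.Agent.P267 Vale.Agent.P290.H445 Vale.Agent.P290.H686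

section tw

variable {X : All.K3} {C : Type} [TopologicalSpace C] {π : X.X → C}
  (T : TwData X.volForm π) (hπ : Continuous π)

/-- the twisted surface, not reducible (so that the instances of `All.K3` are found) -/
def surf : All.K3 := T.k3 hπ

/-- the identity `X → X_b` -/
def idX : X.X ≃ₜ (surf T hπ).X := T.homeo

/-- the charts of the twisted surface -/
def chS (a : T.A) (e : OpenPartialHomeomorph X.X C2) : OpenPartialHomeomorph (surf T hπ).X C2 :=
  T.ch hπ a e

theorem mem_atlas_surf {E : OpenPartialHomeomorph (surf T hπ).X C2} :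
    E ∈ atlas C2 (surf T hπ).X ↔ ∃ a, ∃ e ∈ atlas C2 X.X, E = chS T hπ a e := Iff.rfl

theorem mem_chS_source {a : T.A} {e : OpenPartialHomeomorph X.X C2} {x : X.X} :
    idX T hπ x ∈ (chS T hπ a e).source ↔ π x ∈ T.O a ∧ T.Ψ a x ∈ e.source :=
  T.mem_ch_source hπ

theorem rep_idX (a : T.A) (e e₀ : OpenPartialHomeomorph X.X C2) :
    rep (idX T hπ) (toFL e₀) (toFL (chS T hπ a e)) =
      fun z => φ (e (T.Ψ a (e₀.symm (φ.symm z)))) := rfl

theorem rep_idX_symm (a : T.A) (e e₀ : OpenPartialHomeomorph X.X C2) :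
    rep (idX T hπ).symm (toFL (chS T hπ a e)) (toFL e₀) =
      fun z => φ (e₀ (T.Ψ' a (e.symm (φ.symm z)))) := rfl

theorem isSm_idX : IsSm (idX T hπ) := by
  refine ⟨(idX T hπ).continuous, ?_⟩
  rintro _ ⟨e₀, he₀, rfl⟩ _ ⟨E, ⟨a, e, he, rfl⟩, rfl⟩ x hx hx'
  have hx0 : x ∈ e₀.source := hx
  have hx1 := (mem_chS_source T hπ).1 (show idX T hπ x ∈ (chS T hπ a e).source from hx')
  have h1 := T.smooth a x hx1.1 e₀ he₀ e he hx0 hx1.2
  have h2 : ContDiffAt ℝ ∞ (fun z => e (T.Ψ a (e₀.symm (φ.symm z)))) (toFL e₀ x) := by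
    have h3 : φ.symm (toFL e₀ x) = e₀ x := φ.symm_apply_apply _
    have h4 : ContDiffAt ℝ ∞ (φ.symm : FL.C2 → C2) (toFL e₀ x) :=
      ((φ.symm : FL.C2 →L[ℂ] C2).restrictScalars ℝ).contDiff.contDiffAt
    exact ContDiffAt.comp (g := fun z => e (T.Ψ a (e₀.symm z))) _ (by rw [h3]; exact h1) h4
  exact ((φ : C2 →L[ℂ] FL.C2).restrictScalars ℝ).contDiff.contDiffAt.comp _ h2

theorem isSm_idX_symm : IsSm (idX T hπ).symm := by
  refine ⟨(idX T hπ).symm.continuous, ?_⟩
  rintro _ ⟨E, ⟨a, e, he, rfl⟩, rfl⟩ _ ⟨e₀, he₀, rfl⟩ y hx hx'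
  obtain ⟨x, rfl⟩ := (idX T hπ).surjective y
  have hx0 : x ∈ e₀.source := hx'
  have hx1 := (mem_chS_source T hπ).1 (show idX T hπ x ∈ (chS T hπ a e).source from hx)
  have hb : π (T.Ψ a x) = π x := T.base a x hx1.1
  have hl : T.Ψ' a (T.Ψ a x) = x := T.left_inv a x hx1.1
  have h1 := T.smooth' a (T.Ψ a x) (by rw [hb]; exact hx1.1) e he e₀ he₀ hx1.2
    (by rw [hl]; exact hx0)
  have h2 : ContDiffAt ℝ ∞ (fun z => e₀ (T.Ψ' a (e.symm (φ.symm z)))) (φ (e (T.Ψ a x))) := by
    have h3 : φ.symm (φ (e (T.Ψ a x))) = e (T.Ψ a x) := φ.symm_apply_apply _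
    have h4 : ContDiffAt ℝ ∞ (φ.symm : FL.C2 → C2) (φ (e (T.Ψ a x))) :=
      ((φ.symm : FL.C2 →L[ℂ] C2).restrictScalars ℝ).contDiff.contDiffAt
    exact ContDiffAt.comp (g := fun z => e₀ (T.Ψ' a (e.symm z))) _ (by rw [h3]; exact h1) h4
  exact ((φ : C2 →L[ℂ] FL.C2).restrictScalars ℝ).contDiff.contDiffAt.comp _ h2

/-- the differential of the identity map in charts -/
theorem fderiv_rep_idX {a : T.A} {e e₀ : OpenPartialHomeomorph X.X C2} (he : e ∈ atlas C2 X.X)
    (he₀ : e₀ ∈ atlas C2 X.X) {x : X.X} (hx0 : x ∈ e₀.source) (ha : π x ∈ T.O a)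
    (hx1 : T.Ψ a x ∈ e.source) :
    fderiv ℝ (rep (idX T hπ) (toFL e₀) (toFL (chS T hπ a e))) (toFL e₀ x) =
      ((φ : C2 →L[ℂ] FL.C2).restrictScalars ℝ).comp
        ((fderiv ℝ (fun z => e (T.Ψ a (e₀.symm z))) (e₀ x)).comp
          ((φ.symm : FL.C2 →L[ℂ] C2).restrictScalars ℝ)) := by
  have h1 := (T.smooth a x ha e₀ he₀ e he hx0 hx1).differentiableAt (by simp)
  have h3 : φ.symm (toFL e₀ x) = e₀ x := φ.symm_apply_apply _
  rw [rep_idX]
  refine HasFDerivAt.fderiv ?_
  have h4 : HasFDerivAt (fun w : FL.C2 => φ.symm w)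
      ((φ.symm : FL.C2 →L[ℂ] C2).restrictScalars ℝ) (toFL e₀ x) :=
    ((φ.symm : FL.C2 →L[ℂ] C2).restrictScalars ℝ).hasFDerivAt
  have h5 : HasFDerivAt (fun z => e (T.Ψ a (e₀.symm z)))
      (fderiv ℝ (fun z => e (T.Ψ a (e₀.symm z))) (e₀ x)) (φ.symm (toFL e₀ x)) := by
    rw [h3]
    exact h1.hasFDerivAt
  have h6 := HasFDerivAt.comp (g := fun z => e (T.Ψ a (e₀.symm z)))
    (f := fun w : FL.C2 => φ.symm w) (toFL e₀ x) h5 h4
  exact ((φ : C2 →L[ℂ] FL.C2).restrictScalars ℝ).hasFDerivAt.comp (toFL e₀ x) h6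

theorem vol_chart {E : OpenPartialHomeomorph (surf T hπ).X C2} (hE : E ∈ atlas C2 (surf T hπ).X) :
    ∃ a, ∃ e ∈ atlas C2 X.X, E = chS T hπ a e ∧ ∀ z, (surf T hπ).vol E z = X.vol e z := by
  have key : ∀ (E' : OpenPartialHomeomorph T.Tw C2),
      (∃ a, ∃ e ∈ atlas C2 X.X, E' = T.ch hπ a e) → ∃ a, ∃ e ∈ atlas C2 X.X, E' = T.ch hπ a e ∧
        ∀ z, T.coef hπ E' z = X.volForm.coef e z := by
    intro E' h
    have h2 := h.choose_spec.choose_spec
    refine ⟨h.choose, h.choose_spec.choose, h2.1, h2.2, fun z => ?_⟩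
    rw [TwData.coef, dif_pos h]
  exact key E hE

/-- a representation of the preferred chart of the twisted surface -/
theorem exists_chart (x : X.X) : ∃ a, ∃ e ∈ atlas C2 X.X,
    chartAt C2 (idX T hπ x) = chS T hπ a e ∧ π x ∈ T.O a ∧ T.Ψ a x ∈ e.source ∧
      Om (surf T hπ) (idX T hπ x) = X.vol e (e (T.Ψ a x)) := by
  obtain ⟨a, e, he, hE, hv⟩ := vol_chart T hπ (chart_mem_atlas C2 (idX T hπ x))
  have h3 : idX T hπ x ∈ (chS T hπ a e).source := by
    rw [← hE]
    exact mem_chart_source C2 (idX T hπ x)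
  have h4 := (mem_chS_source T hπ).1 h3
  refine ⟨a, e, he, hE, h4.1, h4.2, ?_⟩
  rw [Om, hv, hE]
  rfl

theorem Df_idX {x : X.X} {a : T.A} {e : OpenPartialHomeomorph X.X C2} (he : e ∈ atlas C2 X.X)
    (hE : chartAt C2 (idX T hπ x) = chS T hπ a e) (ha : π x ∈ T.O a) (hx1 : T.Ψ a x ∈ e.source) :
    Df (idX T hπ) x = ((φ : C2 →L[ℂ] FL.C2).restrictScalars ℝ).comp
        ((fderiv ℝ (fun z => e (T.Ψ a ((chartAt C2 x).symm z))) (chartAt C2 x x)).comp
          ((φ.symm : FL.C2 →L[ℂ] C2).restrictScalars ℝ)) := by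
  rw [← fderiv_rep_idX T hπ he (chart_mem_atlas C2 x) (mem_chart_source C2 x) ha hx1, ← hE]
  rfl

theorem isDiffeo_idX : IsDiffeo (idX T hπ) where
  smooth := isSm_idX T hπ
  smooth' := isSm_idX_symm T hπ
  pos x := by
    obtain ⟨a, e, he, hE, ha, hx1, -⟩ := exists_chart T hπ x
    rw [Df_idX T hπ he hE ha hx1]
    have h2 := T.jac a x ha _ (chart_mem_atlas C2 x) e he (mem_chart_source C2 x) hx1
    rw [ContinuousLinearMap.det] at h2 ⊢
    have h3 := LinearMap.det_conj ((fderiv ℝ (fun z => e (T.Ψ a ((chartAt C2 x).symm z)))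
      (chartAt C2 x x) : C2 →L[ℝ] C2) : C2 →ₗ[ℝ] C2)
      (φ.toLinearEquiv.restrictScalars ℝ)
    rw [← h3] at h2
    exact h2

/-- the two-form `Ω` of a K3 surface as a `TwoF` -/
def OmF (X : All.K3) : FL.TwoF X.X := ⟨Om X, fun _ => 0, fun _ => 0⟩

theorem val2_OmF (X : All.K3) (x : X.X) (u v : FL.C2) :
    val2 (OmF X) x u v = Om X x * area (φ.symm u) (φ.symm v) := by
  rw [val2, ev2_apply]
  simp [OmF, area]

end tw

/-! ### the twist over a disc -/

section cut

variable {X : All.K3} {C : Type} [TopologicalSpace C] [ChartedSpace ℂ C] [T2Space C]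
  [IsManifold 𝓘(ℂ) 1 C] {π : X.X → C} (D : CutData X.volForm π)
  (hπ : MDifferentiable 𝓘(ℂ, C2) 𝓘(ℂ) π) (b : ℂ)

/-- the surface `X_b` -/
def Xb : All.K3 := surf (D.tw hπ b) hπ.continuous

/-- the identity map `X → X_b` -/
def idb : X.X ≃ₜ (Xb D hπ b).X := idX (D.tw hπ b) hπ.continuous

theorem isDiffeo_idb : IsDiffeo (idb D hπ b) := isDiffeo_idX _ _

/-- the part of `X` over the disc -/
def WD : Set X.X := π ⁻¹' D.disc

/-- the coordinate of the disc -/
def hD (x : X.X) : ℂ := D.t (π x)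

theorem val2_vt {W : Set X.X} {h : X.X → ℂ} {F : ℂ → ℂ} (x : X.X) (u v : FL.C2) :
    val2 (vtF W h F) x u v = open Classical in if x ∈ W then
      F (h x) * ((∑ i, FL.del0 h x i * u i) * conj (∑ i, FL.del0 h x i * v i) -
        conj (∑ i, FL.del0 h x i * u i) * (∑ i, FL.del0 h x i * v i)) else 0 := by
  rw [val2, ev2_apply]
  simp only [vtF, vt, Matrix.of_apply, Fin.sum_univ_two, map_add, map_mul]
  split_ifs
  · ring
  · simp

include hπ in
/-- `∂(t ∘ π)` in the preferred chart -/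
theorem del0_hD {x : X.X} (hx : π x ∈ D.t.source) (u : FL.C2) :
    ∑ i, FL.del0 (hD D) x i * u i =
      fderiv ℂ (hloc π D.t (chartAt C2 x)) (chartAt C2 x x) (φ.symm u) := by
  have hd : DifferentiableAt ℂ (hloc π D.t (chartAt C2 x)) (chartAt C2 x x) :=
    hloc_diff hπ D.ht (chart_mem_atlas C2 x) (mem_chart_target C2 x)
      (by rw [(chartAt C2 x).left_inv (mem_chart_source C2 x)]; exact hx)
  have h1 : (fun z => hD D ((chartAt FL.C2 x).symm z)) =
      fun z => hloc π D.t (chartAt C2 x) (φ.symm z) := by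
    funext z
    rfl
  have h2 : φ.symm (chartAt FL.C2 x x) = chartAt C2 x x := φ.symm_apply_apply _
  have h3 : HasFDerivAt (fun z => hloc π D.t (chartAt C2 x) (φ.symm z))
      ((fderiv ℂ (hloc π D.t (chartAt C2 x)) (chartAt C2 x x)).comp
        (φ.symm : FL.C2 →L[ℂ] C2)) (chartAt FL.C2 x x) := by
    have h4 : HasFDerivAt (hloc π D.t (chartAt C2 x))
      (fderiv ℂ (hloc π D.t (chartAt C2 x)) (chartAt C2 x x)) (φ.symm (chartAt FL.C2 x x)) := by
      rw [h2]; exact hd.hasFDerivAt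
    exact HasFDerivAt.comp (g := hloc π D.t (chartAt C2 x)) (f := fun w : FL.C2 => φ.symm w)
      (chartAt FL.C2 x x) h4 (φ.symm : FL.C2 →L[ℂ] C2).hasFDerivAt
  have h5 : ∀ i, FL.del0 (hD D) x i = fderiv ℂ (hloc π D.t (chartAt C2 x)) (chartAt C2 x x)
      (φ.symm (Pi.single i 1)) := by
    intro i
    rw [FL.del0, h1, FL.dz_of_hol h3.differentiableAt, h3.fderiv]
    rfl
  have h6 : u = u 0 • (Pi.single 0 (1 : ℂ) : FL.C2) + u 1 • (Pi.single 1 (1 : ℂ) : FL.C2) :=
    FL.c2_decomp u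
  conv_rhs => rw [h6]
  rw [map_add, map_smul, map_smul, map_add, map_smul, map_smul]
  simp only [Fin.sum_univ_two, h5, smul_eq_mul]
  ring

/-- **the pull-back of the two-form of the twisted surface**:
`Ω_b = Ω - π^*(∂g/∂s̄ ds∧ds̄)`, `g` the time function -/
theorem pb2_OmF (x : X.X) (u v : FL.C2) :
    val2 (pb2 (idb D hπ b) (OmF (Xb D hπ b))) x u v =
      val2 (OmF X) x u v - val2 (vtF (WD D) (hD D) (dsb (timeFn D.c₀ D.r D.hr b))) x u v := by
  have hm : IsManifold 𝓘(ℂ, C2) ω X.X := X.manifold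
  have hm1 : IsManifold 𝓘(ℂ, C2) 1 X.X := IsManifold.of_le (n := ω) le_top
  obtain ⟨a, e, he, hE, ha, hx1, hv⟩ := exists_chart (D.tw hπ b) hπ.continuous x
  have hx0 : x ∈ (chartAt C2 x).source := mem_chart_source C2 x
  have hsy : (chartAt C2 x).symm (chartAt C2 x x) = x := (chartAt C2 x).left_inv hx0
  rw [val2_pb2_apply, val2_OmF, val2_OmF, val2_vt]
  have hOm : Om X x = X.vol (chartAt C2 x) (chartAt C2 x x) := rfl
  have hOb : Om (Xb D hπ b) (idb D hπ b x) = X.vol e (e ((D.tw hπ b).Ψ a x)) := hv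
  rw [hOm, hOb]
  have hDf := Df_idX (D.tw hπ b) hπ.continuous he hE ha hx1
  have hL : ∀ w : FL.C2, φ.symm (Df (idb D hπ b) x w) =
      fderiv ℝ (fun z => e ((D.tw hπ b).Ψ a ((chartAt C2 x).symm z))) (chartAt C2 x x)
        (φ.symm w) := by
    intro w
    have : Df (idb D hπ b) x w = φ (fderiv ℝ (fun z => e ((D.tw hπ b).Ψ a
      ((chartAt C2 x).symm z))) (chartAt C2 x x) (φ.symm w)) := by
      show Df (idX (D.tw hπ b) hπ.continuous) x w = _
      rw [hDf]
      rfl
    rw [this, φ.symm_apply_apply]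
  rw [hL, hL]
  -- the value of the derivative of the time function
  have hdsb : ∀ {s : ℂ}, D.r < dist s D.c₀ → dsb (timeFn D.c₀ D.r D.hr b) s = 0 := fun hs =>
    dsb_timeFn_far D.hr b hs
  change Bool at a
  cases a
  · -- the identity, off the core
    have hac : π x ∉ D.core := ha
    have hxe : x ∈ e.source := hx1
    have hd := differentiableAt_transition (chart_mem_atlas C2 x) he (mem_chart_target C2 x)
      (by rw [hsy]; exact hxe)
    have hfd : fderiv ℝ (fun z => e ((D.tw hπ b).Ψ false ((chartAt C2 x).symm z)))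
        (chartAt C2 x x) = (fderiv ℂ (fun z => e ((chartAt C2 x).symm z))
          (chartAt C2 x x)).restrictScalars ℝ := hd.fderiv_restrictScalars ℝ
    have hcomp := X.volForm.compat _ (chart_mem_atlas C2 x) e he (chartAt C2 x x)
      (mem_chart_target C2 x) (by rw [hsy]; exact hxe)
    rw [hsy] at hcomp
    have hc' : X.vol (chartAt C2 x) (chartAt C2 x x) = X.vol e (e x) *
      (fderiv ℂ (fun z => e ((chartAt C2 x).symm z)) (chartAt C2 x x)).det := hcomp
    have hΨ : (D.tw hπ b).Ψ false x = x := rfl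
    rw [hfd, hΨ, ContinuousLinearMap.coe_restrictScalars', area_map, hc']
    have hz : (open Classical in if x ∈ WD D then
      dsb (timeFn D.c₀ D.r D.hr b) (hD D x) * ((∑ i, FL.del0 (hD D) x i * u i) *
        conj (∑ i, FL.del0 (hD D) x i * v i) - conj (∑ i, FL.del0 (hD D) x i * u i) *
          (∑ i, FL.del0 (hD D) x i * v i)) else 0) = 0 := by
      split_ifs with hW
      · have hr1 : D.r < dist (hD D x) D.c₀ := by
          by_contra h
          push Not at h
          exact hac ((D.mem_core_iff hW.1).2 h)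
        rw [hdsb hr1, zero_mul]
      · rfl
    rw [hz]
    ring
  · -- the shift, over the disc
    have haW : π x ∈ D.disc := ha
    have hxe : sh π D.φ (D.gt b) x ∈ e.source := hx1
    have hxW : x ∈ WD D := haW
    rw [if_pos hxW]
    set g' := fderiv ℝ (fun s => D.gt b (D.t.symm s)) (D.t (π x)) with hg'
    have hgd : HasFDerivAt (fun s => D.gt b (D.t.symm s)) g' (D.t (π x)) :=
      ((D.gt_contDiffAt b haW.1).differentiableAt (by simp)).hasFDerivAt
    have hG := hasFDerivAt_gpi hπ D.ht haW.1 hgd (chart_mem_atlas C2 x) (mem_chart_source C2 x)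
    have hS := sh_hasFDerivAt X.volForm hπ D.hU₁ D.hφ (D.disc_U haW) (chart_mem_atlas C2 x) he
      (mem_chart_source C2 x) hxe hG
    have hfd : ∀ w, fderiv ℝ (fun z => e ((D.tw hπ b).Ψ true ((chartAt C2 x).symm z)))
        (chartAt C2 x x) w = fderiv ℂ (fun z => e (D.φ ((chartAt C2 x).symm z)
          (D.gt b (π x)))) (chartAt C2 x x) w +
          (g' (fderiv ℂ (hloc π D.t (chartAt C2 x)) (chartAt C2 x x) w)) •
            ham X.volForm π D.t e (e (sh π D.φ (D.gt b) x)) := by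
      intro w
      have h1 : HasFDerivAt (fun z => e ((D.tw hπ b).Ψ true ((chartAt C2 x).symm z))) _
        (chartAt C2 x x) := hS
      rw [h1.fderiv]
      rfl
    have har := sh_area X.volForm hπ D.ht D.hU₁ D.hφ (D.disc_U haW) (g := D.gt b)
      (chart_mem_atlas C2 x) he (mem_chart_source C2 x) hxe
      (g' (fderiv ℂ (hloc π D.t (chartAt C2 x)) (chartAt C2 x x) (φ.symm u)))
      (g' (fderiv ℂ (hloc π D.t (chartAt C2 x)) (chartAt C2 x x) (φ.symm v)))
      (φ.symm u) (φ.symm v)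
    rw [hfd, hfd]
    have hval : X.vol e (e ((D.tw hπ b).Ψ true x)) =
      X.volForm.coef e (e (sh π D.φ (D.gt b) x)) := rfl
    rw [hval, har, del0_hD D hπ haW.1, del0_hD D hπ haW.1]
    have hgw : ∀ w, g' w = ds (fun s => D.gt b (D.t.symm s)) (D.t (π x)) * w +
        dsb (timeFn D.c₀ D.r D.hr b) (hD D x) * conj w := by
      intro w
      rw [hg', fderiv_eq_ds]
      have h1 : (fun s => D.gt b (D.t.symm s)) =ᶠ[𝓝 (D.t (π x))] timeFn D.c₀ D.r D.hr b := by
        filter_upwards [D.t.open_target.mem_nhds (D.t.map_source haW.1)] with s hs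
        simp only [CutData.gt, D.t.right_inv hs]
      rw [dsb_congr h1]
      rfl
    rw [hgw, hgw]
    have hcoef : X.volForm.coef (chartAt C2 x) (chartAt C2 x x) =
      X.vol (chartAt C2 x) (chartAt C2 x x) := rfl
    rw [hcoef]
    ring

theorem isOpen_WD (hπ : Continuous π) : IsOpen (WD D) := D.isOpen_disc.preimage hπ

include hπ in
theorem hD_mdiff {x : X.X} (hx : x ∈ WD D) :
    MDifferentiableAt 𝓘(ℂ, FL.C2) 𝓘(ℂ) (hD D) x := by
  have hm : IsManifold 𝓘(ℂ, C2) ω X.X := X.manifold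
  have hm1 : IsManifold 𝓘(ℂ, C2) 1 X.X := IsManifold.of_le (n := ω) le_top
  have hd : DifferentiableAt ℂ (hloc π D.t (chartAt C2 x)) (chartAt C2 x x) :=
    hloc_diff hπ D.ht (chart_mem_atlas C2 x) (mem_chart_target C2 x)
      (by rw [(chartAt C2 x).left_inv (mem_chart_source C2 x)]; exact hx.1)
  rw [mdifferentiableAt_iff]
  refine ⟨ContinuousAt.comp (D.t.continuousAt hx.1) hπ.continuous.continuousAt, ?_⟩
  have h2 : φ.symm (chartAt FL.C2 x x) = chartAt C2 x x := φ.symm_apply_apply _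
  have h3 : DifferentiableAt ℂ (fun z => hloc π D.t (chartAt C2 x) (φ.symm z))
      (chartAt FL.C2 x x) := by
    have h4 : DifferentiableAt ℂ (hloc π D.t (chartAt C2 x)) (φ.symm (chartAt FL.C2 x x)) := by
      rw [h2]; exact hd
    exact DifferentiableAt.comp (g := hloc π D.t (chartAt C2 x)) (f := fun w : FL.C2 => φ.symm w)
      (chartAt FL.C2 x x) h4 (φ.symm : FL.C2 →L[ℂ] C2).differentiableAt
  exact h3.differentiableWithinAt

include hπ in
/-- the coordinate of the disc is a disc function -/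
theorem discFn (hnl : ∀ (c : C) (y : X.X), ∃ᶠ z in 𝓝 y, π z ≠ c) :
    DiscFn (WD D) (hD D) D.c₀ D.r where
  isOpen := isOpen_WD D hπ.continuous
  hol x hx := (hD_mdiff D hπ hx).mdifferentiableWithinAt
  far x hx := by
    have h1 : π x ∉ D.core := fun h => hx (D.core_sub_disc h)
    filter_upwards [hπ.continuous.continuousAt.eventually
      (D.isClosed_core.isOpen_compl.mem_nhds h1)] with y hy
    by_cases hyW : y ∈ WD D
    · right
      by_contra h
      push Not at h
      exact hy ((D.mem_core_iff hyW.1).2 h)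
    · exact Or.inl hyW
  nz V hV hVW hne := by
    obtain ⟨y, hy⟩ := hne
    obtain ⟨z, hz, hz'⟩ := (frequently_iff.1 (hnl (D.t.symm D.c₀) y)) (hV.mem_nhds hy)
    refine ⟨z, hz, fun h0 => hz' ?_⟩
    have h1 : D.t (π z) = D.c₀ := h0
    rw [← h1, D.t.left_inv (hVW hz).1]

include hπ in
theorem holW_hD : HolW (WD D) (hD D) := by
  intro e he z hz hzW
  have hO : IsOpen (e.target ∩ e.symm ⁻¹' WD D) :=
    e.isOpen_inter_preimage_symm (isOpen_WD D hπ.continuous)
  have h1 := H332.differentiableOn_chart he (g := hD D) (U := WD D) fun x hx =>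
    (hD_mdiff D hπ hx).mdifferentiableWithinAt
  exact (h1 z ⟨hz, hzW⟩).differentiableAt (hO.mem_nhds ⟨hz, hzW⟩)

theorem supp_hD (hπ : Continuous π) {F : ℂ → ℂ} (hF : ∀ s, D.r < dist s D.c₀ → F s = 0) :
    Supp (WD D) (hD D) F := by
  intro x hx
  have h1 : π x ∉ D.core := fun h => hx (D.core_sub_disc h)
  filter_upwards [hπ.continuousAt.eventually (D.isClosed_core.isOpen_compl.mem_nhds h1)] with y hy
  by_cases hyW : y ∈ WD D
  · right
    refine hF _ ?_
    by_contra h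
    push Not at h
    exact hy ((D.mem_core_iff hyW.1).2 h)
  · exact Or.inl hyW

/-- the twisting form `η = π^*(∂g/∂s̄ ds∧ds̄)`, `g` the time function for `b = 1` -/
def eta : FL.TwoF X.X := vtF (WD D) (hD D) (dsb (timeFn D.c₀ D.r D.hr 1))

include hπ in
theorem eta_smooth : (eta D).Smooth :=
  vtF_smooth (holW_hD D hπ) (isOpen_WD D hπ.continuous)
    (contDiff_iff_contDiffAt.2 fun s => dsb_contDiff (timeFn_contDiff D.hr 1).contDiffAt)
    (supp_hD D hπ.continuous fun s hs => dsb_timeFn_far D.hr 1 hs)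

include hπ in
theorem eta_closed : (eta D).Closed :=
  vtF_closed (holW_hD D hπ) (isOpen_WD D hπ.continuous)
    (contDiff_iff_contDiffAt.2 fun s => dsb_contDiff (timeFn_contDiff D.hr 1).contDiffAt)
    (supp_hD D hπ.continuous fun s hs => dsb_timeFn_far D.hr 1 hs)

theorem vtF_time (s : ℂ) : dsb (timeFn D.c₀ D.r D.hr b) s =
    b * dsb (timeFn D.c₀ D.r D.hr 1) s := by
  have h1 : timeFn D.c₀ D.r D.hr b = fun s => b * timeFn D.c₀ D.r D.hr 1 s := by
    funext s
    simp only [timeFn]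
    ring
  rw [h1, dsb_const_mul b ((timeFn_contDiff D.hr 1).contDiffAt.differentiableAt (by simp))]

/-- **`Ω_b = Ω - b η`** on `X` -/
theorem pb2_OmF_eq : pb2 (idb D hπ b) (OmF (Xb D hπ b)) = OmF X - b • eta D := by
  refine val2_inj fun x => ?_
  ext u v
  have h1 := pb2_OmF D hπ b x u v
  rw [h1, val2_vt, val2_OmF]
  have h2 : val2 (OmF X - b • eta D) x u v =
      val2 (OmF X) x u v - b * val2 (eta D) x u v := by
    simp only [val2, ev2_apply, FL.TwoF.f20_sub, FL.TwoF.f11_sub, FL.TwoF.f02_sub,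
      FL.TwoF.f20_smul, FL.TwoF.f11_smul, FL.TwoF.f02_smul, Pi.sub_apply, Pi.smul_apply,
      Matrix.sub_apply, Matrix.smul_apply, smul_eq_mul, Fin.sum_univ_two]
    ring
  rw [h2, val2_OmF, eta, val2_vt]
  split_ifs
  · rw [vtF_time]
    ring
  · ring

/-- the norm function of the central fibre of the disc -/
def nD : X.X → ℝ := nrm (WD D) (hD D) D.c₀ D.r D.hr

include hπ in
theorem isNormFn_nD (hnl : ∀ (c : C) (y : X.X), ∃ᶠ z in 𝓝 y, π z ≠ c) :
    H757.IsNormFn FL.C2 (nD D) := (discFn D hπ hnl).isNormFn D.hr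

/-- the primitive -/
def kD : FL.OneF X.X := voF (WD D) (hD D) (kf D.c₀ D.r D.hr)

include hπ in
theorem kD_smooth : (kD D).Smooth :=
  voF_smooth (holW_hD D hπ) (isOpen_WD D hπ.continuous) (kf_smooth D.hr)
    (supp_hD D hπ.continuous fun s hs => kf_far D.hr hs)

include hπ in
/-- the twisting form is minus the curvature of the norm function of a fibre, up to exact forms -/
theorem eta_eq (hnl : ∀ (c : C) (y : X.X), ∃ᶠ z in 𝓝 y, π z ≠ c) :
    eta D = -H332.cF (nD D) + (kD D).d := by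
  have h := (discFn D hπ hnl).vtF_eq D.hr
  refine FL.TwoF.ext (funext fun x => (h x).1) (funext fun x => (h x).2.1)
    (funext fun x => (h x).2.2)

include hπ in
/-- **`Ω_b = Ω + b cF N - b d(k)`**, `N` the norm function of a fibre of `π` -/
theorem pb2_OmF_cF (hnl : ∀ (c : C) (y : X.X), ∃ᶠ z in 𝓝 y, π z ≠ c) :
    pb2 (idb D hπ b) (OmF (Xb D hπ b)) = OmF X + b • H332.cF (nD D) - b • (kD D).d := by
  rw [pb2_OmF_eq, eta_eq D hπ hnl, smul_add, smul_neg]
  abel

end cut

end Vale.Agent.P290.H867
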