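import Vale.Agent.P290.Bdl.B2

/-! The Hamiltonian flow of a function pulled back from the base preserves the holomorphic
symplectic form. -/

open Set Filter Metric
open scoped Manifold ContDiff Topology

namespace Vale.Agent.P290.H867

open Vale.Agent.P290

/-- the trace of an endomorphism of `ℂ²` -/
noncomputable def tr2 (B : C2 →L[ℂ] C2) : ℂ := (B E1).1 + (B E2).2

theorem area_tr (B : C2 →L[ℂ] C2) (a b : C2) : area (B a) b + area a (B b) = tr2 B * area a b := by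
  rw [C2_map_eq B a, C2_map_eq B b]
  simp only [area, tr2, Prod.fst_add, Prod.smul_fst, smul_eq_mul, Prod.snd_add, Prod.smul_snd]
  ring

theorem fderiv_symm {V : Type} [NormedAddCommGroup V] [NormedSpace ℂ V]
    [FiniteDimensional ℂ V] {F : Type} [NormedAddCommGroup F] [NormedSpace ℂ F] [CompleteSpace F]
    {f : V → F} {p : V} (hf : ∀ᶠ q in 𝓝 p, DifferentiableAt ℂ f q) (u v : V) :
    HasFDerivAt (fderiv ℂ f) (fderiv ℂ (fderiv ℂ f) p) p ∧
    (fderiv ℂ (fderiv ℂ f) p) u v = (fderiv ℂ (fderiv ℂ f) p) v u := by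
  obtain ⟨W, hWs, hWo, hW⟩ := _root_.eventually_nhds_iff.1 hf
  have h1 : DifferentiableOn ℂ f W := fun q hq => (hWs q hq).differentiableWithinAt
  have h2 := (differentiableOn_fderiv hWo h1).differentiableAt (hWo.mem_nhds hW)
  refine ⟨h2.hasFDerivAt, ?_⟩
  exact second_derivative_symmetric_of_eventually (𝕜 := ℂ) (f := f) (f' := fderiv ℂ f) (x := p)
    (by filter_upwards [hf] with q hq using hq.hasFDerivAt) h2.hasFDerivAt u v

/-- Liouville's formula for the flow of a field `v` with `div (κ v) = 0`. -/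
theorem hasDerivAt_liouville {F : C2 × ℂ → C2} {v : C2 → C2} {κ : C2 → ℂ} {y₀ : C2} {w₀ : ℂ}
    (hF : ∀ᶠ p in 𝓝 (y₀, w₀), DifferentiableAt ℂ F p)
    (hflow : ∀ᶠ p in 𝓝 (y₀, w₀), HasDerivAt (fun w => F (p.1, w)) (v (F p)) p.2)
    (hv : DifferentiableAt ℂ v (F (y₀, w₀))) (hκ : DifferentiableAt ℂ κ (F (y₀, w₀)))
    (hdiv : fderiv ℂ κ (F (y₀, w₀)) (v (F (y₀, w₀))) +
      κ (F (y₀, w₀)) * tr2 (fderiv ℂ v (F (y₀, w₀))) = 0) :
    HasDerivAt (fun w => κ (F (y₀, w)) * (fderiv ℂ (fun z => F (z, w)) y₀).det) 0 w₀ := by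
  have hF0 : DifferentiableAt ℂ F (y₀, w₀) := hF.self_of_nhds
  -- the partial derivatives
  have hline : ContinuousAt (fun w : ℂ => ((y₀, w) : C2 × ℂ)) w₀ := by fun_prop
  have hFw : ∀ᶠ w in 𝓝 w₀, DifferentiableAt ℂ F (y₀, w) := hline.eventually hF
  have hpart : ∀ᶠ w in 𝓝 w₀, ∀ u : C2, fderiv ℂ (fun z => F (z, w)) y₀ u =
      fderiv ℂ F (y₀, w) (u, 0) := by
    filter_upwards [hFw] with w hw u
    have h1 : HasFDerivAt (fun z : C2 => ((z, w) : C2 × ℂ))
        ((ContinuousLinearMap.id ℂ C2).prod 0) y₀ :=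
      (hasFDerivAt_id y₀).prodMk (hasFDerivAt_const w y₀)
    have h2 := (hw.hasFDerivAt.comp y₀ h1).fderiv
    have h3 : (F ∘ fun z : C2 => ((z, w) : C2 × ℂ)) = fun z => F (z, w) := rfl
    rw [h3] at h2
    rw [h2]
    rfl
  obtain ⟨W, hWs, hWo, hW⟩ := _root_.eventually_nhds_iff.1 hF
  have hDD := fderiv_symm hF
  set D := fderiv ℂ F with hD
  set DD := fderiv ℂ D (y₀, w₀) with hDDdef
  have hD1 : HasFDerivAt D DD (y₀, w₀) := (hDD 0 0).1
  -- the derivative in the time direction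
  have htime : ∀ᶠ p in 𝓝 (y₀, w₀), D p (0, 1) = v (F p) := by
    filter_upwards [hF, hflow] with p hp hp'
    have h4 : HasFDerivAt F (D p) (p.1, p.2) := hp.hasFDerivAt
    have h5 : HasDerivAt (fun w : ℂ => ((p.1, w) : C2 × ℂ)) ((0 : C2), (1 : ℂ)) p.2 :=
      (hasDerivAt_const p.2 p.1).prodMk (hasDerivAt_id p.2)
    exact (h4.comp_hasDerivAt p.2 h5).unique hp'
  have hkey : ∀ u : C2, DD (0, 1) (u, 0) = fderiv ℂ v (F (y₀, w₀)) (D (y₀, w₀) (u, 0)) := by
    intro u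
    rw [← (hDD (u, 0) (0, 1)).2]
    have h1 : HasFDerivAt (fun p => D p (0, 1)) (DD.flip (0, 1)) (y₀, w₀) := by
      have := hD1.clm_apply (hasFDerivAt_const ((0, 1) : C2 × ℂ) (y₀, w₀))
      refine this.congr_fderiv ?_
      ext <;> simp
    have h2 : HasFDerivAt (fun p => v (F p)) ((fderiv ℂ v (F (y₀, w₀))).comp (D (y₀, w₀)))
        (y₀, w₀) := hv.hasFDerivAt.comp (y₀, w₀) hF0.hasFDerivAt
    have h3 := (h1.congr_of_eventuallyEq (by
      filter_upwards [htime] with p hp using hp.symm)).unique h2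
    have h4 := congrArg (fun L => L (u, 0)) h3
    simpa using h4
  -- the derivatives of the columns
  have hcol : ∀ u : C2, HasDerivAt (fun w => D (y₀, w) (u, 0))
      (fderiv ℂ v (F (y₀, w₀)) (D (y₀, w₀) (u, 0))) w₀ := by
    intro u
    rw [← hkey u]
    have h5 : HasDerivAt (fun w : ℂ => ((y₀, w) : C2 × ℂ)) ((0 : C2), (1 : ℂ)) w₀ :=
      (hasDerivAt_const w₀ y₀).prodMk (hasDerivAt_id w₀)
    have h6 := hD1.comp_hasDerivAt w₀ h5
    have h7 := h6.clm_apply (hasDerivAt_const w₀ ((u, 0) : C2 × ℂ))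
    simpa using h7
  have hFt : HasDerivAt (fun w => F (y₀, w)) (v (F (y₀, w₀))) w₀ := hflow.self_of_nhds
  have hκt : HasDerivAt (fun w => κ (F (y₀, w))) (fderiv ℂ κ (F (y₀, w₀)) (v (F (y₀, w₀)))) w₀ :=
    hκ.hasFDerivAt.comp_hasDerivAt w₀ hFt
  have hdet : (fun w => κ (F (y₀, w)) * (fderiv ℂ (fun z => F (z, w)) y₀).det) =ᶠ[𝓝 w₀]
      fun w => κ (F (y₀, w)) * area (D (y₀, w) (E1, 0)) (D (y₀, w) (E2, 0)) := by
    filter_upwards [hpart] with w hw
    congr 1
    have h1 := area_map (fderiv ℂ (fun z => F (z, w)) y₀) E1 E2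
    have h2 : area E1 E2 = 1 := by simp [area, E1, E2]
    rw [h2, mul_one, hw, hw] at h1
    exact h1.symm
  refine HasDerivAt.congr_of_eventuallyEq ?_ hdet
  have harea : HasDerivAt (fun w => area (D (y₀, w) (E1, 0)) (D (y₀, w) (E2, 0)))
      (tr2 (fderiv ℂ v (F (y₀, w₀))) * area (D (y₀, w₀) (E1, 0)) (D (y₀, w₀) (E2, 0))) w₀ := by
    have a1 := hcol E1
    have a2 := hcol E2
    rw [← area_tr]
    have b1 : HasDerivAt (fun w => (D (y₀, w) (E1, 0)).1) _ w₀ := a1.fst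
    have b2 : HasDerivAt (fun w => (D (y₀, w) (E1, 0)).2) _ w₀ := a1.snd
    have b3 : HasDerivAt (fun w => (D (y₀, w) (E2, 0)).1) _ w₀ := a2.fst
    have b4 : HasDerivAt (fun w => (D (y₀, w) (E2, 0)).2) _ w₀ := a2.snd
    have := (b1.mul b4).sub (b2.mul b3)
    refine this.congr_deriv ?_
    simp only [area]
    ring
  refine (hκt.mul harea).congr_deriv ?_
  have : ∀ a b c d : ℂ, a + b * c = 0 → a * d + b * (c * d) = 0 := by
    intro a b c d h
    linear_combination d * h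
  exact this _ _ _ _ hdiv

section

variable {X C : Type} [TopologicalSpace X] [ChartedSpace C2 X] [IsManifold 𝓘(ℂ, C2) 1 X]
  (vol : VolForm X) [TopologicalSpace C] [ChartedSpace ℂ C] [IsManifold 𝓘(ℂ) 1 C] {π : X → C}

/-- the Hamiltonian field has divergence zero with respect to the volume form -/
theorem ham_div (hπ : MDifferentiable 𝓘(ℂ, C2) 𝓘(ℂ) π) {t : OpenPartialHomeomorph C ℂ}
    (ht : t ∈ atlas ℂ C) {e : OpenPartialHomeomorph X C2} (he : e ∈ atlas C2 X) {y : C2}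
    (hy : y ∈ e.target) (hyt : π (e.symm y) ∈ t.source) :
    fderiv ℂ (vol.coef e) y (ham vol π t e y) +
      vol.coef e y * tr2 (fderiv ℂ (ham vol π t e) y) = 0 := by
  have hπc : Continuous π := hπ.continuous
  have hO : IsOpen (e.target ∩ e.symm ⁻¹' (π ⁻¹' t.source)) :=
    e.isOpen_inter_preimage_symm (t.open_source.preimage hπc)
  have hyO : y ∈ e.target ∩ e.symm ⁻¹' (π ⁻¹' t.source) := ⟨hy, hyt⟩
  set h := hloc π t e with hh
  have h1 : ∀ᶠ z in 𝓝 y, DifferentiableAt ℂ h z := by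
    filter_upwards [hO.mem_nhds hyO] with z hz using hloc_diff hπ ht he hz.1 hz.2
  have hDD := fderiv_symm h1
  set DD := fderiv ℂ (fderiv ℂ h) y with hDDdef
  have hD1 : HasFDerivAt (fderiv ℂ h) DD y := (hDD 0 0).1
  have hκ : HasFDerivAt (vol.coef e) (fderiv ℂ (vol.coef e) y) y :=
    ((vol.holo e he).differentiableAt (e.open_target.mem_nhds hy)).hasFDerivAt
  have hv : HasFDerivAt (ham vol π t e) (fderiv ℂ (ham vol π t e) y) y :=
    ((ham_diff vol hπ ht he).differentiableAt (hO.mem_nhds hyO)).hasFDerivAt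
  -- the field `κ v`
  have hprod : (fun z => vol.coef e z • ham vol π t e z) =ᶠ[𝓝 y]
      fun z => (fderiv ℂ h z E2) • E1 - (fderiv ℂ h z E1) • E2 := by
    filter_upwards [e.open_target.mem_nhds hy] with z hz
    simp only [ham]
    rw [smul_smul, mul_inv_cancel₀ (vol.ne_zero e he z hz), one_smul]
  have h2 := hκ.smul hv
  have h3 : ∀ u : C2, HasFDerivAt (fun z => fderiv ℂ h z u) (DD.flip u) y := by
    intro u
    have := hD1.clm_apply (hasFDerivAt_const u y)
    refine this.congr_fderiv ?_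
    ext <;> simp
  have h4 : HasFDerivAt (fun z => (fderiv ℂ h z E2) • E1 - (fderiv ℂ h z E1) • E2)
      ((DD.flip E2).smulRight E1 - (DD.flip E1).smulRight E2) y :=
    ((h3 E2).smul_const E1).sub ((h3 E1).smul_const E2)
  have h5 := (h4.congr_of_eventuallyEq hprod).unique h2
  have k1 := congrArg (fun L : C2 →L[ℂ] C2 => (L E1).1) h5
  have k2 := congrArg (fun L : C2 →L[ℂ] C2 => (L E2).2) h5
  have hs := (hDD E1 E2).2
  simp only [_root_.sub_apply, ContinuousLinearMap.smulRight_apply,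
    ContinuousLinearMap.flip_apply, _root_.add_apply, _root_.smul_apply,
    Prod.fst_sub, Prod.fst_add, Prod.smul_fst, Prod.snd_sub, Prod.snd_add, Prod.smul_snd,
    smul_eq_mul] at k1 k2
  have e11 : E1.1 = 1 := rfl
  have e12 : E1.2 = 0 := rfl
  have e21 : E2.1 = 0 := rfl
  have e22 : E2.2 = 1 := rfl
  rw [e11, e21] at k1
  rw [e12, e22] at k2
  rw [C2_map_eq (fderiv ℂ (vol.coef e) y) (ham vol π t e y)]
  simp only [tr2, smul_eq_mul]
  have k3 : (DD E1) E2 = (DD E2) E1 := hs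
  linear_combination -k1 - k2 + k3

/-- **The Hamiltonian flow preserves the volume form.** -/
theorem GlobF.vol_pres (hπ : MDifferentiable 𝓘(ℂ, C2) 𝓘(ℂ) π) {t : OpenPartialHomeomorph C ℂ}
    (ht : t ∈ atlas ℂ C) {U₁ : Set X} (hU₁ : IsOpen U₁) {φ : X → ℂ → X}
    (hφ : GlobF (π ⁻¹' t.source) (ham vol π t) U₁ φ) {x : X} (hx : x ∈ U₁) (w : ℂ)
    {e e' : OpenPartialHomeomorph X C2} (he : e ∈ atlas C2 X) (he' : e' ∈ atlas C2 X)
    (hxe : x ∈ e.source) (hxe' : φ x w ∈ e'.source) :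
    vol.coef e (e x) = vol.coef e' (e' (φ x w)) *
      (fderiv ℂ (fun z => e' (φ (e.symm z) w)) (e x)).det := by
  set y₀ := e x with hy₀
  have hy : y₀ ∈ e.target := e.map_source hxe
  have hsy : e.symm y₀ = x := e.left_inv hxe
  -- joint holomorphy in charts
  have hnear : ∀ w₀ : ℂ, ∀ e'' ∈ atlas C2 X, φ x w₀ ∈ e''.source →
      (∀ᶠ p : C2 × ℂ in 𝓝 (y₀, w₀), e.symm p.1 ∈ U₁ ∧ p.1 ∈ e.target ∧
        φ (e.symm p.1) p.2 ∈ e''.source ∧
        DifferentiableAt ℂ (fun q : C2 × ℂ => e'' (φ (e.symm q.1) q.2)) p) := by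
    intro w₀ e'' he'' hs''
    have hmd : ∀ p : C2 × ℂ, p.1 ∈ e.target → e.symm p.1 ∈ U₁ →
        MDifferentiableAt 𝓘(ℂ, C2 × ℂ) 𝓘(ℂ, C2) (fun q : C2 × ℂ => φ (e.symm q.1) q.2) p := by
      intro p hp hpU
      refine hφ.hol (C2 × ℂ) (fun q => e.symm q.1) (fun q => q.2) p ?_ differentiableAt_snd hpU
      have h1 := mdifferentiableAt_atlas_symm (I := 𝓘(ℂ, C2)) he hp
      have h2 : MDifferentiableAt 𝓘(ℂ, C2 × ℂ) 𝓘(ℂ, C2) (fun q : C2 × ℂ => q.1) p :=
        (differentiableAt_fst (𝕜 := ℂ)).mdifferentiableAt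
      exact h1.comp p h2
    have hev1 : ∀ᶠ p : C2 × ℂ in 𝓝 (y₀, w₀), p.1 ∈ e.target :=
      (continuous_fst.continuousAt (x := (y₀, w₀))).eventually (e.open_target.mem_nhds hy)
    have hev2 : ∀ᶠ p : C2 × ℂ in 𝓝 (y₀, w₀), e.symm p.1 ∈ U₁ := by
      have h1 : ContinuousAt (fun p : C2 × ℂ => e.symm p.1) (y₀, w₀) :=
        ContinuousAt.comp (f := fun p : C2 × ℂ => p.1) (g := e.symm)
          (e.continuousAt_symm hy) continuous_fst.continuousAt
      refine h1.eventually (hU₁.mem_nhds ?_)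
      simp only [hsy]
      exact hx
    have hev3 : ∀ᶠ p : C2 × ℂ in 𝓝 (y₀, w₀), φ (e.symm p.1) p.2 ∈ e''.source := by
      have h1 := (hmd (y₀, w₀) hy (by simp only [hsy]; exact hx)).continuousAt
      refine h1.eventually (e''.open_source.mem_nhds ?_)
      simp only [hsy]
      exact hs''
    filter_upwards [hev1, hev2, hev3] with p h1 h2 h3
    refine ⟨h2, h1, h3, ?_⟩
    have h4 := mdifferentiableAt_atlas (I := 𝓘(ℂ, C2)) he'' h3
    exact (h4.comp p (hmd p h1 h2)).differentiableAt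
  -- the function of `w`, computed in an arbitrary chart
  set J : OpenPartialHomeomorph X C2 → ℂ → ℂ := fun e'' w =>
    vol.coef e'' (e'' (φ x w)) * (fderiv ℂ (fun z => e'' (φ (e.symm z) w)) y₀).det with hJ
  have hindep : ∀ w₀ : ℂ, ∀ e₁ ∈ atlas C2 X, ∀ e₂ ∈ atlas C2 X, φ x w₀ ∈ e₁.source →
      φ x w₀ ∈ e₂.source → J e₁ w₀ = J e₂ w₀ := by
    intro w₀ e₁ h₁ e₂ h₂ s₁ s₂
    have n1 := (hnear w₀ e₁ h₁ s₁).self_of_nhds
    have hc := vol.compat e₁ h₁ e₂ h₂ (e₁ (φ x w₀)) (e₁.map_source s₁)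
      (by rw [e₁.left_inv s₁]; exact s₂)
    rw [e₁.left_inv s₁] at hc
    have hline : ContinuousAt (fun z : C2 => ((z, w₀) : C2 × ℂ)) y₀ := by fun_prop
    have h3 : (fun z => e₂ (φ (e.symm z) w₀)) =ᶠ[𝓝 y₀]
        (fun z => e₂ (e₁.symm z)) ∘ (fun z => e₁ (φ (e.symm z) w₀)) := by
      filter_upwards [hline.eventually (hnear w₀ e₁ h₁ s₁)] with z hz
      simp only [Function.comp_apply]
      rw [e₁.left_inv hz.2.2.1]
    have hd : DifferentiableAt ℂ (fun z => e₁ (φ (e.symm z) w₀)) y₀ :=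
      DifferentiableAt.comp (f := fun z : C2 => ((z, w₀) : C2 × ℂ)) y₀ n1.2.2.2
        (differentiableAt_id.prodMk (differentiableAt_const w₀))
    have hd2 : DifferentiableAt ℂ (fun z => e₂ (e₁.symm z)) (e₁ (φ (e.symm y₀) w₀)) := by
      rw [hsy]
      exact differentiableAt_transition h₁ h₂ (e₁.map_source s₁)
        (by rw [e₁.left_inv s₁]; exact s₂)
    simp only [hJ]
    rw [h3.fderiv_eq, fderiv_comp y₀ hd2 hd]
    have h5 : ((fderiv ℂ (fun z => e₂ (e₁.symm z)) (e₁ (φ (e.symm y₀) w₀))).comp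
        (fderiv ℂ (fun z => e₁ (φ (e.symm z) w₀)) y₀)).det =
        (fderiv ℂ (fun z => e₂ (e₁.symm z)) (e₁ (φ (e.symm y₀) w₀))).det *
        (fderiv ℂ (fun z => e₁ (φ (e.symm z) w₀)) y₀).det := LinearMap.det_comp _ _
    rw [h5, hc, hsy]
    ring
  -- zero derivative
  have hder : ∀ w₀ : ℂ, ∀ e'' ∈ atlas C2 X, φ x w₀ ∈ e''.source → HasDerivAt (J e'') 0 w₀ := by
    intro w₀ e'' he'' hs''
    have hn := hnear w₀ e'' he'' hs''
    set F : C2 × ℂ → C2 := fun q => e'' (φ (e.symm q.1) q.2) with hF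
    have hF0 : F (y₀, w₀) = e'' (φ x w₀) := by simp only [hF, hsy]
    have hyt : π (e''.symm (F (y₀, w₀))) ∈ t.source := by
      rw [hF0, e''.left_inv hs'']
      exact (hφ.ic x hx w₀).2.1
    have hyt' : F (y₀, w₀) ∈ e''.target := by rw [hF0]; exact e''.map_source hs''
    have hO : IsOpen (e''.target ∩ e''.symm ⁻¹' (π ⁻¹' t.source)) :=
      e''.isOpen_inter_preimage_symm (t.open_source.preimage hπ.continuous)
    have h1 := hasDerivAt_liouville (F := F) (v := ham vol π t e'') (κ := vol.coef e'')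
      (y₀ := y₀) (w₀ := w₀) (by filter_upwards [hn] with p hp using hp.2.2.2)
      (by
        filter_upwards [hn] with p hp
        exact (hφ.ic _ hp.1 p.2).2.2 e'' he'' hp.2.2.1)
      ((ham_diff vol hπ ht he'').differentiableAt (hO.mem_nhds ⟨hyt', hyt⟩))
      ((vol.holo e'' he'').differentiableAt (e''.open_target.mem_nhds hyt'))
      (ham_div vol hπ ht he'' hyt' hyt)
    have h2 : J e'' = fun w => vol.coef e'' (F (y₀, w)) * (fderiv ℂ (fun z => F (z, w)) y₀).det := by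
      funext w
      simp only [hJ, hF, hsy]
    rw [h2]
    exact h1
  set G : ℂ → ℂ := fun w => J (chartAt C2 (φ x w)) w with hG
  have hcont : ∀ w₀, ContinuousAt (φ x) w₀ := fun w₀ => (hφ.ic x hx w₀).1
  have hGd : ∀ w₀ : ℂ, HasDerivAt G 0 w₀ := by
    intro w₀
    refine (hder w₀ (chartAt C2 (φ x w₀)) (chart_mem_atlas C2 _)
      (mem_chart_source C2 _)).congr_of_eventuallyEq ?_
    filter_upwards [(hcont w₀).eventually ((chartAt C2 (φ x w₀)).open_source.mem_nhds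
      (mem_chart_source C2 _))] with s hs
    exact hindep s _ (chart_mem_atlas C2 _) _ (chart_mem_atlas C2 _) (mem_chart_source C2 _) hs
  have hconst : G w = G 0 :=
    is_const_of_deriv_eq_zero (fun w₀ => (hGd w₀).differentiableAt) (fun w₀ => (hGd w₀).deriv) w 0
  have hG0 : G 0 = vol.coef e y₀ := by
    have hz : φ x 0 = x := hφ.zero x hx
    have h1 : G 0 = J e 0 := hindep 0 _ (chart_mem_atlas C2 _) e he (mem_chart_source C2 _)
      (by rw [hz]; exact hxe)
    rw [h1]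
    simp only [hJ]
    rw [hz]
    have h2 : (fun z => e (φ (e.symm z) 0)) =ᶠ[𝓝 y₀] fun z => z := by
      have hline : ContinuousAt (fun z : C2 => ((z, (0 : ℂ)) : C2 × ℂ)) y₀ := by fun_prop
      filter_upwards [hline.eventually (hnear 0 e he (by rw [hz]; exact hxe))] with z hz
      rw [hφ.zero _ hz.1, e.right_inv hz.2.1]
    rw [h2.fderiv_eq, fderiv_fun_id]
    simp only [ContinuousLinearMap.det, ContinuousLinearMap.coe_id, LinearMap.det_id, mul_one]
    rfl
  have hGw : G w = J e' w := hindep w _ (chart_mem_atlas C2 _) e' he' (mem_chart_source C2 _) hxe'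
  rw [← hG0, ← hconst, hGw]

end

end Vale.Agent.P290.H867
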