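import Vale.Agent.P290.H867.Pres
import Vale.Agent.P268.Hol

/-! Fibre preserving diffeomorphisms: the Hamiltonian flow of a function `t ∘ π` at a complex time
which is a function on the base. -/

open Set Filter Metric
open scoped Manifold ContDiff Topology

namespace Vale.Agent.P290.H867

open Vale.Agent.P290

section

variable {X C : Type} [TopologicalSpace X] [ChartedSpace C2 X] [IsManifold 𝓘(ℂ, C2) 1 X]
  (vol : VolForm X) [TopologicalSpace C] [ChartedSpace ℂ C] [IsManifold 𝓘(ℂ) 1 C] {π : X → C}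

/-- the flow at the time `g (π x)` -/
def sh (π : X → C) (φ : X → ℂ → X) (g : C → ℂ) (x : X) : X := φ x (g (π x))

variable {t : OpenPartialHomeomorph C ℂ} {U₁ : Set X} {φ : X → ℂ → X}

omit [IsManifold 𝓘(ℂ, C2) 1 X] [IsManifold 𝓘(ℂ) 1 C] in
theorem sh_mem (hφ : GlobF (π ⁻¹' t.source) (ham vol π t) U₁ φ) {g : C → ℂ} {x : X}
    (hx : x ∈ U₁) : sh π φ g x ∈ U₁ := hφ.mem x hx _

theorem sh_pi (hπ : MDifferentiable 𝓘(ℂ, C2) 𝓘(ℂ) π) (ht : t ∈ atlas ℂ C)
    (hφ : GlobF (π ⁻¹' t.source) (ham vol π t) U₁ φ) {g : C → ℂ} {x : X}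
    (hx : x ∈ U₁) : π (sh π φ g x) = π x := hφ.pi_eq vol hπ ht hx _

theorem sh_sh (hπ : MDifferentiable 𝓘(ℂ, C2) 𝓘(ℂ) π) (ht : t ∈ atlas ℂ C)
    (hφ : GlobF (π ⁻¹' t.source) (ham vol π t) U₁ φ) {g g' : C → ℂ} {x : X}
    (hx : x ∈ U₁) : sh π φ g (sh π φ g' x) = φ x (g' (π x) + g (π x)) := by
  have h1 := sh_pi vol hπ ht hφ (g := g') hx
  simp only [sh] at h1 ⊢
  rw [h1, hφ.add x hx]

/-- joint holomorphy of the flow in charts -/
theorem flow_holo (hπ : MDifferentiable 𝓘(ℂ, C2) 𝓘(ℂ) π) (hU₁ : IsOpen U₁)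
    (hφ : GlobF (π ⁻¹' t.source) (ham vol π t) U₁ φ) {x : X} (hx : x ∈ U₁) (w₀ : ℂ)
    {e e' : OpenPartialHomeomorph X C2} (he : e ∈ atlas C2 X) (he' : e' ∈ atlas C2 X)
    (hxe : x ∈ e.source) (hxe' : φ x w₀ ∈ e'.source) :
    ∀ᶠ p : C2 × ℂ in 𝓝 (e x, w₀), e.symm p.1 ∈ U₁ ∧ p.1 ∈ e.target ∧
        φ (e.symm p.1) p.2 ∈ e'.source ∧
        DifferentiableAt ℂ (fun q : C2 × ℂ => e' (φ (e.symm q.1) q.2)) p := by
  set y₀ := e x with hy₀
  have hy : y₀ ∈ e.target := e.map_source hxe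
  have hsy : e.symm y₀ = x := e.left_inv hxe
  have hmd : ∀ p : C2 × ℂ, p.1 ∈ e.target → e.symm p.1 ∈ U₁ →
      MDifferentiableAt 𝓘(ℂ, C2 × ℂ) 𝓘(ℂ, C2) (fun q : C2 × ℂ => φ (e.symm q.1) q.2) p := by
    intro p hp hpU
    refine hφ.hol (C2 × ℂ) (fun q => e.symm q.1) (fun q => q.2) p ?_ differentiableAt_snd hpU
    have h1 := mdifferentiableAt_atlas_symm (I := 𝓘(ℂ, C2)) he hp
    have h2 : MDifferentiableAt 𝓘(ℂ, C2 × ℂ) 𝓘(ℂ, C2) (fun q : C2 × ℂ => q.1) p :=
      (differentiableAt_fst (𝕜 := ℂ)).mdifferentiableAt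
    exact h1.comp p h2
  have hev1 : ∀ᶠ p : C2 × ℂ in 𝓝 (y₀, w₀), p.1 ∈ e.target :=
    (continuous_fst.continuousAt (x := (y₀, w₀))).eventually (e.open_target.mem_nhds hy)
  have hev2 : ∀ᶠ p : C2 × ℂ in 𝓝 (y₀, w₀), e.symm p.1 ∈ U₁ := by
    have h1 : ContinuousAt (fun p : C2 × ℂ => e.symm p.1) (y₀, w₀) :=
      ContinuousAt.comp (f := fun p : C2 × ℂ => p.1) (g := e.symm)
        (e.continuousAt_symm hy) continuous_fst.continuousAt
    refine h1.eventually (hU₁.mem_nhds ?_)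
    simp only [hsy]
    exact hx
  have hev3 : ∀ᶠ p : C2 × ℂ in 𝓝 (y₀, w₀), φ (e.symm p.1) p.2 ∈ e'.source := by
    have h1 := (hmd (y₀, w₀) hy (by simp only [hsy]; exact hx)).continuousAt
    refine h1.eventually (e'.open_source.mem_nhds ?_)
    simp only [hsy]
    exact hxe'
  filter_upwards [hev1, hev2, hev3] with p h1 h2 h3
  refine ⟨h2, h1, h3, ?_⟩
  have h4 := mdifferentiableAt_atlas (I := 𝓘(ℂ, C2)) he' h3
  exact (h4.comp p (hmd p h1 h2)).differentiableAt

/-- if the time is a holomorphic function on the base then the shift is holomorphic -/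
theorem sh_mdiff (hπ : MDifferentiable 𝓘(ℂ, C2) 𝓘(ℂ) π)
    (hφ : GlobF (π ⁻¹' t.source) (ham vol π t) U₁ φ) {g : C → ℂ} {x : X} (hx : x ∈ U₁)
    (hg : MDifferentiableAt 𝓘(ℂ) 𝓘(ℂ) g (π x)) :
    MDifferentiableAt 𝓘(ℂ, C2) 𝓘(ℂ, C2) (sh π φ g) x := by
  -- work in a chart at `x`
  set e := chartAt C2 x with he
  have hea : e ∈ atlas C2 X := chart_mem_atlas C2 x
  have hxe : x ∈ e.source := mem_chart_source C2 x
  have hsy : e.symm (e x) = x := e.left_inv hxe
  have h1 : MDifferentiableAt 𝓘(ℂ, C2) 𝓘(ℂ, C2) e.symm (e x) :=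
    mdifferentiableAt_atlas_symm (I := 𝓘(ℂ, C2)) hea (e.map_source hxe)
  have h2 : MDifferentiableAt 𝓘(ℂ, C2) 𝓘(ℂ) (fun z : C2 => g (π (e.symm z))) (e x) := by
    have h3 : MDifferentiableAt 𝓘(ℂ, C2) 𝓘(ℂ) π (e.symm (e x)) := hπ _
    have h4 : MDifferentiableAt 𝓘(ℂ) 𝓘(ℂ) g (π (e.symm (e x))) := by rw [hsy]; exact hg
    exact MDifferentiableAt.comp (g := g) (f := fun z : C2 => π (e.symm z)) (e x) h4
      (h3.comp (e x) h1)
  have h3 := hφ.hol C2 e.symm (fun z => g (π (e.symm z))) (e x) h1 h2.differentiableAt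
    (by rw [hsy]; exact hx)
  have h4 : MDifferentiableAt 𝓘(ℂ, C2) 𝓘(ℂ, C2) e x := mdifferentiableAt_atlas hea hxe
  have h5 := h3.comp x h4
  refine h5.congr_of_eventuallyEq ?_
  filter_upwards [e.open_source.mem_nhds hxe] with z hz
  simp only [Function.comp_apply, sh, e.left_inv hz]

/-- the shift is a real smooth map if the time is -/
theorem sh_contDiffAt (hπ : MDifferentiable 𝓘(ℂ, C2) 𝓘(ℂ) π) (hU₁ : IsOpen U₁)
    (ht : t ∈ atlas ℂ C)
    (hφ : GlobF (π ⁻¹' t.source) (ham vol π t) U₁ φ) {x : X} (hx : x ∈ U₁) {g : C → ℂ}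
    (hg : ContDiffAt ℝ ∞ (fun s => g (t.symm s)) (t (π x)))
    {e e' : OpenPartialHomeomorph X C2} (he : e ∈ atlas C2 X) (he' : e' ∈ atlas C2 X)
    (hxe : x ∈ e.source) (hxe' : sh π φ g x ∈ e'.source) :
    ContDiffAt ℝ ∞ (fun z => e' (sh π φ g (e.symm z))) (e x) := by
  have hsy : e.symm (e x) = x := e.left_inv hxe
  have hy : e x ∈ e.target := e.map_source hxe
  have hxt : π x ∈ t.source := by
    have := (hφ.ic x hx 0).2.1
    rw [hφ.zero x hx] at this
    exact this
  have hn := flow_holo vol hπ hU₁ hφ hx (g (π x)) he he' hxe hxe'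
  obtain ⟨W, hWs, hWo, hW⟩ := _root_.eventually_nhds_iff.1 hn
  have han : AnalyticAt ℂ (fun q : C2 × ℂ => e' (φ (e.symm q.1) q.2)) (e x, g (π x)) :=
    Vale.Agent.P268.analyticAt_of_differentiableOn hWo
      (fun q hq => (hWs q hq).2.2.2.differentiableWithinAt) hW
  have hF : ContDiffAt ℝ ∞ (fun q : C2 × ℂ => e' (φ (e.symm q.1) q.2)) (e x, g (π x)) :=
    ((han.contDiffAt (n := ω)).of_le le_top).restrict_scalars ℝ
  -- the time
  have hpi : ContDiffAt ℝ ∞ (hloc π t e) (e x) := by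
    have hO : IsOpen (e.target ∩ e.symm ⁻¹' (π ⁻¹' t.source)) :=
      e.isOpen_inter_preimage_symm (t.open_source.preimage hπ.continuous)
    have hyO : e x ∈ e.target ∩ e.symm ⁻¹' (π ⁻¹' t.source) := ⟨hy, by
      rw [mem_preimage, hsy]; exact hxt⟩
    have h1 : DifferentiableOn ℂ (hloc π t e) (e.target ∩ e.symm ⁻¹' (π ⁻¹' t.source)) :=
      fun z hz => (hloc_diff hπ ht he hz.1 hz.2).differentiableWithinAt
    have h2 : AnalyticAt ℂ (hloc π t e) (e x) :=
      Vale.Agent.P268.analyticAt_of_differentiableOn hO h1 hyO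
    exact ((h2.contDiffAt (n := ω)).of_le le_top).restrict_scalars ℝ
  have hhx : hloc π t e (e x) = t (π x) := by simp only [hloc, hsy]
  have hG : ContDiffAt ℝ ∞ (fun z => g (π (e.symm z))) (e x) := by
    have h1 : ContDiffAt ℝ ∞ (fun z => g (t.symm (hloc π t e z))) (e x) := by
      refine ContDiffAt.comp (g := fun s => g (t.symm s)) (f := hloc π t e) (e x) ?_ hpi
      rw [hhx]; exact hg
    refine h1.congr_of_eventuallyEq ?_
    have h2 : ContinuousAt (fun z => π (e.symm z)) (e x) :=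
      ContinuousAt.comp (f := e.symm) (g := π) hπ.continuous.continuousAt
        (e.continuousAt_symm hy)
    have h3 : (fun z => π (e.symm z)) (e x) ∈ t.source := by
      show π (e.symm (e x)) ∈ t.source
      rw [hsy]; exact hxt
    filter_upwards [h2.eventually (t.open_source.mem_nhds h3)] with z hz
    simp only [hloc, t.left_inv hz]
  have hGx : g (π (e.symm (e x))) = g (π x) := by rw [hsy]
  refine ContDiffAt.comp (g := fun q : C2 × ℂ => e' (φ (e.symm q.1) q.2))
    (f := fun z => (z, g (π (e.symm z)))) (e x) ?_ (contDiffAt_id.prodMk hG)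
  rw [hGx]
  exact hF

/-- the real derivative of the shift -/
theorem sh_hasFDerivAt (hπ : MDifferentiable 𝓘(ℂ, C2) 𝓘(ℂ) π) (hU₁ : IsOpen U₁)
    (hφ : GlobF (π ⁻¹' t.source) (ham vol π t) U₁ φ) {x : X} (hx : x ∈ U₁) {g : C → ℂ}
    {e e' : OpenPartialHomeomorph X C2} (he : e ∈ atlas C2 X) (he' : e' ∈ atlas C2 X)
    (hxe : x ∈ e.source) (hxe' : sh π φ g x ∈ e'.source) {G' : C2 →L[ℝ] ℂ}
    (hg : HasFDerivAt (fun z => g (π (e.symm z))) G' (e x)) :
    HasFDerivAt (fun z => e' (sh π φ g (e.symm z)))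
      ((fderiv ℂ (fun z => e' (φ (e.symm z) (g (π x)))) (e x)).restrictScalars ℝ +
        G'.smulRight (ham vol π t e' (e' (sh π φ g x)))) (e x) := by
  have hsy : e.symm (e x) = x := e.left_inv hxe
  have hn := flow_holo vol hπ hU₁ hφ hx (g (π x)) he he' hxe hxe'
  set F : C2 × ℂ → C2 := fun q => e' (φ (e.symm q.1) q.2) with hF
  set w₀ := g (π x) with hw₀
  have hF0 : HasFDerivAt F (fderiv ℂ F (e x, w₀)) (e x, w₀) := hn.self_of_nhds.2.2.2.hasFDerivAt
  have hFR : HasFDerivAt F ((fderiv ℂ F (e x, w₀)).restrictScalars ℝ) (e x, w₀) :=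
    hF0.restrictScalars ℝ
  have hpair : HasFDerivAt (fun z => (z, g (π (e.symm z))))
      ((ContinuousLinearMap.id ℝ C2).prod G') (e x) := (hasFDerivAt_id (e x)).prodMk hg
  have hFR' : HasFDerivAt F ((fderiv ℂ F (e x, w₀)).restrictScalars ℝ)
      (e x, g (π (e.symm (e x)))) := by rw [hsy]; exact hFR
  have hc := hFR'.comp (e x) hpair
  have hpart : fderiv ℂ (fun z => e' (φ (e.symm z) w₀)) (e x) =
      (fderiv ℂ F (e x, w₀)).comp ((ContinuousLinearMap.id ℂ C2).prod 0) := by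
    have h1 : HasFDerivAt (fun z : C2 => ((z, w₀) : C2 × ℂ))
        ((ContinuousLinearMap.id ℂ C2).prod 0) (e x) :=
      (hasFDerivAt_id (e x)).prodMk (hasFDerivAt_const w₀ (e x))
    exact (hF0.comp (e x) h1).fderiv
  have htime : fderiv ℂ F (e x, w₀) (0, 1) = ham vol π t e' (e' (sh π φ g x)) := by
    have h5 : HasDerivAt (fun w : ℂ => ((e x, w) : C2 × ℂ)) ((0 : C2), (1 : ℂ)) w₀ :=
      (hasDerivAt_const w₀ (e x)).prodMk (hasDerivAt_id w₀)
    have h6 := hF0.comp_hasDerivAt w₀ h5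
    have h7 := (hφ.ic x hx w₀).2.2 e' he' hxe'
    have h8 : (F ∘ fun w : ℂ => ((e x, w) : C2 × ℂ)) = fun w => e' (φ x w) := by
      funext w
      simp only [hF, Function.comp_apply, hsy]
    rw [h8] at h6
    exact h6.unique h7
  refine hc.congr_fderiv (ContinuousLinearMap.ext fun u => ?_)
  rw [hpart]
  simp only [ContinuousLinearMap.comp_apply, ContinuousLinearMap.coe_restrictScalars',
    _root_.add_apply, ContinuousLinearMap.smulRight_apply, ContinuousLinearMap.prod_apply,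
    ContinuousLinearMap.id_apply, _root_.zero_apply]
  have h9 : ((u, G' u) : C2 × ℂ) = (u, 0) + G' u • ((0 : C2), (1 : ℂ)) := by
    refine Prod.ext ?_ ?_
    · simp
    · simp
  rw [h9, map_add, map_smul, htime]

/-- the map `φ · w` composed with `t ∘ π` -/
theorem dh_flow (hπ : MDifferentiable 𝓘(ℂ, C2) 𝓘(ℂ) π) (ht : t ∈ atlas ℂ C) (hU₁ : IsOpen U₁)
    (hφ : GlobF (π ⁻¹' t.source) (ham vol π t) U₁ φ) {x : X} (hx : x ∈ U₁) (w₀ : ℂ)
    {e e' : OpenPartialHomeomorph X C2} (he : e ∈ atlas C2 X) (he' : e' ∈ atlas C2 X)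
    (hxe : x ∈ e.source) (hxe' : φ x w₀ ∈ e'.source) (u : C2) :
    fderiv ℂ (hloc π t e') (e' (φ x w₀)) (fderiv ℂ (fun z => e' (φ (e.symm z) w₀)) (e x) u) =
      fderiv ℂ (hloc π t e) (e x) u := by
  have hsy : e.symm (e x) = x := e.left_inv hxe
  have hn := flow_holo vol hπ hU₁ hφ hx w₀ he he' hxe hxe'
  have hline : ContinuousAt (fun z : C2 => ((z, w₀) : C2 × ℂ)) (e x) := by fun_prop
  have hd : DifferentiableAt ℂ (fun z => e' (φ (e.symm z) w₀)) (e x) :=
    DifferentiableAt.comp (f := fun z : C2 => ((z, w₀) : C2 × ℂ)) (e x)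
      hn.self_of_nhds.2.2.2 (differentiableAt_id.prodMk (differentiableAt_const w₀))
  have hxt : π (φ x w₀) ∈ t.source := (hφ.ic x hx w₀).2.1
  have hh : DifferentiableAt ℂ (hloc π t e') (e' (φ (e.symm (e x)) w₀)) := by
    rw [hsy]
    exact hloc_diff hπ ht he' (e'.map_source hxe') (by rw [e'.left_inv hxe']; exact hxt)
  have h1 : (hloc π t e') ∘ (fun z => e' (φ (e.symm z) w₀)) =ᶠ[𝓝 (e x)] hloc π t e := by
    filter_upwards [hline.eventually hn] with z hz
    simp only [hloc, Function.comp_apply]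
    rw [e'.left_inv hz.2.2.1, hφ.pi_eq vol hπ ht hz.1]
  have h2 := fderiv_comp (e x) hh hd
  rw [h1.fderiv_eq, hsy] at h2
  rw [h2]
  rfl

/-- **pull-back of the symplectic form under the shift**: `Φ^* Ω = Ω + dg ∧ dt` -/
theorem sh_area (hπ : MDifferentiable 𝓘(ℂ, C2) 𝓘(ℂ) π) (ht : t ∈ atlas ℂ C) (hU₁ : IsOpen U₁)
    (hφ : GlobF (π ⁻¹' t.source) (ham vol π t) U₁ φ) {x : X} (hx : x ∈ U₁) {g : C → ℂ}
    {e e' : OpenPartialHomeomorph X C2} (he : e ∈ atlas C2 X) (he' : e' ∈ atlas C2 X)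
    (hxe : x ∈ e.source) (hxe' : sh π φ g x ∈ e'.source) (a b : ℂ) (u v : C2) :
    vol.coef e' (e' (sh π φ g x)) *
      area (fderiv ℂ (fun z => e' (φ (e.symm z) (g (π x)))) (e x) u +
          a • ham vol π t e' (e' (sh π φ g x)))
        (fderiv ℂ (fun z => e' (φ (e.symm z) (g (π x)))) (e x) v +
          b • ham vol π t e' (e' (sh π φ g x))) =
      vol.coef e (e x) * area u v + (a * fderiv ℂ (hloc π t e) (e x) v -
        b * fderiv ℂ (hloc π t e) (e x) u) := by
  set A := fderiv ℂ (fun z => e' (φ (e.symm z) (g (π x)))) (e x) with hA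
  set V := ham vol π t e' (e' (sh π φ g x)) with hV
  have hvp : vol.coef e (e x) = vol.coef e' (e' (sh π φ g x)) * A.det :=
    GlobF.vol_pres vol hπ ht hU₁ hφ hx (g (π x)) he he' hxe hxe'
  have hne := vol.ne_zero e' he' _ (e'.map_source hxe')
  have h1 : ∀ u : C2, vol.coef e' (e' (sh π φ g x)) * area V (A u) =
      fderiv ℂ (hloc π t e) (e x) u := by
    intro u
    rw [hV, ham_spec vol hne]
    exact dh_flow vol hπ ht hU₁ hφ hx (g (π x)) he he' hxe hxe' u
  rw [hvp, area_add_left, area_add_right, area_add_right, area_map, area_smul_left,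
    area_smul_right, area_smul_right, area_smul_left, area_self, area_swap (A u) V]
  have h2 := h1 u
  have h3 := h1 v
  linear_combination b * (-h2) + a * h3

/-- a holomorphic shift preserves the volume form -/
theorem sh_vol (hπ : MDifferentiable 𝓘(ℂ, C2) 𝓘(ℂ) π) (ht : t ∈ atlas ℂ C) (hU₁ : IsOpen U₁)
    (hφ : GlobF (π ⁻¹' t.source) (ham vol π t) U₁ φ) {x : X} (hx : x ∈ U₁) {g : C → ℂ}
    (hg : MDifferentiableAt 𝓘(ℂ) 𝓘(ℂ) g (π x))
    {e e' : OpenPartialHomeomorph X C2} (he : e ∈ atlas C2 X) (he' : e' ∈ atlas C2 X)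
    (hxe : x ∈ e.source) (hxe' : sh π φ g x ∈ e'.source) :
    vol.coef e (e x) = vol.coef e' (e' (sh π φ g x)) *
      (fderiv ℂ (fun z => e' (sh π φ g (e.symm z))) (e x)).det := by
  have hsy : e.symm (e x) = x := e.left_inv hxe
  have hy : e x ∈ e.target := e.map_source hxe
  have hxt : π x ∈ t.source := by
    have := (hφ.ic x hx 0).2.1
    rw [hφ.zero x hx] at this
    exact this
  -- the derivative of the time
  have hd : DifferentiableAt ℂ (fun s => g (t.symm s)) (t (π x)) := by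
    have h1 := mdifferentiableAt_atlas_symm (I := 𝓘(ℂ)) ht (t.map_source hxt)
    have h2 : MDifferentiableAt 𝓘(ℂ) 𝓘(ℂ) g (t.symm (t (π x))) := by
      rw [t.left_inv hxt]; exact hg
    exact (h2.comp _ h1).differentiableAt
  set g' := deriv (fun s => g (t.symm s)) (t (π x)) with hg'
  have hh := hloc_diff hπ ht he hy (by rw [hsy]; exact hxt)
  set L := fderiv ℂ (hloc π t e) (e x) with hL
  have hG : HasFDerivAt (fun z => g (π (e.symm z))) (g' • L) (e x) := by
    have h0 : hloc π t e (e x) = t (π x) := by simp only [hloc, hsy]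
    have h1 : HasDerivAt (fun s => g (t.symm s)) g' (hloc π t e (e x)) := by
      rw [h0]; exact hd.hasDerivAt
    have h2 := h1.comp_hasFDerivAt (e x) hh.hasFDerivAt
    refine h2.congr_of_eventuallyEq ?_
    have h3 : ContinuousAt (fun z => π (e.symm z)) (e x) :=
      ContinuousAt.comp (f := e.symm) (g := π) hπ.continuous.continuousAt
        (e.continuousAt_symm hy)
    have h4 : (fun z => π (e.symm z)) (e x) ∈ t.source := by
      show π (e.symm (e x)) ∈ t.source
      rw [hsy]; exact hxt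
    filter_upwards [h3.eventually (t.open_source.mem_nhds h4)] with z hz
    simp only [hloc, Function.comp_apply, t.left_inv hz]
  -- the complex derivative of the shift
  have hR := sh_hasFDerivAt vol hπ hU₁ hφ hx he he' hxe hxe' (hG.restrictScalars ℝ)
  have hC : MDifferentiableAt 𝓘(ℂ, C2) 𝓘(ℂ, C2) (sh π φ g) x := sh_mdiff vol hπ hφ hx hg
  have hCd : DifferentiableAt ℂ (fun z => e' (sh π φ g (e.symm z))) (e x) := by
    have h1 := mdifferentiableAt_atlas_symm (I := 𝓘(ℂ, C2)) he hy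
    have h2 := mdifferentiableAt_atlas (I := 𝓘(ℂ, C2)) he' hxe'
    have hC' : MDifferentiableAt 𝓘(ℂ, C2) 𝓘(ℂ, C2) (sh π φ g) (e.symm (e x)) := by
      rw [hsy]; exact hC
    have h2' : MDifferentiableAt 𝓘(ℂ, C2) 𝓘(ℂ, C2) e' (sh π φ g (e.symm (e x))) := by
      rw [hsy]; exact h2
    exact (h2'.comp (e x) (hC'.comp (e x) h1)).differentiableAt
  set R := fderiv ℂ (fun z => e' (sh π φ g (e.symm z))) (e x) with hRdef
  have hRu : ∀ u : C2, R u = fderiv ℂ (fun z => e' (φ (e.symm z) (g (π x)))) (e x) u +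
      (g' * L u) • ham vol π t e' (e' (sh π φ g x)) := by
    intro u
    have h1 := (hCd.hasFDerivAt.restrictScalars ℝ).unique hR
    have h2 := congrArg (fun B : C2 →L[ℝ] C2 => B u) h1
    simpa using h2
  have h2 : area E1 E2 = 1 := by simp [area, E1, E2]
  have h3 := area_map R E1 E2
  rw [h2, mul_one, hRu, hRu] at h3
  rw [← h3, sh_area vol hπ ht hU₁ hφ hx he he' hxe hxe', h2, ← hL]
  ring

/-- continuity of the shift -/
theorem sh_continuousAt (hπ : MDifferentiable 𝓘(ℂ, C2) 𝓘(ℂ) π)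
    (hφ : GlobF (π ⁻¹' t.source) (ham vol π t) U₁ φ) {x : X} (hx : x ∈ U₁) {g : C → ℂ}
    (hg : ContinuousAt g (π x)) : ContinuousAt (sh π φ g) x := by
  set e := chartAt C2 x with he
  have hea : e ∈ atlas C2 X := chart_mem_atlas C2 x
  have hxe : x ∈ e.source := mem_chart_source C2 x
  have hsy : e.symm (e x) = x := e.left_inv hxe
  have h1 : MDifferentiableAt 𝓘(ℂ, C2 × ℂ) 𝓘(ℂ, C2) (fun q : C2 × ℂ => φ (e.symm q.1) q.2)
      (e x, g (π x)) := by
    refine hφ.hol (C2 × ℂ) (fun q => e.symm q.1) (fun q => q.2) _ ?_ differentiableAt_snd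
      (by simp only [hsy]; exact hx)
    have h1 := mdifferentiableAt_atlas_symm (I := 𝓘(ℂ, C2)) hea (e.map_source hxe)
    have h2 : MDifferentiableAt 𝓘(ℂ, C2 × ℂ) 𝓘(ℂ, C2) (fun q : C2 × ℂ => q.1)
        (e x, g (π x)) := (differentiableAt_fst (𝕜 := ℂ)).mdifferentiableAt
    exact MDifferentiableAt.comp (g := e.symm) (f := fun q : C2 × ℂ => q.1) (e x, g (π x)) h1 h2
  have h2 : ContinuousAt (fun x' => (e x', g (π x'))) x :=
    (e.continuousAt hxe).prodMk
      (ContinuousAt.comp (f := π) (g := g) hg hπ.continuous.continuousAt)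
  have h3 := ContinuousAt.comp (f := fun x' => (e x', g (π x')))
    (g := fun q : C2 × ℂ => φ (e.symm q.1) q.2) h1.continuousAt h2
  refine h3.congr ?_
  filter_upwards [e.open_source.mem_nhds hxe] with z hz
  simp only [Function.comp_apply, sh, e.left_inv hz]

/-- the real derivative of a function pulled back from the base -/
theorem hasFDerivAt_gpi (hπ : MDifferentiable 𝓘(ℂ, C2) 𝓘(ℂ) π) (ht : t ∈ atlas ℂ C) {x : X}
    (hxt : π x ∈ t.source) {g : C → ℂ} {g' : ℂ →L[ℝ] ℂ}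
    (hg : HasFDerivAt (fun s => g (t.symm s)) g' (t (π x)))
    {e : OpenPartialHomeomorph X C2} (he : e ∈ atlas C2 X) (hxe : x ∈ e.source) :
    HasFDerivAt (fun z => g (π (e.symm z)))
      (g'.comp ((fderiv ℂ (hloc π t e) (e x)).restrictScalars ℝ)) (e x) := by
  have hsy : e.symm (e x) = x := e.left_inv hxe
  have hy : e x ∈ e.target := e.map_source hxe
  have hh := hloc_diff hπ ht he hy (by rw [hsy]; exact hxt)
  have h0 : hloc π t e (e x) = t (π x) := by simp only [hloc, hsy]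
  have h1 : HasFDerivAt (fun s => g (t.symm s)) g' (hloc π t e (e x)) := by
    rw [h0]; exact hg
  have h2 := h1.comp (e x) (hh.hasFDerivAt.restrictScalars ℝ)
  refine h2.congr_of_eventuallyEq ?_
  have h3 : ContinuousAt (fun z => π (e.symm z)) (e x) :=
    ContinuousAt.comp (f := e.symm) (g := π) hπ.continuous.continuousAt
      (e.continuousAt_symm hy)
  have h4 : (fun z => π (e.symm z)) (e x) ∈ t.source := by
    show π (e.symm (e x)) ∈ t.source
    rw [hsy]; exact hxt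
  filter_upwards [h3.eventually (t.open_source.mem_nhds h4)] with z hz
  simp only [hloc, Function.comp_apply, t.left_inv hz]

/-- real derivative of the shift has positive determinant -/
theorem det_pos_of_nilp (A : C2 →L[ℂ] C2) (hA : A.det ≠ 0) (G' : C2 →L[ℝ] ℂ) (V : C2)
    (hV : ∀ c : ℂ, ∀ W : C2, A W = V → G' (c • W) = 0) :
    0 < (A.restrictScalars ℝ + G'.smulRight V).det := by
  set L : ℝ → C2 →L[ℝ] C2 := fun s => A.restrictScalars ℝ + s • G'.smulRight V with hL
  have hinj : ∀ u : C2, A u = 0 → u = 0 := by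
    intro u hu
    have h1 : Function.Injective A := by
      have h2 : LinearMap.ker (A : C2 →ₗ[ℂ] C2) = ⊥ := by
        have h3 : IsUnit (LinearMap.det (A : C2 →ₗ[ℂ] C2)) := isUnit_iff_ne_zero.2 hA
        exact LinearMap.ker_eq_bot.2 (LinearEquiv.ofIsUnitDet (v := Module.finBasis ℂ C2)
          (v' := Module.finBasis ℂ C2) (by rwa [LinearMap.det_toMatrix])).injective
      exact LinearMap.ker_eq_bot.1 h2
    exact h1 (by rw [hu, map_zero])
  obtain ⟨W, hW⟩ := surj_of_det_ne_zero hA V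
  have hne : ∀ s, (L s).det ≠ 0 := by
    intro s h0
    have h1 : ∃ u : C2, u ≠ 0 ∧ (L s : C2 →ₗ[ℝ] C2) u = 0 := by
      have hker := LinearMap.bot_lt_ker_of_det_eq_zero (f := (L s : C2 →ₗ[ℝ] C2)) h0
      obtain ⟨u, hu, hu0⟩ := (Submodule.ne_bot_iff _).1 hker.ne'
      exact ⟨u, hu0, hu⟩
    obtain ⟨u, hu0, hu⟩ := h1
    have h2 : A u + s • (G' u • V) = 0 := by
      have : (L s) u = 0 := hu
      simpa [hL] using this
    have h3 : A (u + ((s : ℂ) * G' u) • W) = 0 := by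
      rw [map_add, map_smul, hW, ← h2]
      congr 1
      rw [← smul_smul]
      rfl
    have h4 := hinj _ h3
    have h5 : u = (-((s : ℂ) * G' u)) • W := by
      rw [neg_smul]
      exact eq_neg_of_add_eq_zero_left h4
    have h6 : G' u = 0 := by
      rw [h5]
      exact hV _ W hW
    apply hu0
    rw [h5, h6, mul_zero, neg_zero, zero_smul]
  have hcont : Continuous fun s => (L s).det := by
    refine ContinuousLinearMap.continuous_det.comp ?_
    exact continuous_const.add (continuous_id.smul continuous_const)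
  have h0 : 0 < (L 0).det := by
    have e0 : L 0 = A.restrictScalars ℝ := ContinuousLinearMap.ext fun u => by simp [hL]
    have h1 : (L 0).det = Algebra.norm ℝ (LinearMap.det (A : C2 →ₗ[ℂ] C2)) := by
      rw [← LinearMap.det_restrictScalars, e0]
      rfl
    rw [h1, Algebra.norm_complex_apply]
    exact Complex.normSq_pos.2 hA
  have h1 : (L 1).det = (A.restrictScalars ℝ + G'.smulRight V).det := by
    simp only [hL, one_smul]
  rw [← h1]
  by_contra hneg
  push Not at hneg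
  obtain ⟨s, -, hs⟩ := intermediate_value_Icc' (zero_le_one' ℝ) hcont.continuousOn
    (⟨hneg, h0.le⟩ : (0 : ℝ) ∈ Icc ((L 1).det) ((L 0).det))
  exact hne s hs

/-- the shift is orientation preserving -/
theorem sh_jac (hπ : MDifferentiable 𝓘(ℂ, C2) 𝓘(ℂ) π) (ht : t ∈ atlas ℂ C) (hU₁ : IsOpen U₁)
    (hφ : GlobF (π ⁻¹' t.source) (ham vol π t) U₁ φ) {x : X} (hx : x ∈ U₁) {g : C → ℂ}
    {g' : ℂ →L[ℝ] ℂ} (hg : HasFDerivAt (fun s => g (t.symm s)) g' (t (π x)))
    {e e' : OpenPartialHomeomorph X C2} (he : e ∈ atlas C2 X) (he' : e' ∈ atlas C2 X)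
    (hxe : x ∈ e.source) (hxe' : sh π φ g x ∈ e'.source) :
    0 < (fderiv ℝ (fun z => e' (sh π φ g (e.symm z))) (e x)).det := by
  have hxt : π x ∈ t.source := by
    have := (hφ.ic x hx 0).2.1
    rw [hφ.zero x hx] at this
    exact this
  have hG := hasFDerivAt_gpi hπ ht hxt hg he hxe
  have hR := sh_hasFDerivAt vol hπ hU₁ hφ hx he he' hxe hxe' hG
  rw [hR.fderiv]
  have hne := vol.ne_zero e' he' _ (e'.map_source hxe')
  have hvp : vol.coef e (e x) = vol.coef e' (e' (sh π φ g x)) *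
      (fderiv ℂ (fun z => e' (φ (e.symm z) (g (π x)))) (e x)).det :=
    GlobF.vol_pres vol hπ ht hU₁ hφ hx (g (π x)) he he' hxe hxe'
  refine det_pos_of_nilp _ ?_ _ _ ?_
  · intro h0
    rw [h0, mul_zero] at hvp
    exact vol.ne_zero e he _ (e.map_source hxe) hvp
  · intro c W hW
    have h1 := dh_flow vol hπ ht hU₁ hφ hx (g (π x)) he he' hxe hxe' W
    have h2 : fderiv ℂ (hloc π t e') (e' (φ x (g (π x))))
        (ham vol π t e' (e' (sh π φ g x))) = 0 := by
      have h3 := ham_spec vol (π := π) (t := t) hne (ham vol π t e' (e' (sh π φ g x)))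
      rw [area_self, mul_zero] at h3
      exact h3.symm
    rw [hW, h2] at h1
    simp only [ContinuousLinearMap.comp_apply, ContinuousLinearMap.coe_restrictScalars',
      map_smul, ← h1, smul_zero, map_zero]

/-- transition maps of the atlas are real smooth -/
theorem trans_contDiffAt {e e' : OpenPartialHomeomorph X C2} (he : e ∈ atlas C2 X)
    (he' : e' ∈ atlas C2 X) {x : X} (hxe : x ∈ e.source) (hxe' : x ∈ e'.source) :
    ContDiffAt ℝ ∞ (fun z => e' (e.symm z)) (e x) := by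
  have hO : IsOpen (e.target ∩ e.symm ⁻¹' e'.source) := e.isOpen_inter_preimage_symm e'.open_source
  have hd : DifferentiableOn ℂ (fun z => e' (e.symm z)) (e.target ∩ e.symm ⁻¹' e'.source) :=
    fun z hz => (differentiableAt_transition he he' hz.1 hz.2).differentiableWithinAt
  have h1 : AnalyticAt ℂ (fun z => e' (e.symm z)) (e x) :=
    Vale.Agent.P268.analyticAt_of_differentiableOn hO hd
      ⟨e.map_source hxe, by rw [mem_preimage, e.left_inv hxe]; exact hxe'⟩
  exact ((h1.contDiffAt (n := ω)).of_le le_top).restrict_scalars ℝ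

include vol in
/-- transition maps of the atlas preserve the orientation -/
theorem trans_jac {e e' : OpenPartialHomeomorph X C2} (he : e ∈ atlas C2 X)
    (he' : e' ∈ atlas C2 X) {x : X} (hxe : x ∈ e.source) (hxe' : x ∈ e'.source) :
    0 < (fderiv ℝ (fun z => e' (e.symm z)) (e x)).det := by
  have hy : e x ∈ e.target := e.map_source hxe
  have hsy : e.symm (e x) = x := e.left_inv hxe
  have hd := differentiableAt_transition he he' hy (by rw [hsy]; exact hxe')
  have h1 : fderiv ℝ (fun z => e' (e.symm z)) (e x) =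
      (fderiv ℂ (fun z => e' (e.symm z)) (e x)).restrictScalars ℝ +
        (0 : C2 →L[ℝ] ℂ).smulRight (0 : C2) := by
    rw [(hd.hasFDerivAt.restrictScalars ℝ).fderiv]
    refine ContinuousLinearMap.ext fun u => ?_
    simp
  rw [h1]
  refine det_pos_of_nilp _ ?_ _ _ ?_
  · intro h0
    have h2 := vol.compat e he e' he' (e x) hy (by rw [hsy]; exact hxe')
    rw [h0, mul_zero] at h2
    exact vol.ne_zero e he _ hy h2
  · intro c W _
    simp

end

end Vale.Agent.P290.H867
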