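import Vale.Agent.P290.H867.Shift

/-! Twisted complex structures on the same topological space. -/

open Set Filter Metric
open scoped Manifold ContDiff Topology

namespace Vale.Agent.P290.H867

open Vale.Agent.P290

/-- twisting data: over the open sets `O a` of the base the homeomorphism `Ψ a` of `π ⁻¹ (O a)`
(inverse `Ψ' a`) is the new chart; the transition maps `Ψ b ∘ Ψ' a` are holomorphic and preserve the
volume form. -/
structure TwData {X C : Type} [TopologicalSpace X] [ChartedSpace C2 X]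
    [TopologicalSpace C] (vol : VolForm X) (π : X → C) where
  A : Type
  O : A → Set C
  Ψ : A → X → X
  Ψ' : A → X → X
  isOpen : ∀ a, IsOpen (O a)
  cover : ∀ p, ∃ a, p ∈ O a
  base : ∀ a x, π x ∈ O a → π (Ψ a x) = π x
  base' : ∀ a x, π x ∈ O a → π (Ψ' a x) = π x
  left_inv : ∀ a x, π x ∈ O a → Ψ' a (Ψ a x) = x
  right_inv : ∀ a x, π x ∈ O a → Ψ a (Ψ' a x) = x
  cont : ∀ a x, π x ∈ O a → ContinuousAt (Ψ a) x
  cont' : ∀ a x, π x ∈ O a → ContinuousAt (Ψ' a) x
  hol : ∀ a b x, π x ∈ O a → π x ∈ O b →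
    MDifferentiableAt 𝓘(ℂ, C2) 𝓘(ℂ, C2) (fun x => Ψ b (Ψ' a x)) x
  vol_pres : ∀ a b x, π x ∈ O a → π x ∈ O b → ∀ e ∈ atlas C2 X, ∀ e' ∈ atlas C2 X,
    x ∈ e.source → Ψ b (Ψ' a x) ∈ e'.source →
    vol.coef e (e x) = vol.coef e' (e' (Ψ b (Ψ' a x))) *
      (fderiv ℂ (fun z => e' (Ψ b (Ψ' a (e.symm z)))) (e x)).det
  smooth : ∀ a x, π x ∈ O a → ∀ e ∈ atlas C2 X, ∀ e' ∈ atlas C2 X, x ∈ e.source →
    Ψ a x ∈ e'.source → ContDiffAt ℝ ∞ (fun z => e' (Ψ a (e.symm z))) (e x)
  smooth' : ∀ a x, π x ∈ O a → ∀ e ∈ atlas C2 X, ∀ e' ∈ atlas C2 X, x ∈ e.source →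
    Ψ' a x ∈ e'.source → ContDiffAt ℝ ∞ (fun z => e' (Ψ' a (e.symm z))) (e x)
  jac : ∀ a x, π x ∈ O a → ∀ e ∈ atlas C2 X, ∀ e' ∈ atlas C2 X, x ∈ e.source →
    Ψ a x ∈ e'.source → 0 < (fderiv ℝ (fun z => e' (Ψ a (e.symm z))) (e x)).det

namespace TwData

variable {X C : Type} [TopologicalSpace X] [ChartedSpace C2 X] [TopologicalSpace C]
  {vol : VolForm X} {π : X → C} (D : TwData vol π)

/-- the twisted surface: the same topological space -/
def Tw (_D : TwData vol π) : Type := X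

instance : TopologicalSpace D.Tw := inferInstanceAs (TopologicalSpace X)

/-- the identity map -/
def toTw : X → D.Tw := fun x => x

/-- the identity map -/
def ofTw : D.Tw → X := fun x => x

/-- the identity as a homeomorphism -/
def homeo : X ≃ₜ D.Tw where
  toFun := D.toTw
  invFun := D.ofTw
  left_inv _ := rfl
  right_inv _ := rfl
  continuous_toFun := continuous_id
  continuous_invFun := continuous_id

noncomputable def idx (p : C) : D.A := (D.cover p).choose

theorem idx_mem (p : C) : p ∈ D.O (D.idx p) := (D.cover p).choose_spec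

/-- the new chart `Ψ a` as a partial homeomorphism -/
def hom (hπ : Continuous π) (a : D.A) : OpenPartialHomeomorph D.Tw X where
  toFun := fun x => D.Ψ a x
  invFun := fun x => D.Ψ' a x
  source := π ⁻¹' D.O a
  target := π ⁻¹' D.O a
  map_source' := fun x hx => by rw [mem_preimage, D.base a x hx]; exact hx
  map_target' := fun x hx => by
    show π (D.Ψ' a x) ∈ D.O a
    rw [D.base' a x hx]; exact hx
  left_inv' := fun x hx => D.left_inv a x hx
  right_inv' := fun x hx => D.right_inv a x hx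
  open_source := (D.isOpen a).preimage hπ
  open_target := (D.isOpen a).preimage hπ
  continuousOn_toFun := fun x hx => (D.cont a x hx).continuousWithinAt
  continuousOn_invFun := fun x hx => (D.cont' a x hx).continuousWithinAt

@[simp] theorem hom_apply (hπ : Continuous π) (a : D.A) (x : D.Tw) : D.hom hπ a x = D.Ψ a x := rfl

@[simp] theorem hom_symm_apply (hπ : Continuous π) (a : D.A) (x : X) :
    (D.hom hπ a).symm x = D.Ψ' a x := rfl

@[simp] theorem hom_source (hπ : Continuous π) (a : D.A) : (D.hom hπ a).source = π ⁻¹' D.O a := rfl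

@[simp] theorem hom_target (hπ : Continuous π) (a : D.A) : (D.hom hπ a).target = π ⁻¹' D.O a := rfl

/-- the new chart `e ∘ Ψ a` -/
noncomputable def ch (hπ : Continuous π) (a : D.A) (e : OpenPartialHomeomorph X C2) :
    OpenPartialHomeomorph D.Tw C2 := (D.hom hπ a).trans e

theorem ch_apply (hπ : Continuous π) (a : D.A) (e : OpenPartialHomeomorph X C2) (x : D.Tw) :
    D.ch hπ a e x = e (D.Ψ a x) := rfl

theorem ch_symm_apply (hπ : Continuous π) (a : D.A) (e : OpenPartialHomeomorph X C2) (z : C2) :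
    (D.ch hπ a e).symm z = D.Ψ' a (e.symm z) := rfl

theorem mem_ch_source (hπ : Continuous π) {a : D.A} {e : OpenPartialHomeomorph X C2} {x : D.Tw} :
    x ∈ (D.ch hπ a e).source ↔ π x ∈ D.O a ∧ D.Ψ a x ∈ e.source := by
  rw [ch, OpenPartialHomeomorph.trans_source]
  rfl

theorem mem_ch_target (hπ : Continuous π) {a : D.A} {e : OpenPartialHomeomorph X C2} {z : C2} :
    z ∈ (D.ch hπ a e).target ↔ z ∈ e.target ∧ π (e.symm z) ∈ D.O a := by
  rw [ch, OpenPartialHomeomorph.trans_target]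
  rfl

/-- the twisted complex structure -/
@[reducible] noncomputable def charted (hπ : Continuous π) : ChartedSpace C2 D.Tw where
  atlas := {E | ∃ a, ∃ e ∈ atlas C2 X, E = D.ch hπ a e}
  chartAt x := D.ch hπ (D.idx (π x)) (chartAt C2 (D.Ψ (D.idx (π x)) x))
  mem_chart_source x := (D.mem_ch_source hπ).2 ⟨D.idx_mem _, mem_chart_source C2 _⟩
  chart_mem_atlas x := ⟨_, _, chart_mem_atlas C2 _, rfl⟩

/-- holomorphy of the transition maps -/
theorem trans_diff [IsManifold 𝓘(ℂ, C2) 1 X] (hπ : Continuous π) {a b : D.A}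
    {e e' : OpenPartialHomeomorph X C2}
    (he : e ∈ atlas C2 X) (he' : e' ∈ atlas C2 X) {z : C2} (hz : z ∈ (D.ch hπ a e).target)
    (hz' : (D.ch hπ a e).symm z ∈ (D.ch hπ b e').source) :
    DifferentiableAt ℂ (fun z => D.ch hπ b e' ((D.ch hπ a e).symm z)) z := by
  rw [mem_ch_target] at hz
  replace hz' : π (D.Ψ' a (e.symm z)) ∈ D.O b ∧ D.Ψ b (D.Ψ' a (e.symm z)) ∈ e'.source :=
    (D.mem_ch_source hπ).1 hz'
  have h0 : π (D.Ψ' a (e.symm z)) = π (e.symm z) := D.base' a _ hz.2
  rw [h0] at hz'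
  have h1 := mdifferentiableAt_atlas_symm (I := 𝓘(ℂ, C2)) he hz.1
  have h2 := D.hol a b (e.symm z) hz.2 hz'.1
  have h3 := mdifferentiableAt_atlas (I := 𝓘(ℂ, C2)) he' hz'.2
  exact (h3.comp z (h2.comp z h1)).differentiableAt

/-- the transition maps preserve the volume form -/
theorem trans_vol [IsManifold 𝓘(ℂ, C2) 1 X] (hπ : Continuous π) {a b : D.A}
    {e e' : OpenPartialHomeomorph X C2}
    (he : e ∈ atlas C2 X) (he' : e' ∈ atlas C2 X) {z : C2} (hz : z ∈ (D.ch hπ a e).target)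
    (hz' : (D.ch hπ a e).symm z ∈ (D.ch hπ b e').source) :
    vol.coef e z = vol.coef e' (D.ch hπ b e' ((D.ch hπ a e).symm z)) *
      (fderiv ℂ (fun z => D.ch hπ b e' ((D.ch hπ a e).symm z)) z).det := by
  rw [mem_ch_target] at hz
  replace hz' : π (D.Ψ' a (e.symm z)) ∈ D.O b ∧ D.Ψ b (D.Ψ' a (e.symm z)) ∈ e'.source :=
    (D.mem_ch_source hπ).1 hz'
  have h0 : π (D.Ψ' a (e.symm z)) = π (e.symm z) := D.base' a _ hz.2
  rw [h0] at hz'
  have h1 := D.vol_pres a b (e.symm z) hz.2 hz'.1 e he e' he' (e.map_target hz.1) hz'.2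
  rw [e.right_inv hz.1] at h1
  exact h1

theorem isManifold [IsManifold 𝓘(ℂ, C2) 1 X] (hπ : Continuous π) :
    @IsManifold ℂ _ C2 _ _ C2 _ 𝓘(ℂ, C2) ω D.Tw _ (D.charted hπ) := by
  let _ := D.charted hπ
  refine isManifold_of_contDiffOn 𝓘(ℂ, C2) ω D.Tw ?_
  rintro E E' ⟨a, e, he, rfl⟩ ⟨b, e', he', rfl⟩
  simp only [modelWithCornersSelf_coe, modelWithCornersSelf_coe_symm, Function.comp_id,
    Function.id_comp, preimage_id, range_id, inter_univ]
  have hO : IsOpen ((D.ch hπ a e).symm.trans (D.ch hπ b e')).source :=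
    ((D.ch hπ a e).symm.trans (D.ch hπ b e')).open_source
  have hd : DifferentiableOn ℂ ((D.ch hπ a e).symm.trans (D.ch hπ b e'))
      ((D.ch hπ a e).symm.trans (D.ch hπ b e')).source := by
    intro z hz
    rw [OpenPartialHomeomorph.trans_source] at hz
    exact (D.trans_diff hπ he he' hz.1 hz.2).differentiableWithinAt
  intro z hz
  exact (Vale.Agent.P268.analyticAt_of_differentiableOn hO hd hz).contDiffAt.contDiffWithinAt

/-- the coefficient of the twisted volume form -/
noncomputable def coef (hπ : Continuous π) (E : OpenPartialHomeomorph D.Tw C2) (z : C2) : ℂ :=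
  open Classical in
  if h : ∃ a, ∃ e ∈ atlas C2 X, E = D.ch hπ a e then
    vol.coef h.choose_spec.choose z else 0

/-- the twisted volume form -/
noncomputable def volForm [IsManifold 𝓘(ℂ, C2) 1 X] (hπ : Continuous π) :
    @VolForm D.Tw _ (D.charted hπ) := by
  letI := D.charted hπ
  refine ⟨D.coef hπ, ?_, ?_, ?_⟩
  · rintro E ⟨a, e, he, rfl⟩
    have h : ∃ a', ∃ e' ∈ atlas C2 X, D.ch hπ a e = D.ch hπ a' e' := ⟨a, e, he, rfl⟩
    have h1 : D.coef hπ (D.ch hπ a e) = vol.coef h.choose_spec.choose := by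
      funext z; rw [coef, dif_pos h]
    have h2 := h.choose_spec.choose_spec
    rw [h1]
    refine (vol.holo _ h2.1).mono ?_
    conv_lhs => rw [h2.2]
    exact fun z hz => ((D.mem_ch_target hπ).1 hz).1
  · rintro E ⟨a, e, he, rfl⟩ z hz
    have h : ∃ a', ∃ e' ∈ atlas C2 X, D.ch hπ a e = D.ch hπ a' e' := ⟨a, e, he, rfl⟩
    have h2 := h.choose_spec.choose_spec
    rw [coef, dif_pos h]
    rw [h2.2] at hz
    exact vol.ne_zero _ h2.1 z ((D.mem_ch_target hπ).1 hz).1
  · rintro E hE E' hE' z hz hz'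
    have h : ∃ a', ∃ e' ∈ atlas C2 X, E = D.ch hπ a' e' := hE
    have h' : ∃ a', ∃ e' ∈ atlas C2 X, E' = D.ch hπ a' e' := hE'
    have h2 := h.choose_spec.choose_spec
    have h2' := h'.choose_spec.choose_spec
    have k1 : D.coef hπ E z = vol.coef h.choose_spec.choose z := by rw [coef, dif_pos h]
    have k2 : D.coef hπ E' = vol.coef h'.choose_spec.choose := by
      funext z; rw [coef, dif_pos h']
    have h3 := D.trans_vol hπ (a := h.choose) (b := h'.choose) h2.1 h2'.1 (z := z)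
      (by rw [← h2.2]; exact hz) (by rw [← h2.2, ← h2'.2]; exact hz')
    rw [← h2.2, ← h2'.2] at h3
    rw [k1, k2]
    exact h3

/-- the projection of the twisted surface -/
def pr : D.Tw → C := π

end TwData

end Vale.Agent.P290.H867
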