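import Vale.Agent.P267.H399.Calc
import Vale.Agent.P268.Hol

/-!
# P290: forms pulled back from the base of a fibration, in the language of P267

`h` holomorphic on the open set `W`; `vt W h F = h^*(F ds ∧ ds̄)`, `vo W h k = h^*(k ds)`,
extended by zero outside `W`.
-/

set_option linter.unusedVariables false
set_option linter.unusedSectionVars false

open scoped Manifold ContDiff ComplexConjugate Topology
open Set Filter

noncomputable section

namespace Vale.Agent.P290.H867

open Vale.Agent.P267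

/-- `∂F/∂s` -/
def ds (F : ℂ → ℂ) (s : ℂ) : ℂ := (1 / 2 : ℂ) * (fderiv ℝ F s 1 - Complex.I * fderiv ℝ F s Complex.I)

/-- `∂F/∂s̄` -/
def dsb (F : ℂ → ℂ) (s : ℂ) : ℂ := (1 / 2 : ℂ) * (fderiv ℝ F s 1 + Complex.I * fderiv ℝ F s Complex.I)

theorem fderiv_eq_ds (F : ℂ → ℂ) (s w : ℂ) : fderiv ℝ F s w = ds F s * w + dsb F s * conj w := by
  have h1 : w = w.re • (1 : ℂ) + w.im • Complex.I := by
    apply Complex.ext <;> simp
  have h2 : fderiv ℝ F s w = w.re * fderiv ℝ F s 1 + w.im * fderiv ℝ F s Complex.I := by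
    conv_lhs => rw [h1]
    rw [map_add, map_smul, map_smul, Complex.real_smul, Complex.real_smul]
  have h3 : w = w.re + w.im * Complex.I := (Complex.re_add_im w).symm
  have h4 : conj w = w.re - w.im * Complex.I := by
    apply Complex.ext <;> simp
  rw [h2, ds, dsb, h4]
  conv_rhs => rw [h3]
  simp only [Complex.add_re, Complex.ofReal_re, Complex.mul_re, Complex.I_re, mul_zero,
    Complex.ofReal_im, Complex.I_im, mul_one, sub_self, add_zero, Complex.add_im,
    Complex.mul_im, zero_add]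
  linear_combination ((w.im : ℂ) * fderiv ℝ F s Complex.I) * Complex.I_mul_I

theorem ds_congr {F G : ℂ → ℂ} {s : ℂ} (h : F =ᶠ[𝓝 s] G) : ds F s = ds G s := by
  rw [ds, ds, h.fderiv_eq]

theorem dsb_congr {F G : ℂ → ℂ} {s : ℂ} (h : F =ᶠ[𝓝 s] G) : dsb F s = dsb G s := by
  rw [dsb, dsb, h.fderiv_eq]

theorem dsb_of_hol {F : ℂ → ℂ} {s : ℂ} (h : DifferentiableAt ℂ F s) : dsb F s = 0 := by
  have h1 : fderiv ℝ F s Complex.I = Complex.I * fderiv ℝ F s 1 := by
    rw [h.fderiv_restrictScalars ℝ]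
    simp only [ContinuousLinearMap.coe_restrictScalars']
    have := (fderiv ℂ F s).map_smul Complex.I 1
    simpa only [smul_eq_mul, mul_one] using this
  rw [dsb, h1]
  linear_combination (1 / 2 * fderiv ℝ F s 1) * Complex.I_mul_I

theorem ds_contDiff {F : ℂ → ℂ} {s : ℂ} (h : ContDiffAt ℝ ∞ F s) : ContDiffAt ℝ ∞ (ds F) s := by
  have h1 := h.fderiv_right (m := ∞) (by simp)
  exact contDiffAt_const.mul ((h1.clm_apply contDiffAt_const).sub
    (contDiffAt_const.mul (h1.clm_apply contDiffAt_const)))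

theorem dsb_contDiff {F : ℂ → ℂ} {s : ℂ} (h : ContDiffAt ℝ ∞ F s) : ContDiffAt ℝ ∞ (dsb F) s := by
  have h1 := h.fderiv_right (m := ∞) (by simp)
  exact contDiffAt_const.mul ((h1.clm_apply contDiffAt_const).add
    (contDiffAt_const.mul (h1.clm_apply contDiffAt_const)))

theorem ds_mul {F G : ℂ → ℂ} {s : ℂ} (hF : DifferentiableAt ℝ F s) (hG : DifferentiableAt ℝ G s) :
    ds (fun s => F s * G s) s = ds F s * G s + F s * ds G s := by
  rw [ds, ds, ds, fderiv_fun_mul hF hG]
  simp only [add_apply, smul_apply, smul_eq_mul]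
  ring

theorem dsb_mul {F G : ℂ → ℂ} {s : ℂ} (hF : DifferentiableAt ℝ F s)
    (hG : DifferentiableAt ℝ G s) :
    dsb (fun s => F s * G s) s = dsb F s * G s + F s * dsb G s := by
  rw [dsb, dsb, dsb, fderiv_fun_mul hF hG]
  simp only [add_apply, smul_apply, smul_eq_mul]
  ring

theorem dsb_const_mul (c : ℂ) {F : ℂ → ℂ} {s : ℂ} (hF : DifferentiableAt ℝ F s) :
    dsb (fun s => c * F s) s = c * dsb F s := by
  rw [dsb, dsb, fderiv_const_mul hF]
  simp only [smul_apply, smul_eq_mul]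
  ring

/-! ### chain rule -/

section chain

variable {F : ℂ → ℂ} {H : FL.C2 → ℂ} {z : FL.C2}

theorem dz_chain (hF : DifferentiableAt ℝ F (H z)) (hH : DifferentiableAt ℂ H z) (i : Fin 2) :
    FL.dz i (fun y => F (H y)) z = ds F (H z) * FL.dz i H z := by
  have h1 : fderiv ℝ (fun y => F (H y)) z = (fderiv ℝ F (H z)).comp (fderiv ℝ H z) :=
    fderiv_fun_comp z hF (hH.restrictScalars ℝ)
  have h2 : fderiv ℝ H z (Pi.single i Complex.I) = Complex.I * fderiv ℝ H z (Pi.single i 1) := by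
    rw [hH.fderiv_restrictScalars ℝ, FL.single_I]
    simp
  have h3 : FL.dz i H z = fderiv ℝ H z (Pi.single i 1) := by
    rw [FL.dz, h2]
    simp only [smul_eq_mul]
    linear_combination (-1 / 2 * fderiv ℝ H z (Pi.single i 1)) * Complex.I_mul_I
  rw [h3, FL.dz, h1]
  simp only [ContinuousLinearMap.comp_apply, smul_eq_mul, h2, fderiv_eq_ds, map_mul,
    Complex.conj_I]
  linear_combination (-1 / 2 * (ds F (H z) * fderiv ℝ H z (Pi.single i 1) -
    dsb F (H z) * conj (fderiv ℝ H z (Pi.single i 1)))) * Complex.I_mul_I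

theorem dzb_chain (hF : DifferentiableAt ℝ F (H z)) (hH : DifferentiableAt ℂ H z) (i : Fin 2) :
    FL.dzb i (fun y => F (H y)) z = dsb F (H z) * conj (FL.dz i H z) := by
  have h1 : fderiv ℝ (fun y => F (H y)) z = (fderiv ℝ F (H z)).comp (fderiv ℝ H z) :=
    fderiv_fun_comp z hF (hH.restrictScalars ℝ)
  have h2 : fderiv ℝ H z (Pi.single i Complex.I) = Complex.I * fderiv ℝ H z (Pi.single i 1) := by
    rw [hH.fderiv_restrictScalars ℝ, FL.single_I]
    simp
  have h3 : FL.dz i H z = fderiv ℝ H z (Pi.single i 1) := by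
    rw [FL.dz, h2]
    simp only [smul_eq_mul]
    linear_combination (-1 / 2 * fderiv ℝ H z (Pi.single i 1)) * Complex.I_mul_I
  rw [h3, FL.dzb, h1]
  simp only [ContinuousLinearMap.comp_apply, smul_eq_mul, h2, fderiv_eq_ds, map_mul,
    Complex.conj_I]
  linear_combination (1 / 2 * (ds F (H z) * fderiv ℝ H z (Pi.single i 1) -
    dsb F (H z) * conj (fderiv ℝ H z (Pi.single i 1)))) * Complex.I_mul_I

end chain

/-! ### vertical forms -/

section vert

variable {X : Type*} [TopologicalSpace X] [ChartedSpace FL.C2 X]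

open Classical in
/-- `h^*(F ds∧ds̄)` on `W`, zero elsewhere -/
def vt (W : Set X) (h : X → ℂ) (F : ℂ → ℂ) (x : X) : Matrix (Fin 2) (Fin 2) ℂ :=
  Matrix.of fun i j => if x ∈ W then F (h x) * (FL.del0 h x i * conj (FL.del0 h x j)) else 0

open Classical in
/-- `h^*(k ds)` on `W`, zero elsewhere -/
def vo (W : Set X) (h : X → ℂ) (k : ℂ → ℂ) (x : X) (i : Fin 2) : ℂ :=
  if x ∈ W then k (h x) * FL.del0 h x i else 0

/-- holomorphic on an open set, in charts -/
def HolW (W : Set X) (h : X → ℂ) : Prop :=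
  ∀ e ∈ atlas FL.C2 X, ∀ z ∈ e.target, e.symm z ∈ W → DifferentiableAt ℂ (fun y => h (e.symm y)) z

variable [IsManifold 𝓘(ℂ, FL.C2) ω X] {W : Set X} {h : X → ℂ}

theorem symm_eventually {e : FL.Ch X} {z : FL.C2} (hz : z ∈ e.target) (hW : IsOpen W)
    (hzW : e.symm z ∈ W) : ∀ᶠ y in 𝓝 z, y ∈ e.target ∧ e.symm y ∈ W :=
  (e.open_target.mem_nhds hz |> fun h1 => (Filter.eventually_of_mem h1 fun _ h => h).and
    ((e.continuousAt_symm hz).eventually (hW.mem_nhds hzW)))

/-- `∂h` in charts -/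
theorem jac_del0 (hh : HolW W h) {e : FL.Ch X} (he : e ∈ atlas FL.C2 X) {z : FL.C2}
    (hz : z ∈ e.target) (hzW : e.symm z ∈ W) (i : Fin 2) :
    ∑ p, FL.jac e (e.symm z) p i * FL.del0 h (e.symm z) p =
      FL.dz i (fun y => h (e.symm y)) z := by
  set x := e.symm z with hx
  have hxs : x ∈ e.source := e.map_target hz
  have hex : e x = z := e.right_inv hz
  set e' := chartAt FL.C2 x with he'd
  have he' : e' ∈ atlas FL.C2 X := chart_mem_atlas FL.C2 x
  have hx' : x ∈ e'.source := mem_chart_source FL.C2 x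
  have hev : (fun y => h (e.symm y)) =ᶠ[𝓝 z] fun y => (fun w => h (e'.symm w)) (e' (e.symm y)) := by
    have h1 := (FL.isOpen_trans e e').mem_nhds (FL.mem_trans hxs hx')
    rw [hex] at h1
    filter_upwards [h1] with y hy
    simp only [e'.left_inv hy.2]
  have hd : DifferentiableAt ℂ (fun w => h (e'.symm w)) (e' x) :=
    hh e' he' _ (e'.map_source hx') (by rw [e'.left_inv hx']; exact hzW)
  have htr := FL.trans_differentiableAt he he' hxs hx'
  rw [hex] at htr
  have hd' : DifferentiableAt ℝ (fun w => h (e'.symm w)) (e' (e.symm z)) := hd.restrictScalars ℝ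
  rw [FL.dz_congr hev, FL.dz_comp (f := fun w => h (e'.symm w)) (g := fun y => e' (e.symm y))
    hd' htr]
  refine Finset.sum_congr rfl fun p _ => ?_
  rw [FL.jac, FL.jacM, Matrix.of_apply, hex, smul_eq_mul]
  rfl

theorem loc11_vt (hh : HolW W h) (F : ℂ → ℂ) {e : FL.Ch X} (he : e ∈ atlas FL.C2 X) {z : FL.C2}
    (hz : z ∈ e.target) (hzW : e.symm z ∈ W) (i j : Fin 2) :
    FL.loc11 e (vt W h F) z i j = F (h (e.symm z)) * (FL.dz i (fun y => h (e.symm y)) z *
      conj (FL.dz j (fun y => h (e.symm y)) z)) := by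
  rw [← jac_del0 hh he hz hzW, ← jac_del0 hh he hz hzW]
  simp only [FL.loc11, vt, Matrix.of_apply, if_pos hzW, Fin.sum_univ_two, smul_eq_mul, map_add,
    map_mul]
  ring

theorem loc11_vt_out (F : ℂ → ℂ) {e : FL.Ch X} {z : FL.C2}
    (hzW : e.symm z ∉ W ∨ F (h (e.symm z)) = 0) (i j : Fin 2) :
    FL.loc11 e (vt W h F) z i j = 0 := by
  have h1 : ∀ p q, vt W h F (e.symm z) p q = 0 := by
    intro p q
    simp only [vt, Matrix.of_apply]
    split_ifs with h2
    · rcases hzW with h3 | h3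
      · exact absurd h2 h3
      · rw [h3, zero_mul]
    · rfl
  simp only [FL.loc11, Matrix.of_apply, h1, smul_zero, Finset.sum_const_zero]

theorem loc10_vo (hh : HolW W h) (k : ℂ → ℂ) {e : FL.Ch X} (he : e ∈ atlas FL.C2 X) {z : FL.C2}
    (hz : z ∈ e.target) (hzW : e.symm z ∈ W) (i : Fin 2) :
    FL.loc10 e (vo W h k) z i = k (h (e.symm z)) * FL.dz i (fun y => h (e.symm y)) z := by
  rw [← jac_del0 hh he hz hzW]
  simp only [FL.loc10, vo, if_pos hzW, Fin.sum_univ_two, smul_eq_mul]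
  ring

theorem loc10_vo_out (k : ℂ → ℂ) {e : FL.Ch X} {z : FL.C2}
    (hzW : e.symm z ∉ W ∨ k (h (e.symm z)) = 0) (i : Fin 2) :
    FL.loc10 e (vo W h k) z i = 0 := by
  have h1 : ∀ p, vo W h k (e.symm z) p = 0 := by
    intro p
    simp only [vo]
    split_ifs with h2
    · rcases hzW with h3 | h3
      · exact absurd h2 h3
      · rw [h3, zero_mul]
    · rfl
  simp only [FL.loc10, h1, smul_zero, Finset.sum_const_zero]

/-- the support condition: `F ∘ h` vanishes near the points outside `W` -/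
def Supp (W : Set X) (h : X → ℂ) (F : ℂ → ℂ) : Prop :=
  ∀ x, x ∉ W → ∀ᶠ y in 𝓝 x, y ∉ W ∨ F (h y) = 0

theorem h_analyticAt (hh : HolW W h) (hW : IsOpen W) {e : FL.Ch X} (he : e ∈ atlas FL.C2 X)
    {z : FL.C2} (hz : z ∈ e.target) (hzW : e.symm z ∈ W) :
    AnalyticAt ℂ (fun y => h (e.symm y)) z := by
  have hO : IsOpen (e.target ∩ e.symm ⁻¹' W) := e.isOpen_inter_preimage_symm hW
  refine Vale.Agent.P268.analyticAt_of_differentiableOn hO (fun y hy => ?_) ⟨hz, hzW⟩
  exact (hh e he y hy.1 hy.2).differentiableWithinAt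

theorem h_contDiffAt (hh : HolW W h) (hW : IsOpen W) {e : FL.Ch X} (he : e ∈ atlas FL.C2 X)
    {z : FL.C2} (hz : z ∈ e.target) (hzW : e.symm z ∈ W) :
    ContDiffAt ℝ ∞ (fun y => h (e.symm y)) z := by
  have h1 : ContDiffAt ℂ ∞ (fun y => h (e.symm y)) z := (h_analyticAt hh hW he hz hzW).contDiffAt
  exact h1.restrict_scalars ℝ

theorem dzh_analyticAt (hh : HolW W h) (hW : IsOpen W) {e : FL.Ch X} (he : e ∈ atlas FL.C2 X)
    {z : FL.C2} (hz : z ∈ e.target) (hzW : e.symm z ∈ W) (i : Fin 2) :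
    AnalyticAt ℂ (FL.dz i (fun y => h (e.symm y))) z := FL.hol_dz (h_analyticAt hh hW he hz hzW) i

theorem dzh_contDiffAt (hh : HolW W h) (hW : IsOpen W) {e : FL.Ch X} (he : e ∈ atlas FL.C2 X)
    {z : FL.C2} (hz : z ∈ e.target) (hzW : e.symm z ∈ W) (i : Fin 2) :
    ContDiffAt ℝ ∞ (FL.dz i (fun y => h (e.symm y))) z := by
  have h1 : ContDiffAt ℂ ∞ (FL.dz i (fun y => h (e.symm y))) z :=
    (dzh_analyticAt hh hW he hz hzW i).contDiffAt
  exact h1.restrict_scalars ℝ

theorem supp_eventually {F : ℂ → ℂ} (hs : Supp W h F) {e : FL.Ch X} {z : FL.C2}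
    (hz : z ∈ e.target) (hzW : e.symm z ∉ W) :
    ∀ᶠ y in 𝓝 z, e.symm y ∉ W ∨ F (h (e.symm y)) = 0 :=
  (e.continuousAt_symm hz).eventually (hs _ hzW)

theorem reg11_vt (hh : HolW W h) (hW : IsOpen W) {F : ℂ → ℂ} (hF : ContDiff ℝ ∞ F)
    (hs : Supp W h F) : FL.Reg11 ∞ (vt W h F) := by
  intro e he i j z hz
  refine ContDiffAt.contDiffWithinAt ?_
  by_cases hzW : e.symm z ∈ W
  · have h1 : (fun z => FL.loc11 e (vt W h F) z i j) =ᶠ[𝓝 z] fun y => F (h (e.symm y)) *
        (FL.dz i (fun y => h (e.symm y)) y * conj (FL.dz j (fun y => h (e.symm y)) y)) := by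
      filter_upwards [symm_eventually hz hW hzW] with y hy
      exact loc11_vt hh F he hy.1 hy.2 i j
    refine ContDiffAt.congr_of_eventuallyEq ?_ h1
    refine (hF.contDiffAt.comp z (h_contDiffAt hh hW he hz hzW)).mul
      ((dzh_contDiffAt hh hW he hz hzW i).mul ?_)
    exact Complex.conjCLE.contDiff.contDiffAt.comp z (dzh_contDiffAt hh hW he hz hzW j)
  · have h1 : (fun z => FL.loc11 e (vt W h F) z i j) =ᶠ[𝓝 z] fun y => 0 := by
      filter_upwards [supp_eventually hs hz hzW] with y hy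
      exact loc11_vt_out F hy i j
    exact contDiffAt_const.congr_of_eventuallyEq h1

theorem reg10_vo (hh : HolW W h) (hW : IsOpen W) {k : ℂ → ℂ} (hk : ContDiff ℝ ∞ k)
    (hs : Supp W h k) : FL.Reg10 ∞ (vo W h k) := by
  intro e he z hz
  refine ContDiffAt.contDiffWithinAt ?_
  rw [contDiffAt_pi]
  intro i
  by_cases hzW : e.symm z ∈ W
  · have h1 : (fun z => FL.loc10 e (vo W h k) z i) =ᶠ[𝓝 z] fun y => k (h (e.symm y)) *
        FL.dz i (fun y => h (e.symm y)) y := by
      filter_upwards [symm_eventually hz hW hzW] with y hy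
      exact loc10_vo hh k he hy.1 hy.2 i
    refine ContDiffAt.congr_of_eventuallyEq ?_ h1
    exact (hk.contDiffAt.comp z (h_contDiffAt hh hW he hz hzW)).mul
      (dzh_contDiffAt hh hW he hz hzW i)
  · have h1 : (fun z => FL.loc10 e (vo W h k) z i) =ᶠ[𝓝 z] fun y => 0 := by
      filter_upwards [supp_eventually hs hz hzW] with y hy
      exact loc10_vo_out k hy i
    exact contDiffAt_const.congr_of_eventuallyEq h1

/-- the two-form `h^*(F ds∧ds̄)` -/
def vtF (W : Set X) (h : X → ℂ) (F : ℂ → ℂ) : FL.TwoF X := ⟨fun _ => 0, vt W h F, fun _ => 0⟩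

/-- the one-form `h^*(k ds)` -/
def voF (W : Set X) (h : X → ℂ) (k : ℂ → ℂ) : FL.OneF X := ⟨vo W h k, fun _ _ => 0⟩

theorem loc0_z (κ : ℤ) (e : FL.Ch X) : FL.loc0 κ e (fun _ : X => (0 : ℂ)) = fun _ => 0 := by
  funext z
  simp [FL.loc0]

theorem loc2_z (κ : ℤ) (e : FL.Ch X) : FL.loc2 κ e (fun _ : X => (0 : ℂ)) = fun _ => 0 := by
  funext z
  simp [FL.loc2]

theorem loc1_z (κ : ℤ) (e : FL.Ch X) :
    FL.loc1 κ e (fun (_ : X) (_ : Fin 2) => (0 : ℂ)) = fun _ _ => 0 := by
  funext z i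
  simp [FL.loc1]

theorem vtF_smooth (hh : HolW W h) (hW : IsOpen W) {F : ℂ → ℂ} (hF : ContDiff ℝ ∞ F)
    (hs : Supp W h F) : (vtF W h F).Smooth where
  s20 e he := by
    have : FL.loc0 1 e (vtF W h F).f20 = fun _ => 0 := loc0_z 1 e
    rw [this]
    exact contDiffOn_const
  s11 := reg11_vt hh hW hF hs
  s02 e he := by
    have : FL.loc2 0 e (vtF W h F).f02 = fun _ => 0 := loc2_z 0 e
    rw [this]
    exact contDiffOn_const

theorem voF_smooth (hh : HolW W h) (hW : IsOpen W) {k : ℂ → ℂ} (hk : ContDiff ℝ ∞ k)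
    (hs : Supp W h k) : (voF W h k).Smooth where
  s10 := reg10_vo hh hW hk hs
  s01 e he := by
    have : FL.loc1 0 e (voF W h k).f01 = fun _ _ => 0 := loc1_z 0 e
    rw [this]
    exact contDiffOn_const

/-- `d (h^*(k ds)) = h^*(∂k/∂s̄ ds̄∧ds) = - h^*(∂k/∂s̄ ds∧ds̄)` -/
theorem voF_d (hh : HolW W h) (hW : IsOpen W) {k : ℂ → ℂ} (hk : ContDiff ℝ ∞ k)
    (hs : Supp W h k) : (voF W h k).d = vtF W h (fun s => -dsb k s) := by
  have key : ∀ x : X, FL.del10 (vo W h k) x = 0 ∧
      FL.dbar10 (vo W h k) x = vt W h (fun s => -dsb k s) x := by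
    intro x
    set e := chartAt FL.C2 x with he'
    have he : e ∈ atlas FL.C2 X := chart_mem_atlas FL.C2 x
    have hxs : x ∈ e.source := mem_chart_source FL.C2 x
    have hz : e x ∈ e.target := e.map_source hxs
    have hex : e.symm (e x) = x := e.left_inv hxs
    by_cases hxW : x ∈ W
    · have hzW : e.symm (e x) ∈ W := by rw [hex]; exact hxW
      have h1 : ∀ i, (fun z => FL.loc10 e (vo W h k) z i) =ᶠ[𝓝 (e x)] fun y =>
          (fun w => k (h (e.symm w))) y * FL.dz i (fun y => h (e.symm y)) y := by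
        intro i
        filter_upwards [symm_eventually hz hW hzW] with y hy
        exact loc10_vo hh k he hy.1 hy.2 i
      have hH : DifferentiableAt ℂ (fun y => h (e.symm y)) (e x) := hh e he _ hz hzW
      have hkd : DifferentiableAt ℝ k (h (e.symm (e x))) :=
        hk.contDiffAt.differentiableAt (by simp)
      have hkH : DifferentiableAt ℝ (fun w => k (h (e.symm w))) (e x) :=
        (hk.contDiffAt.comp (e x) (h_contDiffAt hh hW he hz hzW)).differentiableAt (by simp)
      have hdz : ∀ i, DifferentiableAt ℂ (FL.dz i (fun y => h (e.symm y))) (e x) := fun i =>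
        (dzh_analyticAt hh hW he hz hzW i).differentiableAt
      have hc := FL.dz_dz_comm ((h_contDiffAt hh hW he hz hzW).of_le
        (m := 2) (WithTop.coe_le_coe.2 le_top)) 0 1
      refine ⟨?_, ?_⟩
      · rw [FL.del10, ← he', FL.dz_congr (h1 1), FL.dz_congr (h1 0),
          FL.dz_mul hkH ((hdz 1).restrictScalars ℝ), FL.dz_mul hkH ((hdz 0).restrictScalars ℝ),
          hc, dz_chain hkd hH, dz_chain hkd hH]
        ring
      · ext i j
        have h3 : ∀ i, FL.dz i (fun y => h (e.symm y)) (e x) = FL.del0 h x i := fun i => rfl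
        rw [FL.dbar10, Matrix.of_apply, ← he', FL.dzb_congr (h1 i),
          FL.dzb_mul hkH ((hdz i).restrictScalars ℝ), FL.dzb_of_hol (hdz i), dzb_chain hkd hH,
          vt, Matrix.of_apply, if_pos hxW, h3, h3, hex]
        ring
    · have hzW : e.symm (e x) ∉ W := by rw [hex]; exact hxW
      have h1 : ∀ i, (fun z => FL.loc10 e (vo W h k) z i) =ᶠ[𝓝 (e x)] fun y => 0 := by
        intro i
        filter_upwards [supp_eventually hs hz hzW] with y hy
        exact loc10_vo_out k hy i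
      refine ⟨?_, ?_⟩
      · rw [FL.del10, ← he', FL.dz_congr (h1 1), FL.dz_congr (h1 0)]
        simp
      · ext i j
        rw [FL.dbar10, Matrix.of_apply, ← he', FL.dzb_congr (h1 i), vt, Matrix.of_apply,
          if_neg hxW]
        simp
  have e1 : (voF W h k).d.f20 = fun _ => 0 := by
    funext x
    exact (key x).1
  have e2 : (voF W h k).d.f11 = vt W h (fun s => -dsb k s) := by
    funext x
    have h0 : FL.del1 (fun (_ : X) (_ : Fin 2) => (0 : ℂ)) x = 0 := by
      ext i j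
      simp [FL.del1, loc1_z]
    have h1 : (voF W h k).d.f11 x =
      FL.del1 (fun (_ : X) (_ : Fin 2) => (0 : ℂ)) x + FL.dbar10 (vo W h k) x := rfl
    rw [h1, h0, zero_add]
    exact (key x).2
  have e3 : (voF W h k).d.f02 = fun _ => 0 := by
    funext x
    have h1 : (voF W h k).d.f02 x = FL.dbar1 0 (fun (_ : X) (_ : Fin 2) => (0 : ℂ)) x := rfl
    rw [h1, FL.dbar1, loc1_z]
    simp
  have h5 : ∀ G : FL.TwoF X, G = ⟨G.f20, G.f11, G.f02⟩ := fun G => rfl
  rw [h5 (voF W h k).d, e1, e2, e3]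
  rfl

theorem vtF_closed (hh : HolW W h) (hW : IsOpen W) {F : ℂ → ℂ} (hF : ContDiff ℝ ∞ F)
    (hs : Supp W h F) : (vtF W h F).Closed := by
  have key : ∀ x : X, (∀ j, FL.dz 0 (fun z => FL.loc11 (chartAt FL.C2 x) (vt W h F) z 1 j)
        (chartAt FL.C2 x x) - FL.dz 1 (fun z => FL.loc11 (chartAt FL.C2 x) (vt W h F) z 0 j)
        (chartAt FL.C2 x x) = 0) ∧
      (∀ i, FL.dzb 0 (fun z => FL.loc11 (chartAt FL.C2 x) (vt W h F) z i 1)
        (chartAt FL.C2 x x) - FL.dzb 1 (fun z => FL.loc11 (chartAt FL.C2 x) (vt W h F) z i 0)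
        (chartAt FL.C2 x x) = 0) := by
    intro x
    set e := chartAt FL.C2 x with he'
    have he : e ∈ atlas FL.C2 X := chart_mem_atlas FL.C2 x
    have hxs : x ∈ e.source := mem_chart_source FL.C2 x
    have hz : e x ∈ e.target := e.map_source hxs
    have hex : e.symm (e x) = x := e.left_inv hxs
    by_cases hxW : x ∈ W
    · have hzW : e.symm (e x) ∈ W := by rw [hex]; exact hxW
      have h1 : ∀ i j, (fun z => FL.loc11 e (vt W h F) z i j) =ᶠ[𝓝 (e x)] fun y =>
          (fun w => F (h (e.symm w))) y * (FL.dz i (fun y => h (e.symm y)) y *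
            conj (FL.dz j (fun y => h (e.symm y)) y)) := by
        intro i j
        filter_upwards [symm_eventually hz hW hzW] with y hy
        exact loc11_vt hh F he hy.1 hy.2 i j
      have hH : DifferentiableAt ℂ (fun y => h (e.symm y)) (e x) := hh e he _ hz hzW
      have hkd : DifferentiableAt ℝ F (h (e.symm (e x))) :=
        hF.contDiffAt.differentiableAt (by simp)
      have hkH : DifferentiableAt ℝ (fun w => F (h (e.symm w))) (e x) :=
        (hF.contDiffAt.comp (e x) (h_contDiffAt hh hW he hz hzW)).differentiableAt (by simp)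
      have hdz : ∀ i, DifferentiableAt ℂ (FL.dz i (fun y => h (e.symm y))) (e x) := fun i =>
        (dzh_analyticAt hh hW he hz hzW i).differentiableAt
      have hdzr : ∀ i, DifferentiableAt ℝ (FL.dz i (fun y => h (e.symm y))) (e x) := fun i =>
        (hdz i).restrictScalars ℝ
      have hc := FL.dz_dz_comm ((h_contDiffAt hh hW he hz hzW).of_le
        (m := 2) (WithTop.coe_le_coe.2 le_top)) 0 1
      have hcj : ∀ i, DifferentiableAt ℝ (fun y => conj (FL.dz i (fun y => h (e.symm y)) y))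
          (e x) := fun i => FL.differentiableAt_conj (hdzr i)
      refine ⟨fun j => ?_, fun i => ?_⟩
      · rw [FL.dz_congr (h1 1 j), FL.dz_congr (h1 0 j),
          FL.dz_mul hkH ((hdzr 1).fun_mul (hcj j)), FL.dz_mul hkH ((hdzr 0).fun_mul (hcj j)),
          FL.dz_mul (hdzr 1) (hcj j), FL.dz_mul (hdzr 0) (hcj j), FL.dz_conj (hdzr j),
          FL.dz_conj (hdzr j), FL.dzb_of_hol (hdz j), FL.dzb_of_hol (hdz j),
          hc, dz_chain hkd hH, dz_chain hkd hH]
        simp only [map_zero]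
        ring
      · have hc' : conj (FL.dz 0 (FL.dz 1 (fun y => h (e.symm y))) (e x)) =
            conj (FL.dz 1 (FL.dz 0 (fun y => h (e.symm y))) (e x)) := by rw [hc]
        rw [FL.dzb_congr (h1 i 1), FL.dzb_congr (h1 i 0),
          FL.dzb_mul hkH ((hdzr i).fun_mul (hcj 1)), FL.dzb_mul hkH ((hdzr i).fun_mul (hcj 0)),
          FL.dzb_mul (hdzr i) (hcj 1), FL.dzb_mul (hdzr i) (hcj 0), FL.dzb_conj (hdzr 1),
          FL.dzb_conj (hdzr 0), FL.dzb_of_hol (hdz i), FL.dzb_of_hol (hdz i),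
          hc', dzb_chain hkd hH, dzb_chain hkd hH]
        ring
    · have hzW : e.symm (e x) ∉ W := by rw [hex]; exact hxW
      have h1 : ∀ i j, (fun z => FL.loc11 e (vt W h F) z i j) =ᶠ[𝓝 (e x)] fun y => 0 := by
        intro i j
        filter_upwards [supp_eventually hs hz hzW] with y hy
        exact loc11_vt_out F hy i j
      refine ⟨fun j => ?_, fun i => ?_⟩
      · rw [FL.dz_congr (h1 1 j), FL.dz_congr (h1 0 j)]
        simp
      · rw [FL.dzb_congr (h1 i 1), FL.dzb_congr (h1 i 0)]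
        simp
  refine ⟨fun x j => ?_, fun x i => ?_⟩
  · have h1 : FL.dbar0 1 (vtF W h F).f20 x j = 0 := by
      have : (vtF W h F).f20 = fun _ => 0 := rfl
      rw [this, FL.dbar0, loc0_z]
      simp
    rw [FL.TwoF.d21, h1, zero_add]
    exact (key x).1 j
  · have h1 : FL.dz i (FL.loc2 0 (chartAt FL.C2 x) (vtF W h F).f02) (chartAt FL.C2 x x) = 0 := by
      have : (vtF W h F).f02 = fun _ => 0 := rfl
      rw [this, loc2_z]
      simp
    rw [FL.TwoF.d12, h1, zero_sub, neg_eq_zero]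
    exact (key x).2 i

end vert

end Vale.Agent.P290.H867
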